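import Vale.Agent.P032.H728.Mix

/-!
# P032: potential and label together, counted form from the exceptional states

`false_of_hybcnt` : outside the exceptional states `Fb` the potential `φ` does not increase and the
label `F` is constant where `φ` is constant; the label changes and the potential does not at the
turn by 60 degrees; from the exceptional states the counted form.
-/

open Set Filter Topology Metric

noncomputable section

namespace Vale.Agent.P032.H728

open Vale.Agent.P032.Six Vale.Agent.P032.Sweep Vale.Agent.P032.S5.H767 Vale.Agent.P032.S5.H122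
  Vale.Agent.P032.H429 Vale.Agent.P032.H158

section

variable {U : Fin 6 → Set ℂ} {T : ℂ → Set (Fin 6)} {z : ℂ} {L R : Fin 6 → ℝ}

/-- **The hybrid form**: potential and label outside `Fb`, the counted form from a start in
`Fb`. -/
theorem false_of_hybcnt (h : Irr U T) (w : WinData T z L R) {Sd : Fin 6 → Prop}
    (hD : ∀ i, Sd i → L i ∈ closure (Dr U z i) ∧ R i ∈ closure (Dr U z i))
    {E : St → St → Prop}
    (hE : ∀ u, ∀ s ∈ LS T z L R u, ∀ s' ∈ RS T z L R u, E s s') {α : Type*} {Fb : St → Prop}
    {φ : St → ℕ} {F : St → α}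
    (hsh : ∀ s, OkC Sd E s → ¬ Fb s → φ (H429.shift s) = φ s ∧ F (H429.shift s) ≠ F s)
    (pot : ∀ s s', StepC Sd E s s' → ¬ Fb s → ¬ Fb s' →
      φ s' < φ s ∨ (φ s' = φ s ∧ F s' = F s)) {A : St → Cl → Cn → Prop}
    (init : ∀ s0, Fb s0 → OkC Sd E s0 → A s0 s0.1 (fun _ => (false, false)))
    (step : ∀ s0, Fb s0 → OkC Sd E s0 → ∀ g c g' c', A s0 g c → leC c c' →
      StepC Sd E (g, mvW s0.2 c) (g', mvW s0.2 c') → A s0 g' c')
    (fin : ∀ s0, Fb s0 → OkC Sd E s0 → ¬ A s0 (H429.shift s0).1 (fun _ => (true, true))) :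
    False := by
  by_cases hF : ∃ t ∈ WinData.G T z L R, Fb (WinData.st T z L R t)
  · obtain ⟨a, haG, ha⟩ := hF
    have hok := okC_gen h w hD hE haG
    refine false_of_run h w haG (A := A (WinData.st T z L R a)) (init _ ha hok) ?_
      (fin _ ha hok)
    intro u _ g c g' c' hA hc hs hs'
    exact step _ ha hok g c g' c' hA hc (stepC h w hD hE hs hs')
  · push Not at hF
    obtain ⟨a, haG⟩ := (WinData.G_dense h z L R).nonempty
    obtain ⟨e1, e2⟩ := hsh _ (okC_gen h w hD hE haG) (hF a haG)
    refine false_of_run h w haG (A := fun g c =>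
      φ (g, mvW (wn L R a) c) < φ (WinData.st T z L R a) ∨
        (φ (g, mvW (wn L R a) c) = φ (WinData.st T z L R a) ∧
          F (g, mvW (wn L R a) c) = F (WinData.st T z L R a))) ?_ ?_ ?_
    · have e : mvW (wn L R a) (fun _ => (false, false)) = wn L R a := by
        rw [← cr_self L R a, ← wn_cr w.le le_rfl (by linarith)]
      right
      rw [e]
      exact ⟨rfl, rfl⟩
    · intro u _ g c g' c' hA _ hs hs'
      have n1 : ¬ Fb (g, mvW (wn L R a) c) := by
        obtain ⟨v, hv, he⟩ := LS_gen hs
        rw [← he]; exact hF v hv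
      have n2 : ¬ Fb (g', mvW (wn L R a) c') := by
        obtain ⟨v, hv, he⟩ := RS_gen hs'
        rw [← he]; exact hF v hv
      rcases pot _ _ (stepC h w hD hE hs hs') n1 n2 with h3 | ⟨h3, h4⟩
      · left
        rcases hA with h5 | ⟨h5, -⟩
        · exact h3.trans h5
        · rw [← h5]; exact h3
      · rw [h3, h4]
        exact hA
    · have e : mvW (wn L R a) (fun _ => (true, true)) = (H429.shift (WinData.st T z L R a)).2 := by
        rw [← cr_turn L R a, ← wn_cr w.le (by linarith) le_rfl, ← WinData.st_turn]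
        rfl
      rw [e]
      show ¬ (φ (H429.shift (WinData.st T z L R a)) < φ (WinData.st T z L R a) ∨
        (φ (H429.shift (WinData.st T z L R a)) = φ (WinData.st T z L R a) ∧
          F (H429.shift (WinData.st T z L R a)) = F (WinData.st T z L R a)))
      rintro (h3 | ⟨-, h3⟩)
      · rw [e1] at h3
        exact lt_irrefl _ h3
      · exact e2 h3

end

end Vale.Agent.P032.H728
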