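import Vale.Agent.P032.H728.Mix

/-!
# P032: the counted form from a state of minimal rank

`false_of_rank` : the counted form with a start at a generic time where a rank of the states is
minimal; the closure needs only the states whose rank is not smaller and which satisfy a predicate
`P` known at all generic times.
-/

open Set Filter Topology Metric

noncomputable section

namespace Vale.Agent.P032.H728

open Vale.Agent.P032.Six Vale.Agent.P032.Sweep Vale.Agent.P032.S5.H767 Vale.Agent.P032.S5.H122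
  Vale.Agent.P032.H429 Vale.Agent.P032.H158

section

variable {U : Fin 6 → Set ℂ} {T : ℂ → Set (Fin 6)} {z : ℂ} {L R : Fin 6 → ℝ}

/-- **The counted form from a state of minimal rank.**  `P` holds at all generic times. -/
theorem false_of_rank (h : Irr U T) (w : WinData T z L R) {Sd : Fin 6 → Prop}
    (hD : ∀ i, Sd i → L i ∈ closure (Dr U z i) ∧ R i ∈ closure (Dr U z i))
    {E : St → St → Prop}
    (hE : ∀ u, ∀ s ∈ LS T z L R u, ∀ s' ∈ RS T z L R u, E s s') {P : St → Prop}
    (hP : ∀ t ∈ WinData.G T z L R, P (WinData.st T z L R t)) (rk : St → ℕ)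
    {A : St → Cl → Cn → Prop}
    (init : ∀ s0, OkC Sd E s0 → P s0 → A s0 s0.1 (fun _ => (false, false)))
    (step : ∀ s0, OkC Sd E s0 → P s0 → ∀ g c g' c', A s0 g c → leC c c' →
      StepC Sd E (g, mvW s0.2 c) (g', mvW s0.2 c') → P (g, mvW s0.2 c) → P (g', mvW s0.2 c') →
      rk s0 ≤ rk (g, mvW s0.2 c) → rk s0 ≤ rk (g', mvW s0.2 c') → A s0 g' c')
    (fin : ∀ s0, OkC Sd E s0 → P s0 → ¬ A s0 (H429.shift s0).1 (fun _ => (true, true))) :
    False := by
  classical
  have hex : ∃ n, ∃ t ∈ WinData.G T z L R, rk (WinData.st T z L R t) = n := by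
    obtain ⟨a, haG⟩ := (WinData.G_dense h z L R).nonempty
    exact ⟨_, a, haG, rfl⟩
  obtain ⟨a, haG, ha⟩ := Nat.find_spec hex
  have hmin : ∀ t ∈ WinData.G T z L R, rk (WinData.st T z L R a) ≤ rk (WinData.st T z L R t) := by
    intro t ht
    rw [ha]
    exact Nat.find_min' hex ⟨t, ht, rfl⟩
  have hok := okC_gen h w hD hE haG
  have hPa := hP a haG
  refine false_of_run h w haG (A := A (WinData.st T z L R a)) (init _ hok hPa) ?_ (fin _ hok hPa)
  intro u _ g c g' c' hA hc hs hs'
  obtain ⟨v, hv, hv'⟩ := LS_gen hs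
  obtain ⟨x, hx, hx'⟩ := RS_gen hs'
  refine step _ hok hPa g c g' c' hA hc (stepC h w hD hE hs hs') ?_ ?_ ?_ ?_
  · show P (g, mvW (wn L R a) c)
    rw [← hv']
    exact hP v hv
  · show P (g', mvW (wn L R a) c')
    rw [← hx']
    exact hP x hx
  · show _ ≤ rk (g, mvW (wn L R a) c)
    rw [← hv']
    exact hmin v hv
  · show _ ≤ rk (g', mvW (wn L R a) c')
    rw [← hx']
    exact hmin x hx

/-- **The counted form** with a set of starts and a predicate `P` at all generic times. -/
theorem false_of_cntE (h : Irr U T) (w : WinData T z L R) {Sd : Fin 6 → Prop}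
    (hD : ∀ i, Sd i → L i ∈ closure (Dr U z i) ∧ R i ∈ closure (Dr U z i))
    {E : St → St → Prop}
    (hE : ∀ u, ∀ s ∈ LS T z L R u, ∀ s' ∈ RS T z L R u, E s s') {S0 P : St → Prop}
    (h0 : ∃ t ∈ WinData.G T z L R, S0 (WinData.st T z L R t))
    (hP : ∀ t ∈ WinData.G T z L R, P (WinData.st T z L R t)) {A : St → Cl → Cn → Prop}
    (init : ∀ s0, S0 s0 → OkC Sd E s0 → P s0 → A s0 s0.1 (fun _ => (false, false)))
    (step : ∀ s0, S0 s0 → OkC Sd E s0 → P s0 → ∀ g c g' c', A s0 g c → leC c c' →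
      StepC Sd E (g, mvW s0.2 c) (g', mvW s0.2 c') → P (g, mvW s0.2 c) → P (g', mvW s0.2 c') →
      A s0 g' c')
    (fin : ∀ s0, S0 s0 → OkC Sd E s0 → P s0 →
      ¬ A s0 (H429.shift s0).1 (fun _ => (true, true))) : False := by
  obtain ⟨a, haG, ha⟩ := h0
  have hok := okC_gen h w hD hE haG
  have hPa := hP a haG
  refine false_of_run h w haG (A := A (WinData.st T z L R a)) (init _ ha hok hPa) ?_
    (fin _ ha hok hPa)
  intro u _ g c g' c' hA hc hs hs'
  obtain ⟨v, hv, hv'⟩ := LS_gen hs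
  obtain ⟨x, hx, hx'⟩ := RS_gen hs'
  refine step _ ha hok hPa g c g' c' hA hc (stepC h w hD hE hs hs') ?_ ?_
  · show P (g, mvW (wn L R a) c)
    rw [← hv']
    exact hP v hv
  · show P (g', mvW (wn L R a) c')
    rw [← hx']
    exact hP x hx

end

end Vale.Agent.P032.H728
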