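import Vale.Agent.P032.H728.GD.K0
import Vale.Agent.P032.H728.GD.K1
import Vale.Agent.P032.H728.GD.K2
import Vale.Agent.P032.H728.GD.K3
import Vale.Agent.P032.H728.GD.K4
import Vale.Agent.P032.H728.GD.K5
import Vale.Agent.P032.H728.GD.K6
import Vale.Agent.P032.H728.GD.K7
import Vale.Agent.P032.H728.GD.K8
import Vale.Agent.P032.H728.GD.K9
import Vale.Agent.P032.H728.GD.K10
import Vale.Agent.P032.H728.GD.K11
import Vale.Agent.P032.H728.GD.K12
import Vale.Agent.P032.H728.GD.K13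
import Vale.Agent.P032.H728.GD.K14
import Vale.Agent.P032.H728.GD.K15
import Vale.Agent.P032.H728.GD.K16
import Vale.Agent.P032.H728.GD.K17
import Vale.Agent.P032.H728.GD.K18

/-! # P032: all checks -/

namespace Vale.Agent.P032.H728.G

theorem ap {P : List ℕ → Prop} {a b : List (List ℕ)} (h1 : ∀ l ∈ a, P l) (h2 : ∀ l ∈ b, P l) :
    ∀ l ∈ a ++ b, P l := by
  intro l hl
  rcases List.mem_append.1 hl with h | h
  · exact h1 l h
  · exact h2 l h

/-- all lists -/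
def llA : List (List ℕ) :=
  ll0 ++ (ll1 ++ (ll2 ++ (ll3 ++ (ll4 ++ (ll5 ++ (ll6 ++ (ll7 ++ (ll8 ++ (ll9 ++ (ll10 ++ (ll11 ++ (ll12 ++ (ll13 ++ (ll14 ++ (ll15 ++ (ll16 ++ (ll17 ++ ll18)))))))))))))))))

theorem klA : ∀ l ∈ llA, chkL Cs Es Ns l = true :=
  ap kl0 (ap kl1 (ap kl2 (ap kl3 (ap kl4 (ap kl5 (ap kl6 (ap kl7 (ap kl8 (ap kl9 (ap kl10 (ap kl11 (ap kl12 (ap kl13 (ap kl14 (ap kl15 (ap kl16 (ap kl17 kl18)))))))))))))))))

theorem cov_chk : allr (List.range 905)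
    (fun i => anyr llA fun l => anyr l fun x => Nat.beq x i) = true := by
  decide +kernel

theorem chk_all : ∀ i < 905, chkI Cs Es i (Ns i) = true := by
  intro i hi
  have h := cov_chk
  rw [allr_eq, List.all_eq_true] at h
  have h1 := h i (List.mem_range.2 hi)
  rw [anyr_eq, List.any_eq_true] at h1
  obtain ⟨l, hl, h2⟩ := h1
  rw [anyr_eq, List.any_eq_true] at h2
  obtain ⟨x, hx, h3⟩ := h2
  have h4 : x = i := Nat.eq_of_beq_eq_true h3
  have h5 := klA l hl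
  unfold chkL at h5
  rw [allr_eq, List.all_eq_true] at h5
  have h6 := h5 x hx
  rw [h4] at h6
  exact h6

end Vale.Agent.P032.H728.G
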