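import Vale.Agent.P032.H728.GD.All

/-! # P032: bounds of the indices in the closures -/

namespace Vale.Agent.P032.H728.G

theorem nb_chk : allr (List.range 905)
    (fun i => allr (Ns i) fun x => Nat.ble (Nat.succ x.i) 905) = true := by
  decide +kernel

theorem nb_all : ∀ i < 905, ∀ x ∈ Ns i, x.i < 905 := by
  intro i hi x hx
  have h := nb_chk
  rw [allr_eq, List.all_eq_true] at h
  have h1 := h i (List.mem_range.2 hi)
  rw [allr_eq, List.all_eq_true] at h1
  have h2 : x.i + 1 ≤ 905 := Nat.ble_eq.mp (h1 x hx)
  exact h2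

end Vale.Agent.P032.H728.G
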