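import Vale.Agent.P032.H728.GStT
import Vale.Agent.P032.H728.GNb
import Vale.Agent.P032.H728.GChk
import Vale.Agent.P032.H623.NsIff

/-!
# P032: the end of the windowed centre

`false_of_nsc` : no system of windows has all its pairs of columns without a swap and without a six
conveyor.
-/

namespace Vale.Agent.P032.H728.G

open Vale.Agent.P032.Six Vale.Agent.P032.H429 Vale.Agent.P032.H158 Vale.Agent.P032.H728
  Vale.Agent.P032.H623

theorem nsC_T (σ : Equiv.Perm (Fin 6)) (k : ℕ) : ∀ s s' : St, NsC s.1 s'.1 →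
    NsC (T σ k s).1 (T σ k s').1 := by
  induction k with
  | zero => intro s s' h; exact ens_prm σ s s' h
  | succ k ih =>
    intro s s' h
    have h1 := ih (H429.shift s) (H429.shift s') (ens_turn s s' h)
    unfold T at h1 ⊢
    rw [Function.iterate_succ_apply, Function.iterate_succ_apply]
    exact h1

/-- **The end**: all pairs of columns are `NsC` is impossible. -/
theorem false_of_nsc {U : Fin 6 → Set ℂ} {T0 : ℂ → Set (Fin 6)} {z : ℂ} {L R : Fin 6 → ℝ}
    (h : Irr U T0) (w : WinData T0 z L R)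
    (hE : ∀ u, ∀ s ∈ LS T0 z L R u, ∀ s' ∈ RS T0 z L R u, NsC s.1 s'.1) : False :=
  H838.GTr.g_end h w (Kl := fun g g' => ¬ NsC g g')
    (fun u s hs s' hs' hk => hk (hE u s hs s' hs'))
    (fun σ k s s' h1 h2 => h1 (nsC_T σ k s s' h2)) statCs
    (fun i hi => (chkI_ok (chk_all i hi)).1) (fun i hi => (chkI_ok (chk_all i hi)).2.1)
    (fun i hi => (chkI_ok (chk_all i hi)).2.2) nb_all

end Vale.Agent.P032.H728.G
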