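import Vale.Agent.P032.H728.Sym
import Vale.Agent.P032.H314.NoSucc

/-!
# P032: every generic column is one of 57

`L57` : the words (base 8, inner and outer colour of the slots `0, .., 5`) of the `57` columns.
`static57` : the column of every state with the static rules (`OkC All`) is, after `k` turns, a
column of `L57` with renamed colours.  `static57_gen` : the same at every generic time of a centre
with windows.
-/

open Set Filter Topology Metric

noncomputable section

namespace Vale.Agent.P032.H728

open Vale.Agent.P032.Six Vale.Agent.P032.Sweep Vale.Agent.P032.S5.H767 Vale.Agent.P032.S5.H122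
  Vale.Agent.P032.H429 Vale.Agent.P032.H158

/-! ### words -/

/-- the digit of a word (base 8) -/
def dg (w p : ℕ) : ℕ := w / 8 ^ p % 8

/-- the word of a sequence -/
def cdw (a : ℕ → ℕ) : ℕ → ℕ
  | 0 => 0
  | n + 1 => cdw a n + a n * 8 ^ n

theorem dg_cdw {a : ℕ → ℕ} (ha : ∀ p, a p < 8) {n p : ℕ} (hp : p < n) : dg (cdw a n) p = a p := by
  induction n with
  | zero => exact absurd hp (Nat.not_lt_zero _)
  | succ n ih =>
    have hlt : ∀ m, cdw a m < 8 ^ m := by
      intro m
      induction m with
      | zero => exact Nat.one_pos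
      | succ m ihm =>
        have h1 := ha m
        have h2 : a m * 8 ^ m ≤ 7 * 8 ^ m := Nat.mul_le_mul_right _ (by omega)
        show cdw a m + a m * 8 ^ m < 8 ^ (m + 1)
        rw [pow_succ]
        omega
    show (cdw a n + a n * 8 ^ n) / 8 ^ p % 8 = a p
    rcases Nat.lt_succ_iff_lt_or_eq.1 hp with h | h
    · obtain ⟨d, rfl⟩ := Nat.exists_eq_add_of_lt h
      have e : a (p + d + 1) * 8 ^ (p + d + 1) = 8 ^ p * (8 * (a (p + d + 1) * 8 ^ d)) := by
        rw [pow_succ, pow_add]; ring
      have e2 := ih h
      unfold dg at e2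
      rw [e, Nat.add_mul_div_left _ _ (by positivity), Nat.add_mul_mod_self_left, e2]
    · subst h
      rw [Nat.add_mul_div_right _ _ (by positivity),
        Nat.div_eq_of_lt (hlt p), zero_add, Nat.mod_eq_of_lt (ha p)]

/-! ### masks -/

/-- row `p` (bits `42 p + b`): `b < 24` the codes of the windows allowed for the letter at the
place `p`, then the lines of `Cov` and XC which the colour at the place `p` can serve -/
def rT : ℕ :=
  0xbaefdc0004eebbf0137005d7fcdc000575ff001370aebfc4dc002baff000137d75fc04dc035d7f700013ebafc004dc3aebf37000175dfc0004ddd77f137000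

/-- bits `18 c + b` of the code `c` of a window: the rays inside, the slots with `outc`, the slots
with `innc` -/
def tT : ℕ :=
  0x1c48031b0047e000008c24210d8823700000c4123084c431380000e20118c062381c000071008c60311c8c000038804632108ec40

/-- the code of a window -/
def wc (w : ZMod 6 × ℕ) : ℕ := 4 * w.1.val + w.2

def row (p : ℕ) : ℕ := (rT >>> (42 * p)) &&& 0x3ffffffffff

def tb (c : ℕ) : ℕ := (tT >>> (18 * c)) &&& 0x3ffff

/-- the mask of the colour `i` in the word `w` -/
def msk (w i : ℕ) : List ℕ → ℕ
  | [] => 0x3ffffffffff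
  | p :: l => bif Nat.beq (dg w p) i then msk w i l &&& row p else msk w i l

/-- what the window `c` of a colour with the mask `m` serves -/
def ct (m c : ℕ) : ℕ := tb c &&& (m >>> 24)

def l24 : List ℕ := [0, 1, 2, 3, 4, 5, 6, 7, 8, 9, 10, 11, 12, 13, 14, 15, 16, 17, 18, 19, 20, 21,
  22, 23]

def l12 : List ℕ := [0, 1, 2, 3, 4, 5, 6, 7, 8, 9, 10, 11]

def l6 : List ℕ := [0, 1, 2, 3, 4, 5]

/-- what all windows allowed by `m` serve -/
def fu (m : ℕ) : List ℕ → ℕ
  | [] => 0
  | c :: l => bif m.testBit c then fu m l ||| ct m c else fu m l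

def fus : List ℕ → ℕ
  | [] => 0
  | m :: l => fus l ||| fu m l24

/-- no choice of windows serves everything -/
def dead : List ℕ → ℕ → Bool
  | [], acc => !(Nat.beq (acc &&& 0x3ffff) 0x3ffff)
  | m :: l, acc => !(Nat.beq ((acc ||| fus (m :: l)) &&& 0x3ffff) 0x3ffff) ||
      l24.all fun c => !(m.testBit c) || dead l (acc ||| ct m c)

def deadw (w : ℕ) : Bool :=
  (l6.any fun i => Nat.beq (msk w i l12 &&& 0xffffff) 0) || dead (l6.map fun i => msk w i l12) 0

/-- bit `b < 18` is missing -/
theorem miss_of {a : ℕ} (h : (!(Nat.beq (a &&& 0x3ffff) 0x3ffff)) = true) :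
    ∃ b < 18, a.testBit b = false := by
  by_contra hcon
  push Not at hcon
  have e : a &&& 0x3ffff = 0x3ffff := by
    refine Nat.eq_of_testBit_eq fun b => ?_
    rw [Nat.testBit_and]
    have e2 : (0x3ffff : ℕ) = 2 ^ 18 - 1 := by norm_num
    rw [e2, Nat.testBit_two_pow_sub_one]
    by_cases hb : b < 18
    · rw [Bool.eq_true_of_not_eq_false (hcon b hb), decide_eq_true hb]
      rfl
    · rw [decide_eq_false hb, Bool.and_false]
  rw [e] at h
  revert h
  decide

theorem ct_le_fu {m c b : ℕ} (hm : m.testBit c = true) (hb : (ct m c).testBit b = true) :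
    ∀ l : List ℕ, c ∈ l → (fu m l).testBit b = true := by
  intro l
  induction l with
  | nil => exact fun h => absurd h (List.not_mem_nil)
  | cons d l ih =>
    intro h
    unfold fu
    rcases List.mem_cons.1 h with h | h
    · subst h
      rw [hm, cond_true, Nat.testBit_or, hb, Bool.or_true]
    · have := ih h
      cases m.testBit d with
      | true => rw [cond_true, Nat.testBit_or, this, Bool.true_or]
      | false => rw [cond_false]; exact this

theorem mem_l24 {c : ℕ} (h : c < 24) : c ∈ l24 := by
  have : ∀ c : Fin 24, c.val ∈ l24 := by decide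
  exact this ⟨c, h⟩

/-- **Soundness of the search.** -/
theorem dead_sound (M W : ℕ → ℕ) : ∀ (l : List ℕ) (acc : ℕ), dead (l.map M) acc = true →
    (∀ i ∈ l, (M i).testBit (W i) = true ∧ W i < 24) →
    ∃ b < 18, acc.testBit b = false ∧ ∀ i ∈ l, (ct (M i) (W i)).testBit b = false := by
  intro l
  induction l with
  | nil =>
    intro acc h _
    obtain ⟨b, hb, h1⟩ := miss_of h
    exact ⟨b, hb, h1, fun i hi => absurd hi (List.not_mem_nil)⟩
  | cons j l ih =>
    intro acc h hW
    rw [List.map_cons] at h
    unfold dead at h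
    rw [Bool.or_eq_true_iff] at h
    rcases h with h | h
    · obtain ⟨b, hb, h1⟩ := miss_of h
      rw [Nat.testBit_or, Bool.or_eq_false_iff] at h1
      refine ⟨b, hb, h1.1, fun i hi => ?_⟩
      rw [← Bool.not_eq_true]
      intro h2
      have h3 : ∀ l : List ℕ, i ∈ l → (fus (l.map M)).testBit b = true := by
        intro l
        induction l with
        | nil => exact fun h => absurd h (List.not_mem_nil)
        | cons d l ih2 =>
          intro h
          rw [List.map_cons]
          unfold fus
          rw [Nat.testBit_or]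
          rcases List.mem_cons.1 h with h | h
          · subst h
            rw [ct_le_fu (hW i hi).1 h2 l24 (mem_l24 (hW i hi).2), Bool.or_true]
          · rw [ih2 h, Bool.true_or]
      have h4 := h3 (j :: l) hi
      rw [List.map_cons, h1.2] at h4
      cases h4
    · have hj := hW j List.mem_cons_self
      have h1 := List.all_eq_true.1 h (W j) (mem_l24 hj.2)
      rw [hj.1, Bool.not_true, Bool.false_or] at h1
      obtain ⟨b, hb, h2, h3⟩ := ih _ h1 fun i hi => hW i (List.mem_cons_of_mem _ hi)
      rw [Nat.testBit_or, Bool.or_eq_false_iff] at h2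
      refine ⟨b, hb, h2.1, fun i hi => ?_⟩
      rcases List.mem_cons.1 hi with h4 | h4
      · rw [h4]; exact h2.2
      · exact h3 i h4

theorem mem_l6 (i : Fin 6) : i.val ∈ l6 := by
  have : ∀ i : Fin 6, i.val ∈ l6 := by decide
  exact this i

theorem deadw_sound {w : ℕ} (h : deadw w = true) (W : ℕ → ℕ)
    (hW : ∀ i ∈ l6, (msk w i l12).testBit (W i) = true ∧ W i < 24) :
    ∃ b < 18, ∀ i ∈ l6, (ct (msk w i l12) (W i)).testBit b = false := by
  unfold deadw at h
  rw [Bool.or_eq_true_iff] at h
  rcases h with h | h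
  · obtain ⟨i, hi, h1⟩ := List.any_eq_true.1 h
    exfalso
    obtain ⟨h2, h3⟩ := hW i hi
    have h4 : (msk w i l12 &&& 0xffffff).testBit (W i) = true := by
      have e2 : (0xffffff : ℕ) = 2 ^ 24 - 1 := by norm_num
      rw [Nat.testBit_and, h2, e2, Nat.testBit_two_pow_sub_one, decide_eq_true h3]
      rfl
    rw [Nat.eq_of_beq_eq_true h1, Nat.zero_testBit] at h4
    cases h4
  · obtain ⟨b, hb, -, h2⟩ := dead_sound (fun i => msk w i l12) W l6 0 h hW
    exact ⟨b, hb, h2⟩

/-! ### the bits of the masks -/

theorem row_bit (p b : ℕ) (hb : b < 42) : (row p).testBit b = rT.testBit (42 * p + b) := by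
  unfold row
  have e : (0x3ffffffffff : ℕ) = 2 ^ 42 - 1 := by norm_num
  rw [Nat.testBit_and, Nat.testBit_shiftRight, e, Nat.testBit_two_pow_sub_one,
    decide_eq_true hb, Bool.and_true]

theorem tb_bit (c b : ℕ) (hb : b < 18) : (tb c).testBit b = tT.testBit (18 * c + b) := by
  unfold tb
  have e : (0x3ffff : ℕ) = 2 ^ 18 - 1 := by norm_num
  rw [Nat.testBit_and, Nat.testBit_shiftRight, e, Nat.testBit_two_pow_sub_one,
    decide_eq_true hb, Bool.and_true]

theorem msk_bit {w i b : ℕ} (hb : b < 42) : ∀ l : List ℕ,
    (∀ p ∈ l, dg w p = i → rT.testBit (42 * p + b) = true) → (msk w i l).testBit b = true := by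
  intro l
  induction l with
  | nil =>
    intro _
    unfold msk
    have e : (0x3ffffffffff : ℕ) = 2 ^ 42 - 1 := by norm_num
    rw [e, Nat.testBit_two_pow_sub_one, decide_eq_true hb]
  | cons p l ih =>
    intro h
    have h1 := ih fun q hq => h q (List.mem_cons_of_mem _ hq)
    unfold msk
    cases hc : Nat.beq (dg w p) i with
    | true =>
      rw [cond_true, Nat.testBit_and, h1, row_bit p b hb,
        h p List.mem_cons_self (Nat.eq_of_beq_eq_true hc)]
      rfl
    | false => rw [cond_false]; exact h1

theorem mem_l12 {p : ℕ} (hp : p ∈ l12) : p < 12 := by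
  have : ∀ p ∈ l12, p < 12 := by decide
  exact this p hp

/-- the rows: the windows -/
theorem rT_inn {w : ZMod 6 × ℕ} (h : w.2 ≤ 3) (j : Fin 6) (hi : inn w (j.val : ZMod 6)) :
    rT.testBit (42 * (2 * j.val) + wc w) = true := by
  obtain ⟨a, l⟩ := w
  have key : ∀ (a : ZMod 6) (l : Fin 4) (j : Fin 6), inn (a, l.val) (j.val : ZMod 6) →
      rT.testBit (42 * (2 * j.val) + (4 * a.val + l.val)) = true := by
    unfold rT; decide +kernel
  exact key a ⟨l, Nat.lt_succ_of_le h⟩ j hi

theorem rT_out {w : ZMod 6 × ℕ} (h : w.2 ≤ 3) (j : Fin 6) (hi : out w (j.val : ZMod 6)) :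
    rT.testBit (42 * (2 * j.val + 1) + wc w) = true := by
  obtain ⟨a, l⟩ := w
  have key : ∀ (a : ZMod 6) (l : Fin 4) (j : Fin 6), out (a, l.val) (j.val : ZMod 6) →
      rT.testBit (42 * (2 * j.val + 1) + (4 * a.val + l.val)) = true := by
    unfold rT; decide +kernel
  exact key a ⟨l, Nat.lt_succ_of_le h⟩ j hi

/-- the rows: the rays are always there -/
theorem rT_cov (p : ℕ) (hp : p < 12) (k : ℕ) (hk : k < 6) :
    rT.testBit (42 * p + (24 + k)) = true := by
  have key : ∀ (p : Fin 12) (k : Fin 6), rT.testBit (42 * p.val + (24 + k.val)) = true := by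
    unfold rT; decide +kernel
  exact key ⟨p, hp⟩ ⟨k, hk⟩

/-- the rows: a line of XC is served by the colours off the neighbour slots -/
theorem rT_xc (p : ℕ) (hp : p < 12) (j : Fin 6) (b : Bool)
    (h : (j + 1).val ≠ p / 2 ∧ (j - 1).val ≠ p / 2) :
    rT.testBit (42 * p + (24 + (6 + 6 * b.toNat + j.val))) = true := by
  have key : ∀ (p : Fin 12) (j : Fin 6) (b : Bool), (j + 1).val ≠ p.val / 2 ∧
      (j - 1).val ≠ p.val / 2 →
      rT.testBit (42 * p.val + (24 + (6 + 6 * b.toNat + j.val))) = true := by
    unfold rT; decide +kernel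
  exact key ⟨p, hp⟩ j b h

theorem tT_cov {w : ZMod 6 × ℕ} (h : w.2 ≤ 3) (k : Fin 6)
    (hk : ((k.val : ZMod 6) - 1 - w.1).val < w.2) : tT.testBit (18 * wc w + k.val) = true := by
  obtain ⟨a, l⟩ := w
  have key : ∀ (a : ZMod 6) (l : Fin 4) (k : Fin 6),
      ((k.val : ZMod 6) - 1 - a).val < l.val →
        tT.testBit (18 * (4 * a.val + l.val) + k.val) = true := by
    unfold tT; decide +kernel
  exact key a ⟨l, Nat.lt_succ_of_le h⟩ k hk

theorem tT_outc {w : ZMod 6 × ℕ} (h : w.2 ≤ 3) (j : Fin 6)
    (hj : outc w w (j.val : ZMod 6)) :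
    tT.testBit (18 * wc w + (6 + 6 * false.toNat + j.val)) = true := by
  obtain ⟨a, l⟩ := w
  have key : ∀ (a : ZMod 6) (l : Fin 4) (j : Fin 6),
      outc (a, l.val) (a, l.val) (j.val : ZMod 6) →
        tT.testBit (18 * (4 * a.val + l.val) + (6 + 6 * false.toNat + j.val)) = true := by
    unfold tT; decide +kernel
  exact key a ⟨l, Nat.lt_succ_of_le h⟩ j hj

theorem tT_innc {w : ZMod 6 × ℕ} (h : w.2 ≤ 3) (j : Fin 6)
    (hj : innc w w (j.val : ZMod 6)) :
    tT.testBit (18 * wc w + (6 + 6 * true.toNat + j.val)) = true := by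
  obtain ⟨a, l⟩ := w
  have key : ∀ (a : ZMod 6) (l : Fin 4) (j : Fin 6),
      innc (a, l.val) (a, l.val) (j.val : ZMod 6) →
        tT.testBit (18 * (4 * a.val + l.val) + (6 + 6 * true.toNat + j.val)) = true := by
    unfold tT; decide +kernel
  exact key a ⟨l, Nat.lt_succ_of_le h⟩ j hj

/-! ### a valid state is not dead -/

/-- the letters of a column as numbers -/
def ls (g : Cl) (p : ℕ) : ℕ := (lseq g p).val

theorem dg_ls (g : Cl) {p : ℕ} (hp : p < 12) : dg (cdw (ls g) 12) p = ls g p :=
  dg_cdw (fun q => by have := (lseq g q).isLt; unfold ls; omega) hp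

theorem ls_even (g : Cl) (j : Fin 6) : ls g (2 * j.val) = (g j).1.val := by
  have h1 : 2 * j.val % 2 = 0 := by omega
  have h2 : Fin.ofNat 6 (2 * j.val / 2) = j := Fin.ext (by
    show 2 * j.val / 2 % 6 = j.val
    have := j.isLt
    omega)
  unfold ls lseq
  rw [if_pos h1, h2]

theorem ls_odd (g : Cl) (j : Fin 6) : ls g (2 * j.val + 1) = (g j).2.val := by
  have h1 : ¬ (2 * j.val + 1) % 2 = 0 := by omega
  have h2 : Fin.ofNat 6 ((2 * j.val + 1) / 2) = j := Fin.ext (by
    show (2 * j.val + 1) / 2 % 6 = j.val
    have := j.isLt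
    omega)
  unfold ls lseq
  rw [if_neg h1, h2]

/-- a place is the inner or the outer place of a slot -/
theorem place {p : ℕ} (hp : p < 12) : ∃ j : Fin 6, p = 2 * j.val ∨ p = 2 * j.val + 1 := by
  refine ⟨⟨p / 2, by omega⟩, ?_⟩
  show p = 2 * (p / 2) ∨ p = 2 * (p / 2) + 1
  omega

theorem wc_lt {w : ZMod 6 × ℕ} (h : w.2 ≤ 3) : wc w < 24 := by
  have := ZMod.val_lt w.1
  unfold wc
  omega

/-- the windows are allowed -/
theorem msk_win {s : St} (h : OkSt s) (i : Fin 6) :
    (msk (cdw (ls s.1) 12) i.val l12).testBit (wc (s.2 i)) = true := by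
  obtain ⟨h1, h2⟩ := h
  have h3 := wc_lt (h1 i)
  refine msk_bit (by omega) l12 fun p hp hpi => ?_
  have hp' := mem_l12 hp
  rw [dg_ls _ hp'] at hpi
  obtain ⟨j, rfl | rfl⟩ := place hp'
  · rw [ls_even] at hpi
    have e : (s.1 j).1 = i := Fin.ext hpi
    have := (h2 j).2.1
    rw [e] at this
    exact rT_inn (h1 i) j this
  · rw [ls_odd] at hpi
    have e : (s.1 j).2 = i := Fin.ext hpi
    have := (h2 j).2.2.1
    rw [e] at this
    exact rT_out (h1 i) j this

theorem ct_bit {m c b : ℕ} (h1 : (tb c).testBit b = true) (h2 : m.testBit (24 + b) = true) :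
    (ct m c).testBit b = true := by
  unfold ct
  rw [Nat.testBit_and, Nat.testBit_shiftRight, h1, h2]
  rfl

/-- a line of XC is served -/
theorem msk_xc {g : Cl} {i j : Fin 6} (b : Bool) (h : offl (g (j + 1)) (g (j - 1)) i) :
    (msk (cdw (ls g) 12) i.val l12).testBit (24 + (6 + 6 * b.toNat + j.val)) = true := by
  have hj := j.isLt
  have hb : b.toNat ≤ 1 := Bool.toNat_le b
  refine msk_bit (by omega) l12 fun p hp hpi => ?_
  have hp' := mem_l12 hp
  rw [dg_ls _ hp'] at hpi
  obtain ⟨h1, h2, h3, h4⟩ := h
  refine rT_xc p hp' j b ?_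
  obtain ⟨k, hk⟩ := place hp'
  have e2 : p / 2 = k.val := by omega
  rw [e2]
  constructor
  · intro e
    have e' : j + 1 = k := Fin.ext e
    rcases hk with rfl | rfl
    · rw [ls_even, ← e'] at hpi
      exact h1 (Fin.ext hpi.symm)
    · rw [ls_odd, ← e'] at hpi
      exact h2 (Fin.ext hpi.symm)
  · intro e
    have e' : j - 1 = k := Fin.ext e
    rcases hk with rfl | rfl
    · rw [ls_even, ← e'] at hpi
      exact h3 (Fin.ext hpi.symm)
    · rw [ls_odd, ← e'] at hpi
      exact h4 (Fin.ext hpi.symm)

theorem not_deadw {E : St → St → Prop} {s : St} (h : OkC All E s) :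
    deadw (cdw (ls s.1) 12) = false := by
  rw [← Bool.not_eq_true]
  intro hd
  obtain ⟨h0, h3, h4, -⟩ := h
  have h1 := h0.1
  have hof : ∀ i : Fin 6, Fin.ofNat 6 i.val = i := fun i => Fin.ext (Nat.mod_eq_of_lt i.isLt)
  obtain ⟨b, hb, hb2⟩ := deadw_sound hd (fun n => wc (s.2 (Fin.ofNat 6 n))) (fun n hn => by
    have hn6 : n < 6 := by
      have : ∀ n ∈ l6, n < 6 := by decide
      exact this n hn
    obtain ⟨i, rfl⟩ : ∃ i : Fin 6, i.val = n := ⟨⟨n, hn6⟩, rfl⟩
    rw [hof]
    exact ⟨msk_win h0 i, wc_lt (h1 i)⟩)
  have hb3 : ∀ i : Fin 6, (ct (msk (cdw (ls s.1) 12) i.val l12) (wc (s.2 i))).testBit b = false := by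
    intro i
    have := hb2 i.val (mem_l6 i)
    rw [hof] at this
    exact this
  have fin : ∀ i : Fin 6, tT.testBit (18 * wc (s.2 i) + b) = true →
      (msk (cdw (ls s.1) 12) i.val l12).testBit (24 + b) = true → False := by
    intro i g1 g2
    have g3 := ct_bit (c := wc (s.2 i)) (by rw [tb_bit _ _ hb]; exact g1) g2
    rw [hb3 i] at g3
    cases g3
  rcases Nat.lt_or_ge b 6 with h6 | h6
  · obtain ⟨i, hi⟩ := h3 (b : ZMod 6)
    refine fin i (tT_cov (h1 i) ⟨b, h6⟩ hi) (msk_bit (by omega) l12 fun p hp _ => ?_)
    exact rT_cov p (mem_l12 hp) b h6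
  · rcases Nat.lt_or_ge b 12 with h7 | h7
    · obtain ⟨j, hj⟩ : ∃ j : Fin 6, b = 6 + 6 * false.toNat + j.val :=
        ⟨⟨b - 6, by omega⟩, by show b = 6 + 6 * 0 + (b - 6); omega⟩
      obtain ⟨⟨⟨i, a1, b1⟩, -, -⟩, -⟩ := h4 j
      subst hj
      exact fin i (tT_outc (h1 i) j (b1 trivial)) (msk_xc false a1)
    · obtain ⟨j, hj⟩ : ∃ j : Fin 6, b = 6 + 6 * true.toNat + j.val :=
        ⟨⟨b - 12, by omega⟩, by show b = 6 + 6 * 1 + (b - 12); omega⟩
      obtain ⟨-, ⟨i, a1, b1⟩, -⟩ := h4 j
      subst hj
      exact fin i (tT_innc (h1 i) j (b1 trivial)) (msk_xc true a1)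

/-! ### the table -/

/-- the 57 columns -/
def L57 : List ℕ := [
  20424722056, 20426819208, 21500561032, 21534115464, 36529014408, 20422887048, 37602756232,
  21496628872, 30086563464, 47266432648, 20427081352, 30090757768, 30359193224, 36529276552,
  20423149192, 36562830984, 20425246344, 37605115528, 37873550984, 20429440648, 39756793480,
  40025228936, 39790347912, 40058783368, 21529757320, 47299561096, 22200845960, 20472792712,
  20474889864, 21536048776, 47305852552, 47574288008, 20479084168, 31216502408, 31484937864,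
  46192789128, 21496727176, 30086661768, 47266530952, 20479608456, 31217026696, 31485462152,
  46195410568, 47269152392, 46463846024, 47537587848, 30157837960, 30426273416, 37806413448,
  37940631176, 40058754696, 30418015880, 22627096200, 47430637192, 47564854920, 46730069640,
  40047658632]

/-- the columns in restricted growth form which are not dead: the word, the number of turns, the
renaming, the column of `L57` -/
def tab : List (ℕ × ℕ × ℕ × ℕ) := [
  (20424722056, 0, 181896, 20424722056), (20426819208, 0, 181896, 20426819208),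
  (21500561032, 0, 181896, 21500561032), (21534115464, 0, 181896, 21534115464),
  (27939079816, 5, 180762, 20424722056), (36529014408, 0, 181896, 36529014408),
  (20422887048, 0, 181896, 20422887048), (37602756232, 0, 181896, 37602756232),
  (21496628872, 0, 181896, 21496628872), (30086563464, 0, 181896, 30086563464),
  (47266432648, 0, 181896, 47266432648), (20427081352, 0, 181896, 20427081352),
  (30090757768, 0, 181896, 30090757768), (30359193224, 0, 181896, 30359193224),
  (36529276552, 0, 181896, 36529276552), (20423149192, 0, 181896, 20423149192),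
  (36562830984, 0, 181896, 36562830984), (20425246344, 0, 181896, 20425246344),
  (37605115528, 0, 181896, 37605115528), (37873550984, 0, 181896, 37873550984),
  (20429440648, 0, 181896, 20429440648), (39756793480, 0, 181896, 39756793480),
  (40025228936, 0, 181896, 40025228936), (39790347912, 0, 181896, 39790347912),
  (40058783368, 0, 181896, 40058783368), (21529757320, 0, 181896, 21529757320),
  (47299561096, 0, 181896, 47299561096), (22200845960, 0, 181896, 22200845960),
  (27988985480, 5, 180762, 21534115464), (20472792712, 0, 181896, 20472792712),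
  (20474889864, 0, 181896, 20474889864), (21536048776, 0, 181896, 21536048776),
  (47305852552, 0, 181896, 47305852552), (47574288008, 0, 181896, 47574288008),
  (20479084168, 0, 181896, 20479084168), (31216502408, 0, 181896, 31216502408),
  (31484937864, 0, 181896, 31484937864), (20424820360, 1, 176674, 36529276552),
  (21498562184, 1, 176674, 36562830984), (20475152008, 1, 176674, 36529014408),
  (27939178120, 5, 180762, 20426819208), (20422985352, 3, 180307, 37602756232),
  (46192789128, 0, 181896, 46192789128), (21496727176, 0, 181896, 21496727176),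
  (30086661768, 0, 181896, 30086661768), (47266530952, 0, 181896, 47266530952),
  (27989509768, 5, 180762, 21500561032), (20473317000, 3, 172131, 20427081352),
  (20479608456, 0, 181896, 20479608456), (31217026696, 0, 181896, 31217026696),
  (31485462152, 0, 181896, 31485462152), (46195410568, 0, 181896, 46195410568),
  (47269152392, 0, 181896, 47269152392), (46463846024, 0, 181896, 46463846024),
  (47537587848, 0, 181896, 47537587848), (20542133896, 1, 180755, 20422887048),
  (20944787080, 1, 180755, 20427081352), (20424693384, 1, 180755, 20424722056),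
  (20961564296, 1, 180755, 20426819208), (20475025032, 1, 180755, 20425246344),
  (20609242760, 1, 180755, 20423149192), (21146113672, 1, 180755, 20429440648),
  (20544231048, 4, 181448, 37602756232), (21617972872, 4, 174280, 20427081352),
  (22154843784, 1, 180755, 20479608456), (20426790536, 2, 178305, 36529276552),
  (21500532360, 2, 178305, 36529014408), (21534086792, 1, 180755, 20474889864),
  (21668304520, 1, 180755, 20472792712), (22205175432, 1, 180755, 20479084168),
  (28056491656, 4, 181896, 20424722056), (36646426248, 4, 178312, 21500561032),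
  (20540298888, 3, 180314, 20424722056), (37720168072, 4, 177416, 36529276552),
  (21614040712, 4, 174280, 30090757768), (30203975304, 4, 173832, 37605115528),
  (47383844488, 4, 109320, 39756793480), (28459144840, 5, 180762, 36529014408),
  (20942952072, 3, 176226, 21500561032), (23090435720, 4, 72416, 31217026696),
  (27939051144, 2, 181441, 20422887048), (36528985736, 2, 181441, 20427081352),
  (20422858376, 2, 181441, 20424722056), (37602727560, 2, 181441, 20426819208),
  (21496600200, 2, 181441, 20425246344), (30086534792, 2, 181441, 20423149192),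
  (47266403976, 2, 181441, 20429440648), (28475922056, 5, 180762, 37602756232),
  (20959729288, 3, 176212, 36529276552), (27989382792, 5, 180762, 21496628872),
  (20473190024, 3, 172131, 30090757768), (28123600520, 5, 180762, 30086563464),
  (20607407752, 3, 172124, 37605115528), (46377211528, 3, 139357, 46195410568),
  (28660471432, 5, 180762, 47266432648), (21144278664, 3, 106604, 39756793480),
  (20544493192, 4, 181448, 36529014408), (30208169608, 4, 173832, 20425246344),
  (37858580104, 3, 168162, 21534115464), (30342387336, 4, 173664, 20474889864),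
  (40006063752, 4, 80480, 31216502408), (20427052680, 2, 177409, 21500561032),
  (30090729096, 2, 177409, 21496628872), (37875357320, 3, 168148, 36562830984),
  (30359164552, 2, 177409, 21496727176), (20494161544, 3, 69931, 31217026696),
  (30157837960, 0, 181896, 30157837960), (37942466184, 3, 69868, 39790347912),
  (30426273416, 0, 181896, 30426273416), (36646688392, 4, 178312, 20426819208),
  (20540561032, 4, 181448, 30086563464), (36529247880, 2, 174273, 37602756232),
  (20423120520, 2, 174273, 37605115528), (37200336520, 2, 142017, 46192789128),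
  (21094209160, 2, 142017, 46195410568), (36562802312, 5, 170010, 21496727176),
  (21530416776, 3, 164963, 30359193224), (36697020040, 5, 170010, 30086661768),
  (21664634504, 3, 164956, 37873550984), (47434438280, 3, 132189, 46463846024),
  (37233890952, 5, 170010, 47266530952), (22201505416, 3, 99436, 40025228936),
  (20542658184, 4, 181448, 21496628872), (37722527368, 4, 177416, 20423149192),
  (37856745096, 4, 177248, 20472792712), (20425217672, 2, 173825, 30090757768),
  (37605086856, 2, 173825, 30086563464), (37873522312, 2, 173825, 30086661768),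
  (37806413448, 0, 181896, 37806413448), (37940631176, 0, 181896, 37940631176),
  (20546852488, 4, 181448, 47266432648), (39874205320, 4, 80648, 20429440648),
  (40008423048, 4, 80480, 20479084168), (20429411976, 2, 108865, 39756793480),
  (39756764808, 2, 109313, 47266432648), (46467651208, 2, 109313, 47269152392),
  (40025200264, 2, 109313, 47266530952), (21536708232, 3, 34091, 31485462152),
  (39790319240, 3, 34147, 30426273416), (39924536968, 3, 34140, 37940631176),
  (47574947464, 3, 34028, 40058783368), (40058754696, 0, 181896, 40058754696),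
  (20955403912, 2, 170115, 36562830984), (21660046984, 1, 176660, 21529757320),
  (47429850760, 1, 176660, 22200845960), (22196917896, 1, 176660, 21536048776),
  (20603082376, 1, 176660, 21496727176), (20424824456, 1, 176660, 21500561032),
  (21498566280, 1, 176660, 21534115464), (20609373832, 1, 176660, 21496628872),
  (30350907016, 2, 169219, 21529757320), (47530776200, 2, 169219, 21536048776),
  (20955666056, 2, 169219, 21534115464), (28119537288, 5, 180762, 30359193224),
  (45299406472, 5, 55322, 31485462152), (20603344520, 3, 172313, 20474889864),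
  (30418015880, 0, 181896, 30418015880), (21022774920, 3, 78121, 31216502408),
  (21614171784, 4, 174280, 30359193224), (30204106376, 4, 173832, 37873550984),
  (47383975560, 4, 109320, 40025228936), (22151042696, 4, 43744, 31485462152),
  (27939182216, 5, 180762, 20427081352), (45119051400, 2, 169156, 20479608456),
  (20422989448, 3, 180307, 36529014408), (21496731272, 2, 169156, 20474889864),
  (30086665864, 2, 169156, 20472792712), (47266535048, 2, 169156, 20479084168),
  (28123731592, 5, 180762, 30090757768), (45303600776, 5, 55322, 31217026696),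
  (20607538824, 3, 172124, 20425246344), (47524484744, 4, 109152, 31484937864),
  (22627096200, 0, 181896, 22627096200), (30351431304, 2, 72451, 47305852552),
  (47531300488, 2, 72451, 47299561096), (20956190344, 2, 72003, 39790347912),
  (21660833416, 5, 165978, 30418015880), (47430637192, 0, 181896, 47430637192),
  (47564854920, 0, 181896, 47564854920), (23137228424, 3, 13609, 31484937864),
  (20603868808, 5, 180314, 30426273416), (20425610888, 2, 71492, 31217026696),
  (21499352712, 2, 71492, 31216502408), (20610160264, 2, 71429, 30157837960),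
  (28458632840, 5, 180762, 36562830984), (20942440072, 4, 169184, 30086661768),
  (31679858312, 4, 71520, 47269152392), (36562028168, 5, 170010, 21529757320),
  (39783253640, 4, 78177, 47430637192), (37233116808, 5, 170010, 47299561096),
  (20472678024, 2, 166097, 37873550984), (21143766664, 2, 133841, 46463846024),
  (37855970952, 4, 177248, 21529757320), (40003454600, 4, 80480, 47305852552),
  (20944537224, 4, 169184, 21496727176), (20474775176, 2, 165649, 30359193224),
  (37939857032, 3, 82629, 47430637192), (37860165256, 4, 177248, 47299561096),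
  (40007648904, 4, 80480, 21536048776), (20948731528, 4, 169184, 47266530952),
  (36568319624, 5, 170010, 22200845960), (39789545096, 3, 50499, 30418015880),
  (40057980552, 3, 50373, 47564854920), (20478969480, 2, 100689, 40025228936),
  (46517208712, 2, 101137, 47537587848), (20944799368, 1, 172579, 37602756232),
  (20424705672, 1, 172579, 37605115528), (37604574856, 1, 172579, 37873550984),
  (20948993672, 1, 139819, 46192789128), (20428899976, 1, 139819, 46195410568),
  (37608769160, 1, 139819, 46463846024), (36646438536, 4, 178312, 21534115464),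
  (37720180360, 4, 177416, 36562830984), (39867664008, 4, 80648, 39790347912),
  (28459157128, 5, 180762, 36529276552), (20942964360, 3, 176226, 20426819208),
  (31680382600, 4, 71520, 46195410568), (27939063432, 5, 180762, 20423149192),
  (36528998024, 5, 170010, 20472792712), (20422870664, 3, 180307, 30086563464),
  (37602739848, 3, 180307, 30086661768), (31160288904, 1, 172579, 37806413448),
  (39750223496, 1, 172579, 37940631176), (37804066440, 3, 82013, 47269152392),
  (46730069640, 0, 181896, 46730069640), (39918519944, 3, 17501, 47537587848),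
  (20955317896, 1, 172572, 30086661768), (20424738440, 1, 172572, 30090757768),
  (37604607624, 1, 172572, 30359193224), (20961609352, 1, 172572, 30086563464),
  (22576416392, 1, 139805, 31217026696), (39756285576, 1, 139805, 31485462152),
  (22609970824, 1, 139805, 31216502408), (39789840008, 1, 139805, 31484937864),
  (37867013768, 3, 180433, 21529757320), (40014497416, 1, 172572, 30418015880),
  (28471772808, 5, 180762, 37873550984), (20955580040, 3, 176401, 20472792712),
  (37934122632, 3, 82153, 47305852552), (27939096200, 5, 180762, 20425246344),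
  (36529030792, 5, 170010, 20474889864), (20422903432, 3, 180307, 21496628872),
  (37602772616, 3, 180307, 21496727176), (22570387080, 1, 172572, 30157837960),
  (39750256264, 1, 172572, 30426273416), (28475967112, 5, 180762, 37605115528),
  (20959774344, 3, 176212, 20423149192), (37867538056, 2, 68363, 47430637192),
  (40015021704, 3, 19153, 22200845960), (45652166280, 5, 55322, 46463846024),
  (20956104328, 5, 180314, 37940631176), (40048576136, 3, 17641, 47574288008),
  (45685720712, 5, 55322, 47537587848), (45656360584, 5, 55322, 46195410568),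
  (20960298632, 2, 67789, 37806413448), (45689915016, 5, 55322, 47269152392),
  (40047658632, 0, 181896, 40047658632), (23136224904, 5, 22618, 47564854920),
  (37229086344, 5, 170010, 47574288008), (31474501256, 2, 35603, 47574288008),
  (21139736200, 2, 35155, 40058783368), (37933729416, 2, 35603, 47564854920),
  (28538488456, 5, 180762, 40058783368), (21022295688, 2, 35155, 40058754696),
  (31680022152, 4, 71520, 47537587848), (36562192008, 5, 170010, 21536048776),
  (22603548296, 4, 86241, 30418015880), (39783417480, 4, 78177, 47564854920),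
  (23140419208, 5, 22618, 47430637192), (37233280648, 5, 170010, 47305852552),
  (28542682760, 5, 180762, 39790347912), (21026489992, 2, 35029, 37940631176),
  (37856134792, 4, 177248, 22200845960), (40003618440, 4, 80480, 47574288008),
  (20474939016, 2, 34644, 31485462152), (22622422664, 2, 34644, 31484937864),
  (37940020872, 2, 34581, 30418015880), (21028587144, 2, 34581, 30426273416),
  (21089666696, 1, 107052, 47269152392), (38269535880, 1, 107052, 47537587848),
  (22733833864, 1, 107052, 47305852552), (39913703048, 1, 107052, 47574288008),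
  (23136487048, 1, 107052, 47299561096), (21022557832, 1, 107052, 47266530952),
  (20424869512, 1, 107045, 39756793480), (37604738696, 1, 107045, 40025228936),
  (22572353160, 1, 107045, 39790347912), (39752222344, 1, 107045, 40058783368),
  (21028849288, 1, 107052, 47266432648), (37867144840, 3, 180433, 47299561096),
  (31424693896, 1, 107052, 47430637192), (40014628488, 1, 107052, 47564854920),
  (31475025544, 2, 34091, 22200845960), (36726294152, 5, 170010, 31484937864),
  (37934253704, 3, 82153, 21536048776), (28539012744, 5, 180762, 40025228936),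
  (21022819976, 3, 78121, 20479084168), (39867827848, 4, 80648, 40058783368),
  (31680546440, 4, 71520, 46463846024), (27939227272, 5, 180762, 20429440648),
  (36529161864, 5, 170010, 20479084168), (20423034504, 3, 180307, 47266432648),
  (37602903688, 3, 180307, 47266530952), (22570518152, 4, 88257, 30426273416),
  (31160452744, 4, 87809, 37940631176), (39750387336, 1, 107045, 40058754696),
  (36730488456, 5, 170010, 31216502408), (28543207048, 5, 180762, 39756793480),
  (21027014280, 3, 77932, 20429440648)]

/-- the search over the columns in restricted growth form: `n` slots are left -/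
def go : ℕ → ℕ → ℕ → ℕ → ℕ → Bool
  | 0, _, _, _, w => deadw w || tab.any fun e => Nat.beq e.1 w
  | n + 1, e, u, pv, w => l6.all fun x => !(Nat.ble x u) || pv.testBit x || l6.all fun y =>
      !(Nat.ble y (bif Nat.beq x u then u + 1 else u)) || pv.testBit y || Nat.beq x y ||
        (Nat.beq n 0 && (Nat.ble x 1 || Nat.ble y 1)) ||
        go n (64 * e) (bif Nat.beq y (bif Nat.beq x u then u + 1 else u) then
          (bif Nat.beq x u then u + 1 else u) + 1 else (bif Nat.beq x u then u + 1 else u))
          (1 <<< x ||| 1 <<< y) (w + e * x + 8 * e * y)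

/-- the mask of the letters of the previous slot -/
def pvm (a : ℕ → Fin 6) : ℕ → ℕ
  | 0 => 0
  | m + 1 => 1 <<< (a (2 * m)).val ||| 1 <<< (a (2 * m + 1)).val

theorem used_bif {a : ℕ → Fin 6} {p : ℕ} (h : (a p).val ≤ used a p) :
    (bif Nat.beq (a p).val (used a p) then used a p + 1 else used a p) = used a (p + 1) := by
  rw [used_succ]
  cases hc : Nat.beq (a p).val (used a p) with
  | true =>
    have := Nat.eq_of_beq_eq_true hc
    rw [cond_true]
    omega
  | false =>
    have := Nat.ne_of_beq_eq_false hc
    rw [cond_false]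
    omega

theorem pvm_bit {a : ℕ → Fin 6} {m : ℕ} {x : Fin 6}
    (h : ∀ k, m = k + 1 → x ≠ a (2 * k) ∧ x ≠ a (2 * k + 1)) : (pvm a m).testBit x.val = false := by
  cases m with
  | zero => exact Nat.zero_testBit _
  | succ k =>
    obtain ⟨h1, h2⟩ := h k rfl
    unfold pvm
    rw [Nat.testBit_or, Nat.one_shiftLeft, Nat.one_shiftLeft, Nat.testBit_two_pow,
      Nat.testBit_two_pow, Bool.or_eq_false_iff, decide_eq_false_iff_not, decide_eq_false_iff_not]
    exact ⟨fun e => h1 (Fin.ext e.symm), fun e => h2 (Fin.ext e.symm)⟩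

theorem go_sound {a : ℕ → Fin 6} (hRG : ∀ p < 12, (a p).val ≤ used a p)
    (hne : ∀ m < 6, a (2 * m) ≠ a (2 * m + 1))
    (h60 : ∀ m < 5, a (2 * m + 2) ≠ a (2 * m) ∧ a (2 * m + 2) ≠ a (2 * m + 1) ∧
      a (2 * m + 3) ≠ a (2 * m) ∧ a (2 * m + 3) ≠ a (2 * m + 1))
    (hcl : ∀ q, q = 10 ∨ q = 11 → a q ≠ a 0 ∧ a q ≠ a 1) : ∀ n m, m + n = 6 →
    go n (8 ^ (2 * m)) (used a (2 * m)) (pvm a m) (cdw (fun p => (a p).val) (2 * m)) = true →
    (deadw (cdw (fun p => (a p).val) 12) ||
      tab.any fun e => Nat.beq e.1 (cdw (fun p => (a p).val) 12)) = true := by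
  have h0 : (a 0).val = 0 := by
    have := hRG 0 (by norm_num)
    have e : used a 0 = 0 := by unfold used; simp
    omega
  have h1 : (a 1).val = 1 := by
    have h2 := hRG 1 (by norm_num)
    have e : used a 1 = 1 := by
      rw [used_succ, h0]
      have e : used a 0 = 0 := by unfold used; simp
      rw [e]
      rfl
    have h3 := hne 0 (by norm_num)
    have h4 : (a 1).val ≠ 0 := fun h4 => h3 (Fin.ext (by rw [show 2 * 0 = 0 from rfl, h0]; exact h4.symm))
    omega
  intro n
  induction n with
  | zero =>
    intro m hm h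
    have hm' : m = 6 := by omega
    subst hm'
    exact h
  | succ n ih =>
    intro m hm h
    unfold go at h
    have g1 := List.all_eq_true.1 h (a (2 * m)).val (mem_l6 _)
    have p1 : Nat.ble (a (2 * m)).val (used a (2 * m)) = true :=
      Nat.ble_eq_true_of_le (hRG (2 * m) (by omega))
    have hk : ∀ k, m = k + 1 → k < 5 := fun k hk => by omega
    have p2 : (pvm a m).testBit (a (2 * m)).val = false := pvm_bit fun k hk' => by
      obtain ⟨q1, q2, -, -⟩ := h60 k (hk k hk')
      rw [hk']
      exact ⟨q1, q2⟩
    rw [p1, p2, Bool.not_true, Bool.false_or, Bool.false_or] at g1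
    have g2 := List.all_eq_true.1 g1 (a (2 * m + 1)).val (mem_l6 _)
    rw [used_bif (hRG (2 * m) (by omega))] at g2
    have p3 : Nat.ble (a (2 * m + 1)).val (used a (2 * m + 1)) = true :=
      Nat.ble_eq_true_of_le (hRG (2 * m + 1) (by omega))
    have p4 : (pvm a m).testBit (a (2 * m + 1)).val = false := pvm_bit fun k hk' => by
      obtain ⟨-, -, q1, q2⟩ := h60 k (hk k hk')
      rw [hk']
      exact ⟨q1, q2⟩
    have p5 : Nat.beq (a (2 * m)).val (a (2 * m + 1)).val = false := by
      rw [← Bool.not_eq_true]
      exact fun e => hne m (by omega) (Fin.ext (Nat.eq_of_beq_eq_true e))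
    have p6 : (Nat.beq n 0 && (Nat.ble (a (2 * m)).val 1 || Nat.ble (a (2 * m + 1)).val 1)) =
        false := by
      cases hn : Nat.beq n 0 with
      | false => rfl
      | true =>
        have hn' := Nat.eq_of_beq_eq_true hn
        have hm5 : m = 5 := by omega
        subst hm5
        have q1 := hcl 10 (Or.inl rfl)
        have q2 := hcl 11 (Or.inr rfl)
        have key : ∀ q, a q ≠ a 0 ∧ a q ≠ a 1 → Nat.ble (a q).val 1 = false := by
          intro q hq
          rw [← Bool.not_eq_true]
          intro e
          have e1 := Nat.le_of_ble_eq_true e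
          rcases Nat.le_one_iff_eq_zero_or_eq_one.1 e1 with e2 | e2
          · exact hq.1 (Fin.ext (by rw [e2, h0]))
          · exact hq.2 (Fin.ext (by rw [e2, h1]))
        rw [key (2 * 5) q1, key (2 * 5 + 1) q2]
        rfl
    rw [p3, p4, p5, p6, Bool.not_true, Bool.false_or, Bool.false_or, Bool.false_or,
      Bool.false_or, used_bif (hRG (2 * m + 1) (by omega))] at g2
    refine ih (m + 1) (by omega) ?_
    have e1 : (8 : ℕ) ^ (2 * (m + 1)) = 64 * 8 ^ (2 * m) := by
      rw [show 2 * (m + 1) = 2 * m + 1 + 1 by ring, pow_succ, pow_succ]; ring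
    have e2 : cdw (fun p => (a p).val) (2 * (m + 1)) =
        cdw (fun p => (a p).val) (2 * m) + 8 ^ (2 * m) * (a (2 * m)).val +
          8 * 8 ^ (2 * m) * (a (2 * m + 1)).val := by
      show cdw (fun p => (a p).val) (2 * m) + (a (2 * m)).val * 8 ^ (2 * m) +
        (a (2 * m + 1)).val * 8 ^ (2 * m + 1) = _
      rw [pow_succ]; ring
    rw [e1, e2]
    exact g2

theorem go_true : go 6 1 0 0 0 = true := by decide +kernel

/-- **the columns in restricted growth form** -/
theorem tab_of {E : St → St → Prop} {s : St} (h : OkC All E s) (hRG : RG s.1) :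
    ∃ e ∈ tab, e.1 = cdw (ls s.1) 12 := by
  have h2 := h.ok.2
  have hne : ∀ j : Fin 6, lseq s.1 (2 * j.val) ≠ lseq s.1 (2 * j.val + 1) := fun j e =>
    (h2 j).1 (Fin.ext (by rw [← ls_even, ← ls_odd]; unfold ls; rw [e]))
  have hs : ∀ (j k : Fin 6), k = j + 1 →
      lseq s.1 (2 * k.val) ≠ lseq s.1 (2 * j.val) ∧
      lseq s.1 (2 * k.val) ≠ lseq s.1 (2 * j.val + 1) ∧
      lseq s.1 (2 * k.val + 1) ≠ lseq s.1 (2 * j.val) ∧
      lseq s.1 (2 * k.val + 1) ≠ lseq s.1 (2 * j.val + 1) := by
    intro j k hk
    obtain ⟨-, -, -, a4, a5, a6, a7⟩ := h2 j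
    rw [← hk] at a4 a5 a6 a7
    have f : ∀ {p q : ℕ} {x y : Fin 6}, ls s.1 p = x.val → ls s.1 q = y.val → y ≠ x →
        lseq s.1 p ≠ lseq s.1 q := by
      intro p q x y hp hq hxy e
      exact hxy (Fin.ext (by rw [← hp, ← hq]; unfold ls; rw [e]))
    exact ⟨f (ls_even _ _) (ls_even _ _) a4, f (ls_even _ _) (ls_odd _ _) a6,
      f (ls_odd _ _) (ls_even _ _) a5, f (ls_odd _ _) (ls_odd _ _) a7⟩
  have hg := go_sound (a := lseq s.1) hRG (fun m hm => hne ⟨m, hm⟩)
    (fun m hm => hs ⟨m, by omega⟩ ⟨m + 1, by omega⟩ (Fin.ext (by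
      show m + 1 = (m + 1) % 6
      omega)))
    (fun q hq => by
      obtain ⟨q1, q2, q3, q4⟩ := hs 5 0 rfl
      rcases hq with rfl | rfl
      · exact ⟨fun e => q1 e.symm, fun e => q3 e.symm⟩
      · exact ⟨fun e => q2 e.symm, fun e => q4 e.symm⟩) 6 0 rfl
    (by
      have e : used (lseq s.1) (2 * 0) = 0 := by unfold used; simp
      rw [e]
      exact go_true)
  rw [show (fun p => (lseq s.1 p).val) = ls s.1 from rfl, not_deadw h, Bool.false_or] at hg
  obtain ⟨e, he, h3⟩ := List.any_eq_true.1 hg
  exact ⟨e, he, Nat.eq_of_beq_eq_true h3⟩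

/-! ### the 57 columns -/

/-- the column of a word -/
def clw (w : ℕ) : Cl := fun j =>
  (Fin.ofNat 6 (dg w (2 * j.val)), Fin.ofNat 6 (dg w (2 * j.val + 1)))

/-- renamed colours -/
def ren (σ : Equiv.Perm (Fin 6)) (A : Cl) : Cl := fun j => (σ (A j).1, σ (A j).2)

/-- the check of an entry of the table -/
def chkE (e : ℕ × ℕ × ℕ × ℕ) : Bool :=
  (Nat.ble e.2.1 5 && (L57.any fun b => Nat.beq b e.2.2.2)) &&
  ((l6.all fun x => Nat.ble (dg e.2.2.1 x) 5 &&
    l6.all fun y => Nat.beq x y || !(Nat.beq (dg e.2.2.1 x) (dg e.2.2.1 y))) &&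
  (l6.all fun j =>
    Nat.beq (dg e.2.2.1 (dg e.1 (2 * ((j + e.2.1) % 6)))) (dg e.2.2.2 (2 * j)) &&
    Nat.beq (dg e.2.2.1 (dg e.1 (2 * ((j + e.2.1) % 6) + 1))) (dg e.2.2.2 (2 * j + 1))))

theorem tab_ok : tab.all chkE = true := by decide +kernel

theorem sh_iter (A : Cl) (k : ℕ) (j : Fin 6) :
    (H314.sh^[k] A) j = A ⟨(j.val + k) % 6, Nat.mod_lt _ (by norm_num)⟩ := by
  induction k generalizing A with
  | zero =>
    show A j = _
    congr 1
    exact Fin.ext (Nat.mod_eq_of_lt j.isLt).symm
  | succ k ih =>
    rw [Function.iterate_succ_apply, ih]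
    show A _ = A _
    congr 1
    refine Fin.ext ?_
    show ((j.val + k) % 6 + 1) % 6 = (j.val + (k + 1)) % 6
    omega

/-- **Every column of a valid state is one of the 57**, up to turns and names. -/
theorem static57 {E : St → St → Prop} {s : St} (h : OkC All E s) :
    ∃ k < 6, ∃ σ : Equiv.Perm (Fin 6), ∃ B ∈ L57, H314.sh^[k] s.1 = ren σ (clw B) := by
  obtain ⟨τ, hτ⟩ := exists_RG s
  have h' : OkC All (fun _ _ => True) s := ⟨h.ok, h.cov, h.xc, trivial⟩
  have hp := okC_prm (σ := τ) (fun _ _ _ _ => trivial) h'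
  obtain ⟨e, he, hw⟩ := tab_of hp hτ
  have hc := List.all_eq_true.1 tab_ok e he
  unfold chkE at hc
  simp only [Bool.and_eq_true_iff] at hc
  obtain ⟨⟨c1, c2⟩, c3, c4⟩ := hc
  have c1' := Nat.le_of_ble_eq_true c1
  obtain ⟨B, hB, hBe⟩ := List.any_eq_true.1 c2
  have hBe' := Nat.eq_of_beq_eq_true hBe
  -- the renaming
  have c3a : ∀ x : Fin 6, dg e.2.2.1 x.val < 6 := fun x => by
    have := List.all_eq_true.1 c3 x.val (mem_l6 x)
    rw [Bool.and_eq_true_iff] at this
    exact Nat.lt_succ_of_le (Nat.le_of_ble_eq_true this.1)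
  set P : Fin 6 → Fin 6 := fun x => ⟨dg e.2.2.1 x.val, c3a x⟩ with hP
  have hPi : Function.Injective P := by
    intro x y hxy
    have := List.all_eq_true.1 c3 x.val (mem_l6 x)
    rw [Bool.and_eq_true_iff] at this
    have h2 := List.all_eq_true.1 this.2 y.val (mem_l6 y)
    rw [Bool.or_eq_true_iff] at h2
    rcases h2 with h2 | h2
    · exact Fin.ext (Nat.eq_of_beq_eq_true h2)
    · exfalso
      have h3 : dg e.2.2.1 x.val = dg e.2.2.1 y.val := congrArg Fin.val hxy
      rw [h3] at h2
      have h4 : Nat.beq (dg e.2.2.1 y.val) (dg e.2.2.1 y.val) = true := Nat.beq_refl _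
      rw [h4] at h2
      cases h2
  set Q : Equiv.Perm (Fin 6) := Equiv.ofBijective P (Finite.injective_iff_bijective.1 hPi) with hQ
  have hQP : ∀ x, Q x = P x := fun x => rfl
  refine ⟨e.2.1, Nat.lt_succ_of_le c1', (Q * τ)⁻¹, B, hB, ?_⟩
  funext j
  rw [sh_iter]
  set j' : Fin 6 := ⟨(j.val + e.2.1) % 6, Nat.mod_lt _ (by norm_num)⟩ with hj'
  have c5 := List.all_eq_true.1 c4 j.val (mem_l6 j)
  rw [Bool.and_eq_true_iff] at c5
  have c6 := Nat.eq_of_beq_eq_true c5.1
  have c7 := Nat.eq_of_beq_eq_true c5.2
  have d1 : dg e.1 (2 * ((j.val + e.2.1) % 6)) = (τ (s.1 j').1).val := by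
    have hlt : 2 * j'.val < 12 := by have := j'.isLt; omega
    have := dg_ls (prm τ s).1 hlt
    rw [ls_even] at this
    rw [hw]
    exact this
  have d2 : dg e.1 (2 * ((j.val + e.2.1) % 6) + 1) = (τ (s.1 j').2).val := by
    have hlt : 2 * j'.val + 1 < 12 := by have := j'.isLt; omega
    have := dg_ls (prm τ s).1 hlt
    rw [ls_odd] at this
    rw [hw]
    exact this
  rw [d1, ← hBe'] at c6
  rw [d2, ← hBe'] at c7
  have e1 : (clw B j).1 = (Q * τ) (s.1 j').1 := by
    rw [Equiv.Perm.mul_apply, hQP]
    refine Fin.ext ?_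
    show dg B (2 * j.val) % 6 = dg e.2.2.1 (τ (s.1 j').1).val
    rw [← c6]
    exact Nat.mod_eq_of_lt (c3a _)
  have e2 : (clw B j).2 = (Q * τ) (s.1 j').2 := by
    rw [Equiv.Perm.mul_apply, hQP]
    refine Fin.ext ?_
    show dg B (2 * j.val + 1) % 6 = dg e.2.2.1 (τ (s.1 j').2).val
    rw [← c7]
    exact Nat.mod_eq_of_lt (c3a _)
  refine Prod.ext ?_ ?_
  · show (s.1 j').1 = (Q * τ)⁻¹ (clw B j).1
    rw [e1]
    exact (Equiv.symm_apply_apply (Q * τ) _).symm
  · show (s.1 j').2 = (Q * τ)⁻¹ (clw B j).2
    rw [e2]
    exact (Equiv.symm_apply_apply (Q * τ) _).symm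

/-! ### a centre with windows -/

section

variable {U : Fin 6 → Set ℂ} {T : ℂ → Set (Fin 6)} {z : ℂ} {L R : Fin 6 → ℝ}

theorem hold_gen (w : WinData T z L R) {t : ℝ} (ht : t ∈ WinData.G T z L R) :
    H314.Hold T z L R (WinData.st T z L R t).1 t := by
  intro j
  obtain ⟨h1, h2, -, h3, h4⟩ := w.col_spec ht.1 j
  exact ⟨h1, h2, h3, h4⟩

theorem hold_iter {A : Cl} {t : ℝ} (h : H314.Hold T z L R A t) (k : ℕ) :
    H314.Hold T z L R (H314.sh^[k] A) (t + k) := by
  induction k with
  | zero => simpa using h
  | succ k ih =>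
    rw [Function.iterate_succ_apply']
    have := (H314.hold_turn T z L R _ _).2 ih
    rw [add_assoc] at this
    exact_mod_cast this

theorem G_iter {t : ℝ} (ht : t ∈ WinData.G T z L R) (k : ℕ) : t + k ∈ WinData.G T z L R := by
  induction k with
  | zero => simpa using ht
  | succ k ih =>
    have := WinData.G_turn ih
    rw [add_assoc] at this
    exact_mod_cast this

/-- **Every generic column is one of the 57**, up to turns and names. -/
theorem static57_gen (h : Irr U T) (w : WinData T z L R)
    (hD : ∀ i, L i ∈ closure (Dr U z i) ∧ R i ∈ closure (Dr U z i)) {t : ℝ}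
    (ht : t ∈ WinData.G T z L R) :
    ∃ k < 6, ∃ σ : Equiv.Perm (Fin 6), ∃ B ∈ L57,
      H314.Hold T z L R (ren σ (clw B)) (t + (k : ℕ)) := by
  have h1 := okC_gen (Sd := All) (E := fun _ _ => True) h w (fun i _ => hD i)
    (fun _ _ _ _ _ => trivial) ht
  obtain ⟨k, hk, σ, B, hB, h2⟩ := static57 h1
  refine ⟨k, hk, σ, B, hB, ?_⟩
  rw [← h2]
  exact hold_iter (hold_gen w ht) k

/-- **The end**: if none of the 57 columns is held at a generic time then there is no such
centre. -/
theorem false_of_cols (h : Irr U T) (w : WinData T z L R)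
    (hD : ∀ i, L i ∈ closure (Dr U z i) ∧ R i ∈ closure (Dr U z i))
    (kill : ∀ B ∈ L57, ∀ σ : Equiv.Perm (Fin 6), ∀ u ∈ WinData.G T z L R,
      ¬ H314.Hold T z L R (ren σ (clw B)) u) : False := by
  obtain ⟨t, ht⟩ := (WinData.G_dense h z L R).nonempty
  obtain ⟨k, -, σ, B, hB, h2⟩ := static57_gen h w hD ht
  exact kill B hB σ _ (G_iter ht k) h2

end

end Vale.Agent.P032.H728
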