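import Vale.Agent.P032.H728.Cnt

/-!
# P032: potential and counted form together

`Cov` : every ray is inside a window.  `StepC Sd E s s'` : all the rules at a time: `Step`, `Cov`
and the static XC rule for both states and any further relation `E` between the limit states.
`false_of_mix` : a potential on the states outside `Fb` and the counted form for a start in `Fb`.
-/

open Set Filter Topology Metric

noncomputable section

namespace Vale.Agent.P032.H728

open Vale.Agent.P032.Six Vale.Agent.P032.Sweep Vale.Agent.P032.S5.H767 Vale.Agent.P032.S5.H122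
  Vale.Agent.P032.H429 Vale.Agent.P032.H158

/-- every ray is inside a window (the ray `k` is between the sectors `k - 1` and `k`) -/
def Cov (w : Wn) : Prop := ∀ k : ZMod 6, ∃ i, (k - 1 - (w i).1).val < (w i).2

instance (w : Wn) : Decidable (Cov w) := by unfold Cov; infer_instance

section

variable {U : Fin 6 → Set ℂ} {T : ℂ → Set (Fin 6)} {z : ℂ} {L R : Fin 6 → ℝ}

/-- at a time without a window end on a ray every ray is inside a window -/
theorem cov_wn (w : WinData T z L R) {t : ℝ} (ht : t ∉ WinData.M L R) : Cov (wn L R t) := by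
  intro k
  obtain ⟨i, n, h1, h2⟩ := w.cover (t + 3 / 2 + (k.val : ℝ))
  have g1 : L i + 6 * n ≠ t + 3 / 2 + (k.val : ℝ) := by
    intro he
    refine ht ⟨i, (k.val : ℤ) - 6 * n, Or.inl ?_⟩
    push_cast
    linarith
  have g1' : L i + 6 * n < t + 3 / 2 + (k.val : ℝ) := lt_of_le_of_ne h1 g1
  have e1 : sc t (L i) + 6 * n < (k.val : ℤ) := by
    rw [← sc_int, sc_lt]
    push_cast
    linarith
  have e2 : (k.val : ℤ) ≤ sc t (R i) + 6 * n := by
    rw [← sc_int, le_sc]
    push_cast
    linarith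
  refine ⟨i, ?_⟩
  have hl := w.len t i
  have h3 : sc t (L i) ≤ sc t (R i) := w.sc_le (w.le i)
  have hw : wn L R t i = ((sc t (L i) : ZMod 6), (sc t (R i) - sc t (L i)).toNat) := rfl
  rw [hw] at hl ⊢
  have hl' : (sc t (R i) - sc t (L i)).toNat ≤ 3 := hl
  have e0 : k - 1 - ((sc t (L i) : ℤ) : ZMod 6) =
      (((k.val : ℤ) - 1 - (sc t (L i) + 6 * n) : ℤ) : ZMod 6) := by
    push_cast
    have h6 : (6 : ZMod 6) = 0 := by decide
    rw [h6, ZMod.natCast_zmod_val]
    ring
  show (k - 1 - ((sc t (L i) : ℤ) : ZMod 6)).val < (sc t (R i) - sc t (L i)).toNat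
  rw [e0, zval_of_int _ (by omega) (by omega)]
  omega

theorem LS_gen {u : ℝ} {s : St} (hs : s ∈ LS T z L R u) :
    ∃ v ∈ WinData.G T z L R, WinData.st T z L R v = s := by
  have hs' : ∃ᶠ v in 𝓝[<] u, v ∈ WinData.G T z L R ∧ WinData.st T z L R v = s := hs
  exact hs'.exists

theorem RS_gen {u : ℝ} {s : St} (hs : s ∈ RS T z L R u) :
    ∃ v ∈ WinData.G T z L R, WinData.st T z L R v = s := by
  have hs' : ∃ᶠ v in 𝓝[>] u, v ∈ WinData.G T z L R ∧ WinData.st T z L R v = s := hs
  exact hs'.exists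

/-- a generic state is a limit state from both sides at its time -/
theorem gen_LS_RS (h : Irr U T) {v : ℝ} (hv : v ∈ WinData.G T z L R) :
    WinData.st T z L R v ∈ LS T z L R v ∧ WinData.st T z L R v ∈ RS T z L R v := by
  have hc := WinData.st_const hv
  have hd := WinData.G_dense h z L R
  constructor
  · show ∃ᶠ x in 𝓝[<] v, x ∈ WinData.G T z L R ∧ WinData.st T z L R x = WinData.st T z L R v
    have h1 : ∃ᶠ x in 𝓝[<] v, x ∈ WinData.G T z L R := by
      rw [frequently_iff]
      intro W hW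
      obtain ⟨c, hc, hsub⟩ := mem_nhdsLT_iff_exists_Ioo_subset.1 hW
      obtain ⟨x, hx1, hx2⟩ := hd.exists_mem_open isOpen_Ioo (nonempty_Ioo.2 (show c < v from hc))
      exact ⟨x, hsub hx2, hx1⟩
    exact h1.and_eventually (mem_nhdsWithin_of_mem_nhds hc)
  · show ∃ᶠ x in 𝓝[>] v, x ∈ WinData.G T z L R ∧ WinData.st T z L R x = WinData.st T z L R v
    have h1 : ∃ᶠ x in 𝓝[>] v, x ∈ WinData.G T z L R := by
      rw [frequently_iff]
      intro W hW
      obtain ⟨c, hc, hsub⟩ := mem_nhdsGT_iff_exists_Ioo_subset.1 hW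
      obtain ⟨x, hx1, hx2⟩ := hd.exists_mem_open isOpen_Ioo (nonempty_Ioo.2 (show v < c from hc))
      exact ⟨x, hsub hx2, hx1⟩
    exact h1.and_eventually (mem_nhdsWithin_of_mem_nhds hc)

end

/-- a valid state: valid letters and windows, covered rays, the static XC rule and `E s s` -/
structure OkC (Sd : Fin 6 → Prop) (E : St → St → Prop) (s : St) : Prop where
  ok : OkSt s
  cov : Cov s.2
  xc : XCRel Sd s s
  e : E s s

/-- **All the rules at a time** -/
structure StepC (Sd : Fin 6 → Prop) (E : St → St → Prop) (s s' : St) : Prop where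
  ok : OkC Sd E s
  ok' : OkC Sd E s'
  win : ∀ i, WStep (s.2 i) (s'.2 i)
  xc : XCRel Sd s s'
  e : E s s'

section

variable {U : Fin 6 → Set ℂ} {T : ℂ → Set (Fin 6)} {z : ℂ} {L R : Fin 6 → ℝ}

theorem okC_gen (h : Irr U T) (w : WinData T z L R) {Sd : Fin 6 → Prop}
    (hD : ∀ i, Sd i → L i ∈ closure (Dr U z i) ∧ R i ∈ closure (Dr U z i))
    {E : St → St → Prop}
    (hE : ∀ u, ∀ s ∈ LS T z L R u, ∀ s' ∈ RS T z L R u, E s s') {v : ℝ}
    (hv : v ∈ WinData.G T z L R) : OkC Sd E (WinData.st T z L R v) := by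
  obtain ⟨h1, h2⟩ := gen_LS_RS h hv
  exact ⟨ok_st h w hv, cov_wn w hv.2, xc_rel h w hD h1 h2, hE v _ h1 _ h2⟩

theorem stepC (h : Irr U T) (w : WinData T z L R) {Sd : Fin 6 → Prop}
    (hD : ∀ i, Sd i → L i ∈ closure (Dr U z i) ∧ R i ∈ closure (Dr U z i))
    {E : St → St → Prop}
    (hE : ∀ u, ∀ s ∈ LS T z L R u, ∀ s' ∈ RS T z L R u, E s s') {u : ℝ} {s s' : St}
    (hs : s ∈ LS T z L R u) (hs' : s' ∈ RS T z L R u) : StepC Sd E s s' := by
  obtain ⟨h1, -⟩ := step_all h w hD hs hs'
  refine ⟨?_, ?_, h1.win, h1.xc, hE u s hs s' hs'⟩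
  · obtain ⟨v, hv, rfl⟩ := LS_gen hs
    exact okC_gen h w hD hE hv
  · obtain ⟨v, hv, rfl⟩ := RS_gen hs'
    exact okC_gen h w hD hE hv

/-- **The invariant form**: a label which is constant along the steps and changes at the turn. -/
theorem false_of_inv (h : Irr U T) (w : WinData T z L R) {Sd : Fin 6 → Prop}
    (hD : ∀ i, Sd i → L i ∈ closure (Dr U z i) ∧ R i ∈ closure (Dr U z i))
    {E : St → St → Prop}
    (hE : ∀ u, ∀ s ∈ LS T z L R u, ∀ s' ∈ RS T z L R u, E s s') {α : Type*} {F : St → α}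
    (hinv : ∀ s s', StepC Sd E s s' → F s' = F s)
    (hturn : ∀ s, OkC Sd E s → F (H429.shift s) ≠ F s) : False := by
  obtain ⟨a, haG⟩ := (WinData.G_dense h z L R).nonempty
  refine false_of_run h w haG
    (A := fun g c => F (g, mvW (wn L R a) c) = F (WinData.st T z L R a)) ?_ ?_ ?_
  · have e : mvW (wn L R a) (fun _ => (false, false)) = wn L R a := by
      rw [← cr_self L R a, ← wn_cr w.le le_rfl (by linarith)]
    show F (WinData.col T z L R a, mvW (wn L R a) fun _ => (false, false)) = _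
    rw [e]
    rfl
  · intro u _ g c g' c' hA _ hs hs'
    exact (hinv _ _ (stepC h w hD hE hs hs')).trans hA
  · intro hcon
    have e : mvW (wn L R a) (fun _ => (true, true)) = (H429.shift (WinData.st T z L R a)).2 := by
      rw [← cr_turn L R a, ← wn_cr w.le (by linarith) le_rfl, ← WinData.st_turn]
      rfl
    rw [e] at hcon
    exact hturn _ (okC_gen h w hD hE haG) hcon

/-- **The mixed form**: a potential outside `Fb`, the counted form from a start in `Fb`. -/
theorem false_of_mix (h : Irr U T) (w : WinData T z L R) {Sd : Fin 6 → Prop}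
    (hD : ∀ i, Sd i → L i ∈ closure (Dr U z i) ∧ R i ∈ closure (Dr U z i))
    {E : St → St → Prop}
    (hE : ∀ u, ∀ s ∈ LS T z L R u, ∀ s' ∈ RS T z L R u, E s s') {Fb : St → Prop} {φ : St → ℕ}
    (hsh : ∀ s, OkC Sd E s → ¬ Fb s → φ (H429.shift s) = φ s)
    (pot : ∀ s s', StepC Sd E s s' → ¬ Fb s → ¬ Fb s' →
      φ s' ≤ φ s ∧ (s'.2 ≠ s.2 → φ s' < φ s)) {A : St → Cl → Cn → Prop}
    (init : ∀ s0, Fb s0 → OkC Sd E s0 → A s0 s0.1 (fun _ => (false, false)))
    (step : ∀ s0, Fb s0 → OkC Sd E s0 → ∀ g c g' c', A s0 g c → leC c c' →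
      StepC Sd E (g, mvW s0.2 c) (g', mvW s0.2 c') → A s0 g' c')
    (fin : ∀ s0, Fb s0 → OkC Sd E s0 → ¬ A s0 (H429.shift s0).1 (fun _ => (true, true))) :
    False := by
  by_cases hF : ∃ t ∈ WinData.G T z L R, Fb (WinData.st T z L R t)
  · obtain ⟨a, haG, ha⟩ := hF
    have hok := okC_gen h w hD hE haG
    refine false_of_run h w haG (A := A (WinData.st T z L R a)) (init _ ha hok) ?_
      (fin _ ha hok)
    intro u _ g c g' c' hA hc hs hs'
    exact step _ ha hok g c g' c' hA hc (stepC h w hD hE hs hs')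
  · push Not at hF
    refine WinData.false_pot h z L R (φ := φ)
      (fun t ht => hsh _ (okC_gen h w hD hE ht) (hF t ht)) fun u s hs s' hs' => ?_
    have h2 := (step_all h w hD hs hs').2
    have n1 : ¬ Fb s := by
      obtain ⟨v, hv, rfl⟩ := LS_gen hs
      exact hF v hv
    have n2 : ¬ Fb s' := by
      obtain ⟨v, hv, rfl⟩ := RS_gen hs'
      exact hF v hv
    obtain ⟨h3, h4⟩ := pot s s' (stepC h w hD hE hs hs') n1 n2
    exact ⟨h3, fun hu => h4 fun he => (h2.1 he) hu⟩

end

end Vale.Agent.P032.H728
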