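import Vale.Agent.P032.H158.Rel

/-!
# P032: the counted form of the potential theorem

Between a generic time `a` and `a + 1` every window end crosses exactly one ray.  A set of pairs
(column, crossed ends) which contains the start, is closed under the steps and does not contain the
column turned by 60 degrees with all ends crossed gives a contradiction (`false_of_cnt`).
-/

open Set Filter Topology Metric

noncomputable section

namespace Vale.Agent.P032.H728

open Vale.Agent.P032.Six Vale.Agent.P032.Sweep Vale.Agent.P032.S5.H767 Vale.Agent.P032.S5.H122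
  Vale.Agent.P032.H429 Vale.Agent.P032.H158

/-- the window ends which have crossed a ray (left end, right end) -/
abbrev Cn := Fin 6 → Bool × Bool

/-- a window after the crossings -/
def mvw (w : ZMod 6 × ℕ) (c : Bool × Bool) : ZMod 6 × ℕ :=
  (if c.1 then w.1 - 1 else w.1, w.2 + (if c.1 then 1 else 0) - (if c.2 then 1 else 0))

/-- the windows after the crossings -/
def mvW (w : Wn) (c : Cn) : Wn := fun i => mvw (w i) (c i)

/-- the crossed ends grow -/
def leC (c c' : Cn) : Prop := ∀ i, ((c i).1 = true → (c' i).1 = true) ∧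
  ((c i).2 = true → (c' i).2 = true)

instance (c c' : Cn) : Decidable (leC c c') := by unfold leC; infer_instance

/-- the ends crossed between the times `a` and `t` -/
def cr (L R : Fin 6 → ℝ) (a t : ℝ) : Cn := fun i =>
  (decide (sc t (L i) ≠ sc a (L i)), decide (sc t (R i) ≠ sc a (R i)))

theorem sc_anti (x : ℝ) {t t' : ℝ} (h : t ≤ t') : sc t' x ≤ sc t x :=
  Int.floor_le_floor (by linarith)

theorem sc_btw (x : ℝ) {a t : ℝ} (h1 : a ≤ t) (h2 : t ≤ a + 1) :
    sc t x = sc a x ∨ sc t x = sc a x - 1 := by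
  have h3 := sc_anti x h1
  have h4 := sc_anti x h2
  rw [sc_turn] at h4
  omega

/-- the windows between `a` and `a + 1` -/
theorem wn_cr {L R : Fin 6 → ℝ} (hLR : ∀ i, L i ≤ R i) {a t : ℝ} (h1 : a ≤ t) (h2 : t ≤ a + 1) :
    wn L R t = mvW (wn L R a) (cr L R a t) := by
  funext i
  have e1 : sc t (L i) ≤ sc t (R i) := Int.floor_le_floor (by linarith [hLR i])
  have e2 : sc a (L i) ≤ sc a (R i) := Int.floor_le_floor (by linarith [hLR i])
  show ((sc t (L i) : ZMod 6), (sc t (R i) - sc t (L i)).toNat) =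
    mvw ((sc a (L i) : ZMod 6), (sc a (R i) - sc a (L i)).toNat)
      (decide (sc t (L i) ≠ sc a (L i)), decide (sc t (R i) ≠ sc a (R i)))
  unfold mvw
  simp only [decide_eq_true_eq]
  rcases sc_btw (L i) h1 h2 with h3 | h3 <;> rcases sc_btw (R i) h1 h2 with h4 | h4
  · rw [h3, h4]; simp
  · have h5 : sc t (R i) ≠ sc a (R i) := by omega
    rw [if_neg (not_not.2 h3), if_neg (not_not.2 h3), if_pos h5, h3]
    refine Prod.ext rfl ?_
    show (sc t (R i) - sc a (L i)).toNat = (sc a (R i) - sc a (L i)).toNat + 0 - 1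
    omega
  · have h5 : sc t (L i) ≠ sc a (L i) := by omega
    rw [if_pos h5, if_pos h5, if_neg (not_not.2 h4)]
    refine Prod.ext ?_ ?_
    · show ((sc t (L i) : ℤ) : ZMod 6) = (sc a (L i) : ZMod 6) - 1
      rw [h3]; push_cast; rfl
    · show (sc t (R i) - sc t (L i)).toNat = (sc a (R i) - sc a (L i)).toNat + 1 - 0
      omega
  · have h5 : sc t (L i) ≠ sc a (L i) := by omega
    have h6 : sc t (R i) ≠ sc a (R i) := by omega
    rw [if_pos h5, if_pos h5, if_pos h6]
    refine Prod.ext ?_ ?_
    · show ((sc t (L i) : ℤ) : ZMod 6) = (sc a (L i) : ZMod 6) - 1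
      rw [h3]; push_cast; rfl
    · show (sc t (R i) - sc t (L i)).toNat = (sc a (R i) - sc a (L i)).toNat + 1 - 1
      omega

theorem cr_mono (L R : Fin 6 → ℝ) {a t t' : ℝ} (h1 : a ≤ t) (h2 : t ≤ t') (h3 : t' ≤ a + 1) :
    leC (cr L R a t) (cr L R a t') := by
  intro i
  have e1 := sc_btw (L i) h1 (h2.trans h3)
  have e2 := sc_btw (L i) (h1.trans h2) h3
  have e3 := sc_btw (R i) h1 (h2.trans h3)
  have e4 := sc_btw (R i) (h1.trans h2) h3
  have e5 := sc_anti (L i) h2
  have e6 := sc_anti (R i) h2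
  unfold cr
  simp only [decide_eq_true_eq]
  constructor <;> omega

theorem cr_self (L R : Fin 6 → ℝ) (a : ℝ) : cr L R a a = fun _ => (false, false) := by
  funext i; simp [cr]

theorem cr_turn (L R : Fin 6 → ℝ) (a : ℝ) : cr L R a (a + 1) = fun _ => (true, true) := by
  funext i
  unfold cr
  rw [sc_turn, sc_turn]
  refine Prod.ext ?_ ?_ <;> exact decide_eq_true (by omega)

section

variable {U : Fin 6 → Set ℂ} {T : ℂ → Set (Fin 6)} {z : ℂ} {L R : Fin 6 → ℝ}

/-- **The counted form** over the limit states: `A g c` is an invariant of the column `g` and the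
crossed ends `c`, for a generic start `a`. -/
theorem false_of_run (h : Irr U T) (w : WinData T z L R) {a : ℝ} (ha : a ∈ WinData.G T z L R)
    {A : Cl → Cn → Prop} (init : A (WinData.col T z L R a) (fun _ => (false, false)))
    (step : ∀ u ∈ Ioo a (a + 1), ∀ g c g' c', A g c → leC c c' →
      (g, mvW (wn L R a) c) ∈ LS T z L R u → (g', mvW (wn L R a) c') ∈ RS T z L R u → A g' c')
    (fin : ¬ A (H429.shift (WinData.st T z L R a)).1 (fun _ => (true, true))) : False := by
  have hbG : a + 1 ∈ WinData.G T z L R := WinData.G_turn ha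
  -- near a generic time the ends do not cross
  have hcr : ∀ u ∈ WinData.G T z L R, ∀ᶠ v in 𝓝 u, cr L R a v = cr L R a u := by
    intro u hu
    have h1 : ∀ i, ∀ᶠ v in 𝓝 u, sc v (L i) = sc u (L i) ∧ sc v (R i) = sc u (R i) := by
      intro i
      have hL : ∀ n : ℤ, L i ≠ u + 3 / 2 + n := fun n hn => hu.2 ⟨i, n, Or.inl hn⟩
      have hR : ∀ n : ℤ, R i ≠ u + 3 / 2 + n := fun n hn => hu.2 ⟨i, n, Or.inr hn⟩
      exact (WinData.sc_const hL).and (WinData.sc_const hR)
    filter_upwards [eventually_all.2 h1] with v hv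
    funext i
    unfold cr
    rw [(hv i).1, (hv i).2]
  -- a generic time just before `a + 1`
  have hst := (WinData.st_const hbG).and (hcr _ hbG)
  obtain ⟨δ, hδ, hb⟩ := Metric.eventually_nhds_iff.1 hst
  obtain ⟨v, hvG, hv1, hv2⟩ : ∃ v ∈ WinData.G T z L R, max a (a + 1 - δ) < v ∧ v < a + 1 := by
    obtain ⟨v, h1, h2⟩ := (WinData.G_dense h z L R).exists_mem_open
      (isOpen_Ioo (a := max a (a + 1 - δ)) (b := a + 1))
      (nonempty_Ioo.2 (max_lt (by linarith) (by linarith)))
    exact ⟨v, h1, h2.1, h2.2⟩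
  have hva : a < v := lt_of_le_of_lt (le_max_left _ _) hv1
  have hvδ : a + 1 - δ < v := lt_of_le_of_lt (le_max_right _ _) hv1
  have hsv := hb (y := v) (by rw [Real.dist_eq, abs_of_neg (by linarith)]; linarith)
  have key := H987.transport (ι := Unit) (M := fun _ => (∅ : Set ℝ)) (a := a) (b := a + 1)
    (fun _ => by simp) (WinData.G_dense h z L R)
    (st := fun t => (WinData.st T z L R t, cr L R a t))
    (fun u hu _ => ((WinData.st_const hu).and (hcr u hu)).mono fun _ hv _ =>
      Prod.ext hv.1 hv.2)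
    (I := fun _ s => A s.1.1 s.2) ?_ ?_ v ⟨hva, hv2⟩ hvG
  · have e1 : (WinData.st T z L R v).1 = (H429.shift (WinData.st T z L R a)).1 := by
      rw [hsv.1, WinData.st_turn]
    have e2 : cr L R a v = fun _ => (true, true) := by rw [hsv.2, cr_turn]
    have key' : A (WinData.st T z L R v).1 (cr L R a v) := key
    rw [e1, e2] at key'
    exact fin key'
  · have h1 : ∀ᶠ v in 𝓝[>] a, WinData.st T z L R v = WinData.st T z L R a ∧
        cr L R a v = cr L R a a :=
      mem_nhdsWithin_of_mem_nhds ((WinData.st_const ha).and (hcr a ha))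
    filter_upwards [h1] with v hv _
    show A (WinData.st T z L R v).1 (cr L R a v)
    rw [hv.1, hv.2, cr_self]
    exact init
  · intro u hu
    have n1 : ∀ᶠ v in 𝓝[<] u, a < v := mem_nhdsWithin_of_mem_nhds (Ioi_mem_nhds hu.1)
    have n2 : ∀ᶠ v in 𝓝[>] u, v < a + 1 := mem_nhdsWithin_of_mem_nhds (Iio_mem_nhds hu.2)
    filter_upwards [WinData.ev_LS T z L R u, n1, self_mem_nhdsWithin] with v hv hv1 hv2 hvG
    filter_upwards [WinData.ev_RS T z L R u, n2, self_mem_nhdsWithin] with v' hv' hv1' hv2' hvG' n hI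
    have hv2 : v < u := hv2
    have hv2' : u < v' := hv2'
    have hI' : A (WinData.st T z L R v).1 (cr L R a v) := hI
    show A (WinData.st T z L R v').1 (cr L R a v')
    refine step u hu _ _ _ _ hI' (cr_mono L R hv1.le (by linarith) hv1'.le) ?_ ?_
    · rw [← wn_cr w.le hv1.le (by linarith)]
      exact hv hvG
    · rw [← wn_cr w.le (by linarith) hv1'.le]
      exact hv' hvG'

/-- **The counted form** with the rules of `Step`. -/
theorem false_of_cnt (h : Irr U T) (w : WinData T z L R) {Sd : Fin 6 → Prop}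
    (hD : ∀ i, Sd i → L i ∈ closure (Dr U z i) ∧ R i ∈ closure (Dr U z i)) {S0 : St → Prop}
    (h0 : ∃ t ∈ WinData.G T z L R, S0 (WinData.st T z L R t)) {A : St → Cl → Cn → Prop}
    (init : ∀ s0, S0 s0 → OkSt s0 → A s0 s0.1 (fun _ => (false, false)))
    (step : ∀ s0, S0 s0 → OkSt s0 → ∀ g c g' c', A s0 g c → leC c c' →
      Step Sd (g, mvW s0.2 c) (g', mvW s0.2 c') → A s0 g' c')
    (fin : ∀ s0, S0 s0 → OkSt s0 → ¬ A s0 (H429.shift s0).1 (fun _ => (true, true))) : False := by
  obtain ⟨a, haG, ha⟩ := h0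
  have hok := ok_st h w haG
  refine false_of_run h w haG (A := A (WinData.st T z L R a)) (init _ ha hok) ?_ (fin _ ha hok)
  intro u _ g c g' c' hA hc hs hs'
  exact step _ ha hok g c g' c' hA hc (step_all h w hD hs hs').1

end

end Vale.Agent.P032.H728
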