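import Vale.Agent.P032.H728.GSrch

/-!
# P032: fast forms of the checks

The same functions as in `GKit` with raw operations, and trees for the data.
-/

noncomputable section

namespace Vale.Agent.P032.H728.G

open Vale.Agent.P032.Six Vale.Agent.P032.H429 Vale.Agent.P032.H158 Vale.Agent.P032.H623
  Vale.Agent.P032.H838.GTr

/-- binary trees -/
inductive Tr (α : Type) where
  | lf (a : α) : Tr α
  | nd (x y : Tr α) : Tr α

/-- the leaf with the index `i` (lowest bit first) -/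
def gt {α : Type} (t : Tr α) : ℕ → α :=
  Tr.rec (fun a _ => a)
    (fun _ _ ihx ihy i => Bool.rec (ihy (Nat.shiftRight i 1)) (ihx (Nat.shiftRight i 1))
      (Nat.beq (Nat.land i 1) 0)) t

def d8 (w p : ℕ) : ℕ := Nat.land (Nat.shiftRight w (Nat.mul 3 p)) 7
def d32 (w p : ℕ) : ℕ := Nat.land (Nat.shiftRight w (Nat.mul 5 p)) 31
def d4 (w p : ℕ) : ℕ := Nat.land (Nat.shiftRight w (Nat.mul 2 p)) 3

theorem d8_eq (w p : ℕ) : d8 w p = G.dg 8 w p := dg7 w p

theorem d32_eq (w p : ℕ) : d32 w p = G.dg 32 w p := cx_dg w p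

theorem d4_eq (w p : ℕ) : d4 w p = G.dg 4 w p := by
  have e : (3 : ℕ) = 2 ^ 2 - 1 := by norm_num
  show (w >>> (2 * p)) &&& 3 = w / 4 ^ p % 4
  rw [e, Nat.and_two_pow_sub_one_eq_mod, Nat.shiftRight_eq_div_pow, pow_mul,
    show (2 : ℕ) ^ 2 = 4 by norm_num]

/-- the number with the digits `f p` for the places `p` of a list -/
def cdr (b : ℕ) (l : List ℕ) (f : ℕ → ℕ) : ℕ :=
  List.rec 0 (fun p _ ih => Nat.add (f p) (Nat.mul b ih)) l

theorem cdr_eq (b : ℕ) (l : List ℕ) (f : ℕ → ℕ) : cdr b l f = cd b (l.map f) := by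
  induction l with
  | nil => rfl
  | cons p l ih =>
    show f p + b * cdr b l f = f p + b * cd b (l.map f)
    rw [ih]

def trWr (π k w : ℕ) : ℕ :=
  cdr 8 l12 fun p => d8 π (d8 w (Nat.mod (Nat.add p (Nat.mul 2 k)) 12))

theorem trWr_eq (π k w : ℕ) : trWr π k w = trW π k w := by
  unfold trWr trW
  rw [cdr_eq]
  congr 1
  refine List.map_congr_left fun p _ => ?_
  rw [d8_eq, d8_eq]
  rfl

def tkr (k c : ℕ) : ℕ :=
  Nat.add (Nat.mul 4 (Nat.mod (Nat.sub (Nat.add (Nat.shiftRight c 2) 6) k) 6)) (Nat.land c 3)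

theorem tkr_eq (k c : ℕ) : tkr k c = tk k c := by
  have e : (3 : ℕ) = 2 ^ 2 - 1 := by norm_num
  have h1 : Nat.shiftRight c 2 = c / 4 := by
    show c >>> 2 = c / 4
    rw [Nat.shiftRight_eq_div_pow]
  have h2 : Nat.land c 3 = c % 4 := by
    show c &&& 3 = c % 4
    rw [e, Nat.and_two_pow_sub_one_eq_mod]
  unfold tkr tk
  rw [h1, h2]
  rfl

def trVr (π' k V : ℕ) : ℕ := cdr 32 l6 fun j => tkr k (d32 V (d8 π' j))

theorem trVr_eq (π' k V : ℕ) : trVr π' k V = trV π' k V := by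
  unfold trVr trV
  rw [cdr_eq]
  congr 1
  refine List.map_congr_left fun p _ => ?_
  rw [tkr_eq, d32_eq, d8_eq]

def trCr (π' c : ℕ) : ℕ := cdr 4 l6 fun j => d4 c (d8 π' j)

theorem trCr_eq (π' c : ℕ) : trCr π' c = trC π' c := by
  unfold trCr trC
  rw [cdr_eq]
  congr 1
  refine List.map_congr_left fun p _ => ?_
  rw [d4_eq, d8_eq]

/-- the table of `mvc` : `8` bits at the place `8 (4 c + m)` -/
def mvT : ℕ :=
  0x3061f070205030601040205001f010417021f031601170215001601141f150013161f171215131611141215101f11140f121f130e110f120d100e110c1f0d100b0e1f0f0a0d0b0e090c0a0d081f090c070a1f0b0609070a05080609041f050803061f070205030601040205001f010417021f031601170215001601141f1500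

def mvr (c m : ℕ) : ℕ := Nat.land (Nat.shiftRight mvT (Nat.mul 8 (Nat.add (Nat.mul 4 c) m))) 31

theorem mvr_eq {c m : ℕ} (hc : c < 32) (hm : m < 4) : mvr c m = mvc c m := by
  have key : ∀ (c : Fin 32) (m : Fin 4), mvr c.val m.val = mvc c.val m.val := by
    unfold mvr mvc mvT; decide +kernel
  exact key ⟨c, hc⟩ ⟨m, hm⟩

def mvVr (V μ : ℕ) : ℕ := cdr 32 l6 fun i => mvr (d32 V i) (d4 μ i)

theorem mvVr_eq (V μ : ℕ) : mvVr V μ = mvV V μ := by
  unfold mvVr mvV
  rw [cdr_eq]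
  congr 1
  refine List.map_congr_left fun p _ => ?_
  rw [d32_eq, d4_eq]
  exact mvr_eq (Nat.mod_lt _ (by norm_num)) (Nat.mod_lt _ (by norm_num))

theorem allr_eq {α : Type} (l : List α) (f : α → Bool) : allr l f = l.all f := by
  induction l with
  | nil => rfl
  | cons x l ih =>
    show ifr (f x) (allr l f) false = (f x && l.all f)
    rw [ih]
    cases f x <;> rfl

theorem anyr_eq {α : Type} (l : List α) (f : α → Bool) : anyr l f = l.any f := by
  induction l with
  | nil => rfl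
  | cons x l ih =>
    show ifr (f x) true (anyr l f) = (f x || l.any f)
    rw [ih]
    cases f x <;> rfl

theorem ifr_and (a b : Bool) : ifr a b false = (a && b) := by cases a <;> rfl
theorem ifr_or (a b : Bool) : ifr a true b = (a || b) := by cases a <;> rfl

def isPr (π π' : ℕ) : Bool :=
  allr l6 fun i => ifr (ifr (ifr (Nat.ble (d8 π i) 5) (Nat.ble (d8 π' i) 5) false)
    (Nat.beq (d8 π' (d8 π i)) i) false) (Nat.beq (d8 π (d8 π' i)) i) false

theorem isPr_eq (π π' : ℕ) : isPr π π' = isP π π' := by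
  unfold isPr isP
  rw [allr_eq]
  simp only [ifr_and, d8_eq]

def grpR (C : ℕ → ℕ × ℕ) (V : ℕ) (e : Grp) : Bool :=
  ifr (ifr (isPr e.π e.π') (Nat.ble e.k 5) false) (allr e.l fun x =>
    ifr (Nat.beq (trWr e.π e.k e.q) (C x.2).1)
      (Nat.beq (trVr e.π' e.k (mvVr V x.1)) (C x.2).2) false) false

theorem grpR_eq (C : ℕ → ℕ × ℕ) (V : ℕ) (e : Grp) : grpR C V e = grpOK C V e := by
  unfold grpR grpOK
  rw [allr_eq]
  simp only [ifr_and, isPr_eq, trWr_eq, trVr_eq, mvVr_eq]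

def inNr (N : List Node) (g c : ℕ) : Bool :=
  anyr N fun x => ifr (Nat.beq x.c c) (Nat.beq x.g g) false

theorem inNr_eq (N : List Node) (g c : ℕ) : inNr N g c = inN N g c := by
  unfold inNr inN
  rw [anyr_eq]
  simp only [ifr_and]

/-- negation -/
def notr (a : Bool) : Bool := Bool.rec true false a

theorem notr_eq (a : Bool) : notr a = !a := by cases a <;> rfl

def nodeR (C : ℕ → ℕ × ℕ) (E : ℕ → List Grp) (id V0 : ℕ) (N : List Node) (x : Node) : Bool :=
  ifr (ifr (ifr (ifr (isPr x.π x.π') (Nat.ble x.k 5) false)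
    (Nat.beq (trWr x.π x.k x.g) (C x.i).1) false)
    (Nat.beq (trVr x.π' x.k (mvVr V0 x.c)) (C x.i).2) false)
    (allr (E x.i) fun e => allr e.l fun y => ifr (ifr (notr (Nat.ble id y.2)) true
      (notr (Nat.beq (Nat.land y.1 (trCr x.π' x.c)) 0))) true
      (inNr N (trWr x.π' (Nat.mod (Nat.sub 6 x.k) 6) e.q) (Nat.lor x.c (trCr x.π y.1)))) false

theorem nodeR_eq (C : ℕ → ℕ × ℕ) (E : ℕ → List Grp) (id V0 : ℕ) (N : List Node) (x : Node) :
    nodeR C E id V0 N x = nodeOK C E id V0 N x := by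
  unfold nodeR nodeOK
  simp only [allr_eq, ifr_and, ifr_or, isPr_eq, trWr_eq, trVr_eq, mvVr_eq, inNr_eq, trCr_eq,
    notr_eq]
  rfl

def cloR (C : ℕ → ℕ × ℕ) (E : ℕ → List Grp) (id : ℕ) (N : List Node) : Bool :=
  ifr (ifr (inNr N (C id).1 0) (notr (inNr N (trWr 181896 1 (C id).1) 4095)) false)
    (allr N fun x => nodeR C E id (C id).2 N x) false

theorem cloR_eq (C : ℕ → ℕ × ℕ) (E : ℕ → List Grp) (id : ℕ) (N : List Node) :
    cloR C E id N = cloOK C E id N := by
  unfold cloR cloOK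
  simp only [allr_eq, ifr_and, inNr_eq, trWr_eq, notr_eq, nodeR_eq]

/-- all checks of the state `i` -/
def chkI (C : ℕ → ℕ × ℕ) (E : ℕ → List Grp) (i : ℕ) (N : List Node) : Bool :=
  ifr (srch (C i).1 (C i).2 (E i)) (ifr (allr (E i) (grpR C (C i).2)) (cloR C E i N) false) false

theorem chkI_ok {C : ℕ → ℕ × ℕ} {E : ℕ → List Grp} {i : ℕ} {N : List Node}
    (h : chkI C E i N = true) : EdgeC (fun g g' => ¬ NsC g g') C E i ∧
      (E i).all (grpOK C (C i).2) = true ∧ cloOK C E i N = true := by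
  unfold chkI at h
  rw [ifr_and, ifr_and, Bool.and_eq_true_iff, Bool.and_eq_true_iff] at h
  obtain ⟨h1, h2, h3⟩ := h
  refine ⟨edgeC_of h1, ?_, by rw [← cloR_eq]; exact h3⟩
  rw [allr_eq] at h2
  rw [← h2]
  congr 1
  funext e
  exact (grpR_eq C _ e).symm

/-- all checks of a list of states -/
def chkL (C : ℕ → ℕ × ℕ) (E : ℕ → List Grp) (N : ℕ → List Node) (l : List ℕ) : Bool :=
  allr l fun i => chkI C E i (N i)

end Vale.Agent.P032.H728.G
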