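import Vale.Agent.P032.H728.Static
import Vale.Agent.P032.H728.Rank
import Vale.Agent.P032.H728.Enc

/-!
# P032: the general end of the windowed centre, definitions

All objects as packed numbers: a column `cw g` (12 digits, base 8), windows `cv W` (6 digits,
base 32), counters `cc c` (6 digits, base 4), a renaming `π` (6 digits, base 8) with its inverse.

`C : ℕ → ℕ × ℕ` the canonical states `(column, windows)`, the rank is the index;
`E : ℕ → List Grp` the steps from a canonical state;
`N : ℕ → List Node` the closure of a canonical state as a start.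
-/

noncomputable section

namespace Vale.Agent.P032.H728.G

open Vale.Agent.P032.Six Vale.Agent.P032.H429 Vale.Agent.P032.H158

/-- a digit in base `b` -/
def dg (b w p : ℕ) : ℕ := w / b ^ p % b

/-- the number with the digits of a list -/
def cd (b : ℕ) : List ℕ → ℕ
  | [] => 0
  | d :: l => d + b * cd b l

/-- the word of a column -/
def cw (g : Cl) : ℕ := cd 8 (l12.map (ls g))

/-- the word of the windows -/
def cv (W : Wn) : ℕ := cd 32 (l6.map fun i => wc (W (Fin.ofNat 6 i)))

/-- the word of the counters: digit `1` the left end, digit `2` the right end -/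
def cc (c : Cn) : ℕ :=
  cd 4 (l6.map fun i => (c (Fin.ofNat 6 i)).1.toNat + 2 * (c (Fin.ofNat 6 i)).2.toNat)

/-- `π'` is inverse to `π` -/
def isP (π π' : ℕ) : Bool :=
  l6.all fun i => Nat.ble (dg 8 π i) 5 && Nat.ble (dg 8 π' i) 5 &&
    Nat.beq (dg 8 π' (dg 8 π i)) i && Nat.beq (dg 8 π (dg 8 π' i)) i

/-- the column after `k` turns and the renaming -/
def trW (π k w : ℕ) : ℕ := cd 8 (l12.map fun p => dg 8 π (dg 8 w ((p + 2 * k) % 12)))

/-- the code of a window after `k ≤ 5` turns -/
def tk (k c : ℕ) : ℕ := 4 * ((c / 4 + 6 - k) % 6) + c % 4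

/-- the windows after `k` turns and the renaming with the inverse `π'` -/
def trV (π' k V : ℕ) : ℕ := cd 32 (l6.map fun j => tk k (dg 32 V (dg 8 π' j)))

/-- the counters after the renaming with the inverse `π'` -/
def trC (π' c : ℕ) : ℕ := cd 4 (l6.map fun j => dg 4 c (dg 8 π' j))

/-- the window with the code `c` after the crossings `m < 4` (`31` if there is none) -/
def mvc (c m : ℕ) : ℕ :=
  bif Nat.ble (m / 2) (c % 4 + m % 2) && Nat.ble (c % 4 + m % 2 - m / 2) 3
  then 4 * ((c / 4 + 6 - m % 2) % 6) + (c % 4 + m % 2 - m / 2) else 31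

/-- the windows after the crossings -/
def mvV (V μ : ℕ) : ℕ := cd 32 (l6.map fun i => mvc (dg 32 V i) (dg 4 μ i))

/-- the state after `k` turns and the renaming -/
def T (σ : Equiv.Perm (Fin 6)) (k : ℕ) (s : St) : St := prm σ (H429.shift^[k] s)

/-- true crossings: a window of length `0` does not lose its right end first -/
def wok (W : Wn) (c : Cn) : Prop := ∀ i, (c i).2 = true → (c i).1 = true ∨ 1 ≤ (W i).2

/-- a group of steps with the same column: the column, the transport `(π, π', k)` of the target to
the canonical one, and the crossings with the indices of the canonical targets -/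
structure Grp where
  q : ℕ
  π : ℕ
  π' : ℕ
  k : ℕ
  l : List (ℕ × ℕ)

/-- a node of a closure: column, counters, index of the canonical state, transport to it -/
structure Node where
  g : ℕ
  c : ℕ
  i : ℕ
  π : ℕ
  π' : ℕ
  k : ℕ

/-- the check of a group: the targets are the canonical states with the given indices -/
def grpOK (C : ℕ → ℕ × ℕ) (V : ℕ) (e : Grp) : Bool :=
  isP e.π e.π' && Nat.ble e.k 5 && e.l.all fun x =>
    Nat.beq (trW e.π e.k e.q) (C x.2).1 && Nat.beq (trV e.π' e.k (mvV V x.1)) (C x.2).2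

/-- the node `(g, c)` is in the list -/
def inN (N : List Node) (g c : ℕ) : Bool := N.any fun x => Nat.beq x.c c && Nat.beq x.g g

/-- the check of a node of the closure of the start `id` with the windows `V0`: the canonical form
of the node, and every step which does not go to a smaller index and does not repeat a crossing
stays in the list -/
def nodeOK (C : ℕ → ℕ × ℕ) (E : ℕ → List Grp) (id V0 : ℕ) (N : List Node) (x : Node) : Bool :=
  isP x.π x.π' && Nat.ble x.k 5 && Nat.beq (trW x.π x.k x.g) (C x.i).1 &&
    Nat.beq (trV x.π' x.k (mvV V0 x.c)) (C x.i).2 &&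
    (E x.i).all fun e => e.l.all fun y => !(Nat.ble id y.2) ||
      !(Nat.beq (Nat.land y.1 (trC x.π' x.c)) 0) ||
      inN N (trW x.π' ((6 - x.k) % 6) e.q) (Nat.lor x.c (trC x.π y.1))

/-- the check of a closure -/
def cloOK (C : ℕ → ℕ × ℕ) (E : ℕ → List Grp) (id : ℕ) (N : List Node) : Bool :=
  inN N (C id).1 0 && !(inN N (trW 181896 1 (C id).1) 4095) &&
    N.all fun x => nodeOK C E id (C id).2 N x

/-- **Edge completeness** of the canonical state `i` (proved by the search of `GNext`): every step
whose column is not killed is trivial or in the list.  Only the letters, the lengths, the cover and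
the true crossings are used. -/
def EdgeC (Kl : Cl → Cl → Prop) (C : ℕ → ℕ × ℕ) (E : ℕ → List Grp) (i : ℕ) : Prop :=
  ∀ (s : St) (m : Cn) (g' : Cl), cw s.1 = (C i).1 → cv s.2 = (C i).2 → OkSt s → wok s.2 m →
    OkSt (g', mvW s.2 m) → Cov (mvW s.2 m) → ¬ Kl s.1 g' →
    (g' = s.1 ∧ m = fun _ => (false, false)) ∨
      ∃ e ∈ E i, e.q = cw g' ∧ ∃ x ∈ e.l, x.1 = cc m

/-- **Static completeness** (proved in `GStat`): every valid state is one of the first `n`
canonical ones up to names and turns. -/
def StatC (C : ℕ → ℕ × ℕ) (n : ℕ) : Prop :=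
  ∀ s : St, OkSt s → Cov s.2 → ∃ i < n, ∃ σ : Equiv.Perm (Fin 6), ∃ k < 6,
    cw (T σ k s).1 = (C i).1 ∧ cv (T σ k s).2 = (C i).2

/-- the literal goal of the Lean side, with any relation `Kl` which is killed and invariant under
names and turns; nothing about honest directions -/
def EndGoal : Prop :=
  ∀ (U : Fin 6 → Set ℂ) (T0 : ℂ → Set (Fin 6)) (z : ℂ) (L R : Fin 6 → ℝ), Irr U T0 →
    WinData T0 z L R → ∀ Kl : Cl → Cl → Prop,
    (∀ u, ∀ s ∈ LS T0 z L R u, ∀ s' ∈ RS T0 z L R u, ¬ Kl s.1 s'.1) →
    (∀ σ k s s', Kl (T σ k s).1 (T σ k s').1 → Kl s.1 s'.1) →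
    ∀ (C : ℕ → ℕ × ℕ) (E : ℕ → List Grp) (N : ℕ → List Node) (n : ℕ), StatC C n →
    (∀ i < n, EdgeC Kl C E i) → (∀ i < n, (E i).all (grpOK C (C i).2) = true) →
    (∀ i < n, cloOK C E i (N i) = true) → False

end Vale.Agent.P032.H728.G
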