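import Vale.Agent.P032.H728.GNext

/-!
# P032: soundness of the search

`edgeC_of` : `srch` for the words of a canonical state gives the edge completeness.
-/

noncomputable section

namespace Vale.Agent.P032.H728.G

open Vale.Agent.P032.Six Vale.Agent.P032.H429 Vale.Agent.P032.H158 Vale.Agent.P032.H623
  Vale.Agent.P032.H838.GTr

/-! ### bits -/

theorem land_and (a b : ℕ) : Nat.land a b = a &&& b := rfl
theorem lor_or (a b : ℕ) : Nat.lor a b = a ||| b := rfl
theorem xor_xor (a b : ℕ) : Nat.xor a b = a ^^^ b := rfl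
theorem shl_eq (a b : ℕ) : Nat.shiftLeft a b = a <<< b := rfl
theorem shr_eq (a b : ℕ) : Nat.shiftRight a b = a >>> b := rfl

theorem cx_dg (V x : ℕ) : cx V x = G.dg 32 V x := by
  have e : (31 : ℕ) = 2 ^ 5 - 1 := by norm_num
  show (V >>> (5 * x)) &&& 31 = V / 32 ^ x % 32
  rw [e, Nat.and_two_pow_sub_one_eq_mod, Nat.shiftRight_eq_div_pow, pow_mul,
    show (2 : ℕ) ^ 5 = 32 by norm_num]

theorem dg7 (g p : ℕ) : Nat.land (Nat.shiftRight g (3 * p)) 7 = G.dg 8 g p := by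
  have e : (7 : ℕ) = 2 ^ 3 - 1 := by norm_num
  show (g >>> (3 * p)) &&& 7 = g / 8 ^ p % 8
  rw [e, Nat.and_two_pow_sub_one_eq_mod, Nat.shiftRight_eq_div_pow, pow_mul,
    show (2 : ℕ) ^ 3 = 8 by norm_num]

/-- the mask of a letter -/
def mk (p : Fin 6 × Fin 6) : ℕ := Nat.lor (Nat.shiftLeft 1 p.1.val) (Nat.shiftLeft 1 p.2.val)

theorem mk_bit (p : Fin 6 × Fin 6) (x : Fin 6) :
    (mk p).testBit x.val = true ↔ x = p.1 ∨ x = p.2 := by
  unfold mk
  rw [lor_or, shl_eq, shl_eq, Nat.testBit_or, Nat.one_shiftLeft, Nat.one_shiftLeft,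
    Nat.testBit_two_pow, Nat.testBit_two_pow, Bool.or_eq_true_iff, decide_eq_true_iff,
    decide_eq_true_iff]
  constructor <;> rintro (h | h)
  · exact Or.inl (Fin.ext h.symm)
  · exact Or.inr (Fin.ext h.symm)
  · exact Or.inl (by rw [h])
  · exact Or.inr (by rw [h])

theorem mtB_mk (p q : Fin 6 × Fin 6) : mtB (mk p) (mk q) = true ↔ H623.mt p q := by
  have key : ∀ a b c d : Fin 6, mtB (mk (a, b)) (mk (c, d)) = true ↔
      H623.mt (a, b) (c, d) := by
    unfold mtB mk H623.mt; decide +kernel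
  exact key p.1 p.2 q.1 q.2

theorem mtB_mk' {p q : Fin 6 × Fin 6} (h : ¬ H623.mt p q) : mtB (mk p) (mk q) = false := by
  rw [← Bool.not_eq_true]
  exact fun e => h ((mtB_mk p q).1 e)

theorem gm_eq (g : Cl) (j : Fin 6) : gm (cw g) j.val = mk (g j) := by
  have hj := j.isLt
  unfold gm mk
  rw [show Nat.mul 6 j.val = 3 * (2 * j.val) by show 6 * j.val = _; ring,
    show Nat.add (3 * (2 * j.val)) 3 = 3 * (2 * j.val + 1) by
      show 3 * (2 * j.val) + 3 = _; ring,
    dg7, dg7, dg_cw g (by omega), dg_cw g (by omega), ls_even, ls_odd]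

/-! ### the masks of the moves -/

/-- the moves `m` are in the mask `O` -/
def In (O : ℕ) (m : Cn) : Prop := ∀ x : Fin 6, O.testBit (4 * x.val + cdg (m x)) = true

theorem nib_bit (O x : ℕ) {b : ℕ} (hb : b < 4) : (nib O x).testBit b = O.testBit (4 * x + b) := by
  have e : (15 : ℕ) = 2 ^ 4 - 1 := by norm_num
  show ((O >>> (4 * x)) &&& 15).testBit b = _
  rw [Nat.testBit_and, Nat.testBit_shiftRight, e, Nat.testBit_two_pow_sub_one,
    decide_eq_true hb, Bool.and_true]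

theorem nib_lt (O x : ℕ) : nib O x < 16 := by
  have e : (15 : ℕ) = 2 ^ 4 - 1 := by norm_num
  show (O >>> (4 * x)) &&& 15 < 16
  rw [e, Nat.and_two_pow_sub_one_eq_mod]
  exact Nat.mod_lt _ (by norm_num)

theorem frN_bit (T V j x : ℕ) {b : ℕ} (hb : b < 4) :
    (frN T V j x).testBit b = T.testBit (4 * (24 * j + cx V x) + b) := by
  have e : (15 : ℕ) = 2 ^ 4 - 1 := by norm_num
  show ((T >>> (4 * (24 * j + cx V x))) &&& 15).testBit b = _
  rw [Nat.testBit_and, Nat.testBit_shiftRight, e, Nat.testBit_two_pow_sub_one,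
    decide_eq_true hb, Bool.and_true]

theorem in_setN {O o : ℕ} {m : Cn} {x : Fin 6} (h : In O m) (ho : o.testBit (cdg (m x)) = true) :
    In (setN O x.val o) m := by
  intro i
  have hc := cdg_lt (m i)
  unfold setN
  rw [lor_or, land_and, xor_xor, shl_eq, shl_eq, Nat.testBit_or, Nat.testBit_and,
    Nat.testBit_shiftLeft, h i]
  by_cases hx : i = x
  · subst hx
    have e : Nat.mul 4 i.val = 4 * i.val := rfl
    rw [e, Nat.add_sub_cancel_left, ho, decide_eq_true (by omega)]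
    simp
  · have key : ∀ (i x : Fin 6) (c : Fin 4), i ≠ x →
        (0xffffff ^^^ (15 <<< (4 * x.val))).testBit (4 * i.val + c.val) = true := by
      decide +kernel
    have := key i x ⟨cdg (m i), hc⟩ hx
    rw [show (15 : ℕ) <<< Nat.mul 4 x.val = 15 <<< (4 * x.val) from rfl, this]
    rfl

section

variable {s : St} {m : Cn}

theorem mv_len {g' : Cl} (hs' : OkSt (g', mvW s.2 m)) (i : Fin 6) : (mvw (s.2 i) (m i)).2 ≤ 3 :=
  hs'.1 i

theorem in_ov {g' : Cl} (hs : OkSt s) (hm : wok s.2 m) (hs' : OkSt (g', mvW s.2 m)) :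
    In (ov (cv s.2)) m := by
  have h1 : ∀ x : Fin 6, (ov1 (cv s.2) x.val).testBit (4 * x.val + cdg (m x)) = true := by
    intro x
    have hc := cdg_lt (m x)
    unfold ov1
    have e : (15 : ℕ) = 2 ^ 4 - 1 := by norm_num
    rw [shl_eq, land_and, shr_eq, Nat.testBit_shiftLeft, cx_dg, dg_cv hs.1]
    have e1 : Nat.mul 4 x.val = 4 * x.val := rfl
    have e2 : Nat.mul 4 (H728.wc (s.2 x)) = 4 * H728.wc (s.2 x) := rfl
    rw [e1, e2, Nat.add_sub_cancel_left, Nat.testBit_and, Nat.testBit_shiftRight, e,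
      Nat.testBit_two_pow_sub_one, decide_eq_true hc, ovT_ok (hs.1 x) (hm x) (mv_len hs' x),
      decide_eq_true (by omega)]
    rfl
  intro x
  have h2 := h1 x
  unfold ov
  simp only [lor_or, Nat.testBit_or]
  fin_cases x
  · have h3 : (ov1 (cv s.2) 0).testBit (4 * (0 : Fin 6).val + cdg (m 0)) = true := h2
    show ((ov1 (cv s.2) 0).testBit (4 * (0 : Fin 6).val + cdg (m 0)) || _) = true
    rw [h3]; rfl
  · have h3 : (ov1 (cv s.2) 1).testBit (4 * (1 : Fin 6).val + cdg (m 1)) = true := h2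
    show ((ov1 (cv s.2) 0).testBit (4 * (1 : Fin 6).val + cdg (m 1)) ||
      ((ov1 (cv s.2) 1).testBit (4 * (1 : Fin 6).val + cdg (m 1)) || _)) = true
    rw [h3]; simp
  · have h3 : (ov1 (cv s.2) 2).testBit (4 * (2 : Fin 6).val + cdg (m 2)) = true := h2
    show ((ov1 (cv s.2) 0).testBit (4 * (2 : Fin 6).val + cdg (m 2)) ||
      ((ov1 (cv s.2) 1).testBit (4 * (2 : Fin 6).val + cdg (m 2)) ||
      ((ov1 (cv s.2) 2).testBit (4 * (2 : Fin 6).val + cdg (m 2)) || _))) = true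
    rw [h3]; simp
  · have h3 : (ov1 (cv s.2) 3).testBit (4 * (3 : Fin 6).val + cdg (m 3)) = true := h2
    show ((ov1 (cv s.2) 0).testBit (4 * (3 : Fin 6).val + cdg (m 3)) ||
      ((ov1 (cv s.2) 1).testBit (4 * (3 : Fin 6).val + cdg (m 3)) ||
      ((ov1 (cv s.2) 2).testBit (4 * (3 : Fin 6).val + cdg (m 3)) ||
      ((ov1 (cv s.2) 3).testBit (4 * (3 : Fin 6).val + cdg (m 3)) || _)))) = true
    rw [h3]; simp
  · have h3 : (ov1 (cv s.2) 4).testBit (4 * (4 : Fin 6).val + cdg (m 4)) = true := h2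
    show ((ov1 (cv s.2) 0).testBit (4 * (4 : Fin 6).val + cdg (m 4)) ||
      ((ov1 (cv s.2) 1).testBit (4 * (4 : Fin 6).val + cdg (m 4)) ||
      ((ov1 (cv s.2) 2).testBit (4 * (4 : Fin 6).val + cdg (m 4)) ||
      ((ov1 (cv s.2) 3).testBit (4 * (4 : Fin 6).val + cdg (m 4)) ||
      ((ov1 (cv s.2) 4).testBit (4 * (4 : Fin 6).val + cdg (m 4)) || _))))) = true
    rw [h3]; simp
  · have h3 : (ov1 (cv s.2) 5).testBit (4 * (5 : Fin 6).val + cdg (m 5)) = true := h2
    show ((ov1 (cv s.2) 0).testBit (4 * (5 : Fin 6).val + cdg (m 5)) ||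
      ((ov1 (cv s.2) 1).testBit (4 * (5 : Fin 6).val + cdg (m 5)) ||
      ((ov1 (cv s.2) 2).testBit (4 * (5 : Fin 6).val + cdg (m 5)) ||
      ((ov1 (cv s.2) 3).testBit (4 * (5 : Fin 6).val + cdg (m 5)) ||
      ((ov1 (cv s.2) 4).testBit (4 * (5 : Fin 6).val + cdg (m 5)) ||
      (ov1 (cv s.2) 5).testBit (4 * (5 : Fin 6).val + cdg (m 5))))))) = true
    rw [h3]; simp

theorem cu1_bit (V O x : ℕ) {k : ℕ} (hk : k < 6) :
    (cu1 V O x).testBit k = cuT.testBit (96 * cx V x + 6 * nib O x + k) := by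
  have e : (63 : ℕ) = 2 ^ 6 - 1 := by norm_num
  show ((cuT >>> (96 * cx V x + 6 * nib O x)) &&& 63).testBit k = _
  rw [Nat.testBit_and, Nat.testBit_shiftRight, e, Nat.testBit_two_pow_sub_one,
    decide_eq_true hk, Bool.and_true]

theorem cu1_hi (V O x : ℕ) {k : ℕ} (hk : ¬ k < 6) : (cu1 V O x).testBit k = false := by
  have e : (63 : ℕ) = 2 ^ 6 - 1 := by norm_num
  show ((cuT >>> (96 * cx V x + 6 * nib O x)) &&& 63).testBit k = _
  rw [Nat.testBit_and, e, Nat.testBit_two_pow_sub_one, decide_eq_false hk, Bool.and_false]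

theorem cvu_full {g' : Cl} (hs : OkSt s) (hm : wok s.2 m) (hs' : OkSt (g', mvW s.2 m))
    (hcov : Cov (mvW s.2 m)) {O : ℕ} (h : In O m) : cvu (cv s.2) O = 63 := by
  refine Nat.eq_of_testBit_eq fun k => ?_
  have e : (63 : ℕ) = 2 ^ 6 - 1 := by norm_num
  rw [e, Nat.testBit_two_pow_sub_one]
  unfold cvu
  simp only [lor_or, Nat.testBit_or]
  by_cases hk : k < 6
  · rw [decide_eq_true hk]
    obtain ⟨i, hi⟩ := hcov (k : ZMod 6)
    have h1 : (cu1 (cv s.2) O i.val).testBit k = true := by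
      rw [cu1_bit _ _ _ hk, cx_dg, dg_cv hs.1]
      refine cuT_ok (hs.1 i) (hm i) (mv_len hs' i) ⟨k, hk⟩ hi (nib_lt O i.val) ?_
      rw [nib_bit _ _ (cdg_lt _)]
      exact h i
    fin_cases i
    · have h3 : (cu1 (cv s.2) O 0).testBit k = true := h1
      rw [h3]; simp
    · have h3 : (cu1 (cv s.2) O 1).testBit k = true := h1
      rw [h3]; simp
    · have h3 : (cu1 (cv s.2) O 2).testBit k = true := h1
      rw [h3]; simp
    · have h3 : (cu1 (cv s.2) O 3).testBit k = true := h1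
      rw [h3]; simp
    · have h3 : (cu1 (cv s.2) O 4).testBit k = true := h1
      rw [h3]; simp
    · have h3 : (cu1 (cv s.2) O 5).testBit k = true := h1
      rw [h3]; simp
  · rw [decide_eq_false hk]
    simp only [cu1_hi _ _ _ hk, Bool.or_false]

end

end Vale.Agent.P032.H728.G
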