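import Vale.Agent.P032.H728.GSound

/-!
# P032: soundness of the search, the recursion
-/

noncomputable section

namespace Vale.Agent.P032.H728.G

open Vale.Agent.P032.Six Vale.Agent.P032.H429 Vale.Agent.P032.H158 Vale.Agent.P032.H623
  Vale.Agent.P032.H838.GTr

/-- the conclusion for a step -/
def Gl (s : St) (m : Cn) (g' : Cl) (E : List Grp) : Prop :=
  (g' = s.1 ∧ m = fun _ => (false, false)) ∨ ∃ e ∈ E, e.q = cw g' ∧ ∃ x ∈ e.l, x.1 = cc m

theorem leafE_sound {s : St} {m : Cn} {g' : Cl} {E : List Grp}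
    (h : leafE (cw s.1) E (cw g') (cc m) = true) : Gl s m g' E := by
  unfold leafE at h
  cases h1 : ifr (Nat.beq (cw g') (cw s.1)) (Nat.beq (cc m) 0) false with
  | true =>
    left
    cases h2 : Nat.beq (cw g') (cw s.1) with
    | false => rw [h2, ifr_false] at h1; cases h1
    | true =>
      rw [h2, ifr_true] at h1
      exact ⟨cw_inj (Nat.eq_of_beq_eq_true h2), cc_eq_zero (Nat.eq_of_beq_eq_true h1)⟩
  | false =>
    rw [h1, ifr_false] at h
    obtain ⟨e, he, h2⟩ := anyr_mem h
    cases h3 : Nat.beq e.q (cw g') with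
    | false => rw [h3, ifr_false] at h2; cases h2
    | true =>
      rw [h3, ifr_true] at h2
      obtain ⟨x, hx, h4⟩ := anyr_mem h2
      exact Or.inr ⟨e, he, Nat.eq_of_beq_eq_true h3, x, hx, Nat.eq_of_beq_eq_true h4⟩

/-- the partial word of the moves -/
def pc (m : Cn) : ℕ → ℕ
  | 0 => 0
  | n + 1 => pc m n + cdg (m (Fin.ofNat 6 n)) * 4 ^ n

theorem pc_six (m : Cn) : pc m 6 = cc m := by
  show pc m 6 = cd 4 (l6.map fun i => cdg (m (Fin.ofNat 6 i)))
  simp only [pc, l6, List.map_cons, List.map_nil, cd]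
  ring

theorem beq_false_of {a b : ℕ} (h : a.testBit b = true) : Nat.beq a 0 = false := by
  rw [← Bool.not_eq_true]
  intro e
  rw [Nat.eq_of_beq_eq_true e, Nat.zero_testBit] at h
  cases h

theorem mem_l4 {c : ℕ} (h : c < 4) : c ∈ l4 := by
  have : ∀ c : Fin 4, c.val ∈ l4 := by decide
  exact this ⟨c, h⟩

theorem muS_succ (V : ℕ) (f : ℕ → Bool) (n O μ : ℕ) : muS V f (n + 1) O μ =
    allr l4 fun m =>
      ifr (bt O (Nat.add (Nat.mul 4 (Nat.sub 5 n)) m))
        (ifr (Nat.beq (cvu V (setN O (Nat.sub 5 n) (Nat.shiftLeft 1 m))) 63)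
          (muS V f n (setN O (Nat.sub 5 n) (Nat.shiftLeft 1 m))
            (Nat.add μ (Nat.mul m (Nat.pow 4 (Nat.sub 5 n))))) true) true := rfl

section

variable {s : St} {m : Cn} {g' : Cl} {E : List Grp}

theorem mu_sound (hs : OkSt s) (hm : wok s.2 m) (hs' : OkSt (g', mvW s.2 m))
    (hcov : Cov (mvW s.2 m)) {f : ℕ → Bool} : ∀ n ≤ 6, ∀ O, In O m →
    muS (cv s.2) f n O (pc m (6 - n)) = true → f (cc m) = true := by
  intro n
  induction n with
  | zero =>
    intro _ O _ h
    rw [← pc_six]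
    exact h
  | succ n ih =>
    intro hn O hO h
    rw [muS_succ] at h
    have h5 : 5 - n < 6 := by omega
    set x : Fin 6 := ⟨5 - n, h5⟩ with hx
    have h1 := allr_mem h (mem_l4 (cdg_lt (m x)))
    have e1 : bt O (Nat.add (Nat.mul 4 (Nat.sub 5 n)) (cdg (m x))) = true := by
      rw [bt_eq]
      exact hO x
    rw [e1, ifr_true] at h1
    have hb : (Nat.shiftLeft 1 (cdg (m x))).testBit (cdg (m x)) = true := by
      rw [shl_eq, Nat.one_shiftLeft, Nat.testBit_two_pow, decide_eq_true rfl]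
    have hO' : In (setN O (Nat.sub 5 n) (Nat.shiftLeft 1 (cdg (m x)))) m :=
      in_setN (x := x) hO hb
    rw [cvu_full hs hm hs' hcov hO', show Nat.beq 63 63 = true from rfl, ifr_true] at h1
    refine ih (by omega) _ hO' ?_
    have e2 : 6 - n = (5 - n) + 1 := by omega
    have e3 : 6 - (n + 1) = 5 - n := by omega
    have e4 : Fin.ofNat 6 (5 - n) = x := Fin.ext (Nat.mod_eq_of_lt h5)
    rw [e2]
    show muS (cv s.2) f n _ (pc m (5 - n) + cdg (m (Fin.ofNat 6 (5 - n))) * 4 ^ (5 - n)) = true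
    rw [e4]
    rw [e3] at h1
    exact h1

theorem slot_sound (hs : OkSt s) (hm : wok s.2 m) (hs' : OkSt (g', mvW s.2 m)) {O pm : ℕ}
    (hO : In O m) (j : Fin 6) (hx : pm.testBit (g' j).1.val = false)
    (hy : pm.testBit (g' j).2.val = false) {k : ℕ → ℕ → ℕ → Bool}
    (h : slot (cv s.2) O pm j.val k = true) : ∃ O', In O' m ∧
      k O' (mk (g' j)) (Nat.add (g' j).1.val (Nat.mul 8 (g' j).2.val)) = true := by
  obtain ⟨hne, hin, hout, -⟩ := hs'.2 j
  unfold slot at h
  have b1 : (Nat.land (nib O (g' j).1.val) (frN frT (cv s.2) j.val (g' j).1.val)).testBit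
      (cdg (m (g' j).1)) = true := by
    rw [land_and, Nat.testBit_and, nib_bit _ _ (cdg_lt _), hO, frN_bit _ _ _ _ (cdg_lt _), cx_dg,
      dg_cv hs.1, frT_ok (hs.1 _) (hm _) (mv_len hs' _) j hin]
    rfl
  have b2 : (Nat.land (nib O (g' j).2.val) (frN bkT (cv s.2) j.val (g' j).2.val)).testBit
      (cdg (m (g' j).2)) = true := by
    rw [land_and, Nat.testBit_and, nib_bit _ _ (cdg_lt _), hO, frN_bit _ _ _ _ (cdg_lt _), cx_dg,
      dg_cv hs.1, bkT_ok (hs.1 _) (hm _) (mv_len hs' _) j hout]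
    rfl
  have h1 := allr_mem h (mem_l6 (g' j).1)
  rw [beq_false_of b1, ifr_false, bt_eq, hx, ifr_false] at h1
  have h2 := allr_mem h1 (mem_l6 (g' j).2)
  have e1 : Nat.beq (g' j).1.val (g' j).2.val = false := by
    rw [← Bool.not_eq_true]
    exact fun e => hne (Fin.ext (Nat.eq_of_beq_eq_true e))
  rw [beq_false_of b2, ifr_false, bt_eq, hy, ifr_false, e1, ifr_false] at h2
  exact ⟨_, in_setN (in_setN hO b1) b2, h2⟩

theorem colS_succ (g V : ℕ) (E : List Grp) (h0 n O pm : ℕ) (a b : Bool) (q : ℕ) :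
    colS g V E h0 (n + 1) O pm a b q = ifr (Nat.beq (cvu V O) 63)
      (slot V O pm (Nat.sub 5 n) fun O' H d =>
        ifr (mtB (gm g (Nat.sub 4 n)) H)
          (ifr (mtB pm (gm g (Nat.sub 5 n))) true
            (colS g V E h0 n O' H a false
              (Nat.add q (Nat.mul d (Nat.pow 64 (Nat.sub 5 n))))))
          (colS g V E h0 n O' H false (ifr (mtB pm (gm g (Nat.sub 5 n))) b false)
            (Nat.add q (Nat.mul d (Nat.pow 64 (Nat.sub 5 n)))))) true := rfl

theorem cdw_cw (g : Cl) : cdw (ls g) 12 = cw g := by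
  show cdw (ls g) 12 = cd 8 (l12.map (ls g))
  simp only [cdw, l12, List.map_cons, List.map_nil, cd]
  ring

theorem cdw_two (g : Cl) (j : Fin 6) : cdw (ls g) (2 * (j.val + 1)) =
    Nat.add (cdw (ls g) (2 * j.val))
      (Nat.mul (Nat.add (g j).1.val (Nat.mul 8 (g j).2.val)) (Nat.pow 64 j.val)) := by
  show cdw (ls g) (2 * j.val) + ls g (2 * j.val) * 8 ^ (2 * j.val) +
    ls g (2 * j.val + 1) * 8 ^ (2 * j.val + 1) =
      cdw (ls g) (2 * j.val) + ((g j).1.val + 8 * (g j).2.val) * 64 ^ j.val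
  rw [ls_even, ls_odd, pow_succ, pow_mul, show (8 : ℕ) ^ 2 = 64 by norm_num]
  ring

theorem colS_sound (hs : OkSt s) (hm : wok s.2 m) (hs' : OkSt (g', mvW s.2 m))
    (hcov : Cov (mvW s.2 m)) (hN : NsC s.1 g') : ∀ n ≤ 5, ∀ (O : ℕ) (a b : Bool), In O m →
    (a = true → ∀ t : Fin 6, t.val + 1 ≤ 5 - n → H623.mt (s.1 t) (g' (t + 1))) →
    (b = true → ∀ t : Fin 6, t.val + 1 ≤ 5 - n → H623.mt (g' t) (s.1 (t + 1))) →
    colS (cw s.1) (cv s.2) E (mk (g' 0)) n O (mk (g' (Fin.ofNat 6 (5 - n)))) a b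
      (cdw (ls g') (2 * (6 - n))) = true → Gl s m g' E := by
  obtain ⟨hN1, hN2, hN3⟩ := hN
  intro n
  induction n with
  | zero =>
    intro _ O a b hO ha hb h
    have h' : colE (cw s.1) (cv s.2) E (mk (g' 0)) O (mk (g' 5)) a b (cdw (ls g') 12) = true := h
    rw [cdw_cw] at h'
    unfold colE at h'
    have d5 : ¬ H623.mt (g' 5) (g' 0) := by
      obtain ⟨-, -, -, a4, a5, a6, a7⟩ := hs'.2 5
      rintro (e | e | e | e)
      exacts [a4 e, a5 e, a6 e, a7 e]
    rw [mtB_mk' d5, ifr_false, show gm (cw s.1) 5 = mk (s.1 5) from gm_eq s.1 5,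
      show gm (cw s.1) 0 = mk (s.1 0) from gm_eq s.1 0] at h'
    have c1 : ifr (mtB (mk (s.1 5)) (mk (g' 0))) (ifr a true (mtB (mk (g' 5)) (mk (s.1 0))))
        false = false := by
      cases hA : mtB (mk (s.1 5)) (mk (g' 0)) with
      | false => rfl
      | true =>
        rw [ifr_true]
        have hA' := (mtB_mk _ _).1 hA
        cases hav : a with
        | true =>
          exfalso
          refine hN2 fun t => ?_
          rcases Nat.lt_or_ge t.val 5 with h5 | h5
          · exact ha hav t (by omega)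
          · have e : t = 5 := Fin.ext (by show t.val = 5; have := t.isLt; omega)
            rw [e]
            exact hA'
        | false =>
          rw [ifr_false]
          refine mtB_mk' fun hB => ?_
          exact hN1 5 ⟨hA', hB⟩
    have c2 : ifr (mtB (mk (g' 5)) (mk (s.1 0))) b false = false := by
      cases hB : mtB (mk (g' 5)) (mk (s.1 0)) with
      | false => rfl
      | true =>
        rw [ifr_true]
        have hB' := (mtB_mk _ _).1 hB
        cases hbv : b with
        | false => rfl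
        | true =>
          exfalso
          refine hN3 fun t => ?_
          rcases Nat.lt_or_ge t.val 5 with h5 | h5
          · exact hb hbv t (by omega)
          · have e : t = 5 := Fin.ext (by show t.val = 5; have := t.isLt; omega)
            rw [e]
            exact hB'
    rw [c1, ifr_false, c2, ifr_false] at h'
    exact leafE_sound (mu_sound hs hm hs' hcov (f := leafE (cw s.1) E (cw g')) 6 le_rfl O hO h')
  | succ n ih =>
    intro hn O a b hO ha hb h
    rw [colS_succ, cvu_full hs hm hs' hcov hO, show Nat.beq 63 63 = true from rfl,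
      ifr_true] at h
    have ht4 : 4 - n < 6 := by omega
    have hj5 : 5 - n < 6 := by omega
    set t : Fin 6 := ⟨4 - n, ht4⟩ with ht
    set j : Fin 6 := ⟨5 - n, hj5⟩ with hj
    have hjt : t + 1 = j := Fin.ext (by
      show (4 - n + 1) % 6 = 5 - n
      omega)
    have e1 : Fin.ofNat 6 (5 - (n + 1)) = t := Fin.ext (by
      show (5 - (n + 1)) % 6 = 4 - n
      omega)
    have e2 : Fin.ofNat 6 (5 - n) = j := Fin.ext (Nat.mod_eq_of_lt hj5)
    rw [e1] at h
    obtain ⟨-, -, -, a4, a5, a6, a7⟩ := hs'.2 t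
    rw [hjt] at a4 a5 a6 a7
    have hx : (mk (g' t)).testBit (g' j).1.val = false := by
      rw [← Bool.not_eq_true]
      intro e
      rcases (mk_bit _ _).1 e with e | e
      · exact a4 e.symm
      · exact a6 e.symm
    have hy : (mk (g' t)).testBit (g' j).2.val = false := by
      rw [← Bool.not_eq_true]
      intro e
      rcases (mk_bit _ _).1 e with e | e
      · exact a5 e.symm
      · exact a7 e.symm
    obtain ⟨O', hO', h1⟩ := slot_sound hs hm hs' hO j hx hy h
    have g4 : gm (cw s.1) (Nat.sub 4 n) = mk (s.1 t) := gm_eq s.1 t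
    have g5 : gm (cw s.1) (Nat.sub 5 n) = mk (s.1 j) := gm_eq s.1 j
    have hq : Nat.add (cdw (ls g') (2 * (6 - (n + 1))))
        (Nat.mul (Nat.add (g' j).1.val (Nat.mul 8 (g' j).2.val)) (Nat.pow 64 (Nat.sub 5 n))) =
        cdw (ls g') (2 * (6 - n)) := by
      have e3 : 6 - (n + 1) = j.val := by show 6 - (n + 1) = 5 - n; omega
      have e4 : 6 - n = j.val + 1 := by show 6 - n = 5 - n + 1; omega
      rw [e3, e4, cdw_two]
      rfl
    rw [g4, g5, hq] at h1
    rw [e2] at ih
    cases hA : mtB (mk (s.1 t)) (mk (g' j)) with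
    | true =>
      have hA' := (mtB_mk _ _).1 hA
      rw [← hjt] at hA'
      have hB : mtB (mk (g' t)) (mk (s.1 j)) = false := by
        refine mtB_mk' fun hB => ?_
        rw [← hjt] at hB
        exact hN1 t ⟨hA', hB⟩
      rw [hA, ifr_true, hB, ifr_false] at h1
      refine ih (by omega) O' a false hO' (fun hav u hu => ?_) (fun hc => by cases hc) h1
      rcases Nat.lt_or_ge (u.val + 1) (5 - n) with h5 | h5
      · exact ha hav u (by omega)
      · have e : u = t := Fin.ext (by show u.val = 4 - n; omega)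
        rw [e]
        exact hA'
    | false =>
      rw [hA, ifr_false] at h1
      refine ih (by omega) O' false _ hO' (fun hc => by cases hc) (fun hbv u hu => ?_) h1
      cases hB : mtB (mk (g' t)) (mk (s.1 j)) with
      | false => rw [hB, ifr_false] at hbv; cases hbv
      | true =>
        rw [hB, ifr_true] at hbv
        rcases Nat.lt_or_ge (u.val + 1) (5 - n) with h5 | h5
        · exact hb hbv u (by omega)
        · have e : u = t := Fin.ext (by show u.val = 4 - n; omega)
          rw [e]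
          have hB' := (mtB_mk _ _).1 hB
          rw [← hjt] at hB'
          exact hB'

/-- **Soundness of the search.** -/
theorem srch_sound (hs : OkSt s) (hm : wok s.2 m) (hs' : OkSt (g', mvW s.2 m))
    (hcov : Cov (mvW s.2 m)) (hN : NsC s.1 g') (h : srch (cw s.1) (cv s.2) E = true) :
    Gl s m g' E := by
  unfold srch at h
  obtain ⟨O', hO', h1⟩ := slot_sound hs hm hs' (in_ov hs hm hs') 0 (Nat.zero_testBit _)
    (Nat.zero_testBit _) h
  have e1 : Nat.add (g' 0).1.val (Nat.mul 8 (g' 0).2.val) = cdw (ls g') (2 * (6 - 5)) := by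
    have := cdw_two g' 0
    show (g' 0).1.val + 8 * (g' 0).2.val = cdw (ls g') (2 * (0 + 1))
    rw [show (2 * (0 + 1) : ℕ) = 2 * ((0 : Fin 6).val + 1) from rfl, this]
    show _ = 0 + ((g' 0).1.val + 8 * (g' 0).2.val) * 64 ^ 0
    ring
  rw [e1] at h1
  refine colS_sound hs hm hs' hcov hN 5 le_rfl O' true true hO' (fun _ t ht => ?_)
    (fun _ t ht => ?_) h1 <;> omega

end

/-- **Edge completeness by the search.** -/
theorem edgeC_of {C : ℕ → ℕ × ℕ} {E : ℕ → List Grp} {i : ℕ}
    (h : srch (C i).1 (C i).2 (E i) = true) : EdgeC (fun g g' => ¬ NsC g g') C E i := by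
  intro s m g' hg hV hs hm hs' hcov hK
  rw [not_not] at hK
  rw [← hg, ← hV] at h
  exact srch_sound hs hm hs' hcov hK h

end Vale.Agent.P032.H728.G
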