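import Vale.Agent.P032.H728.GFast
import Vale.Agent.P032.H623.Cols

/-!
# P032: static completeness by a kernel search

`stS w f` : the search over all windows which are possible with the column of the word `w`.
`statC_of` : the check of the 57 columns gives `StatC`.
-/

noncomputable section

namespace Vale.Agent.P032.H728.G

open Vale.Agent.P032.Six Vale.Agent.P032.H429 Vale.Agent.P032.H158
  Vale.Agent.P032.H838.GTr

/-- the rays inside the window with the code `c` -/
def tbr (c : ℕ) : ℕ := Nat.land (Nat.shiftRight tT (Nat.mul 18 c)) 63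

/-- the windows allowed for the colour `x` -/
def am (w x : ℕ) : ℕ := H728.msk w x l12

/-- the rays inside some allowed window -/
def fcv (m : ℕ) (l : List ℕ) : ℕ :=
  List.rec 0 (fun c _ ih => Bool.rec ih (Nat.lor ih (tbr c)) (bt m c)) l

/-- the rays inside some allowed window of the last `n` colours -/
def fur (w n : ℕ) : ℕ :=
  Nat.rec 0 (fun n ih => Nat.lor ih (fcv (am w (Nat.sub 5 n)) l24)) n

/-- the search over the windows: `n` colours are left -/
def stS (w : ℕ) (f : ℕ → Bool) (n : ℕ) : ℕ → ℕ → Bool :=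
  Nat.rec (fun acc V => ifr (Nat.beq (Nat.land acc 63) 63) (f V) true)
    (fun n ih acc V => ifr (Nat.beq (Nat.land (Nat.lor acc (fur w (Nat.succ n))) 63) 63)
      (allr l24 fun c => ifr (bt (am w (Nat.sub 5 n)) c)
        (ih (Nat.lor acc (tbr c)) (Nat.add V (Nat.mul c (Nat.pow 32 (Nat.sub 5 n))))) true)
      true) n

theorem stS_succ (w : ℕ) (f : ℕ → Bool) (n acc V : ℕ) : stS w f (n + 1) acc V =
    ifr (Nat.beq (Nat.land (Nat.lor acc (fur w (n + 1))) 63) 63)
      (allr l24 fun c => ifr (bt (am w (Nat.sub 5 n)) c)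
        (stS w f n (Nat.lor acc (tbr c)) (Nat.add V (Nat.mul c (Nat.pow 32 (Nat.sub 5 n)))))
        true) true := rfl

theorem tbr_bit (c : ℕ) {k : ℕ} (hk : k < 6) :
    (tbr c).testBit k = tT.testBit (18 * c + k) := by
  have e : (63 : ℕ) = 2 ^ 6 - 1 := by norm_num
  show ((tT >>> (18 * c)) &&& 63).testBit k = _
  rw [Nat.testBit_and, Nat.testBit_shiftRight, e, Nat.testBit_two_pow_sub_one,
    decide_eq_true hk, Bool.and_true]

theorem fcv_bit {m c k : ℕ} (hm : m.testBit c = true) (hk : (tbr c).testBit k = true) :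
    ∀ l : List ℕ, c ∈ l → (fcv m l).testBit k = true := by
  intro l
  induction l with
  | nil => exact fun h => absurd h List.not_mem_nil
  | cons d l ih =>
    intro h
    show (Bool.rec (fcv m l) (Nat.lor (fcv m l) (tbr d)) (bt m d) : ℕ).testBit k = true
    rcases List.mem_cons.1 h with h | h
    · subst h
      rw [bt_eq, hm]
      show (fcv m l ||| tbr c).testBit k = true
      rw [Nat.testBit_or, hk, Bool.or_true]
    · have h1 := ih h
      cases bt m d with
      | true =>
        show (fcv m l ||| tbr d).testBit k = true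
        rw [Nat.testBit_or, h1, Bool.true_or]
      | false => exact h1

theorem full63 {a : ℕ} (h : ∀ k < 6, a.testBit k = true) : Nat.beq (Nat.land a 63) 63 = true := by
  have e : a &&& 63 = 63 := by
    refine Nat.eq_of_testBit_eq fun k => ?_
    have e : (63 : ℕ) = 2 ^ 6 - 1 := by norm_num
    rw [Nat.testBit_and, e, Nat.testBit_two_pow_sub_one]
    by_cases hk : k < 6
    · rw [h k hk, decide_eq_true hk]; rfl
    · rw [decide_eq_false hk, Bool.and_false]
  show Nat.beq (a &&& 63) 63 = true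
  rw [e]
  rfl

/-- the partial word of the windows -/
def pv (W : Wn) : ℕ → ℕ
  | 0 => 0
  | n + 1 => pv W n + H728.wc (W (Fin.ofNat 6 n)) * 32 ^ n

theorem pv_six (W : Wn) : pv W 6 = cv W := by
  show pv W 6 = cd 32 (l6.map fun i => H728.wc (W (Fin.ofNat 6 i)))
  simp only [pv, l6, List.map_cons, List.map_nil, cd]
  ring

section

variable {s : St}

theorem am_bit (h : OkSt s) (x : Fin 6) :
    (am (cw s.1) x.val).testBit (H728.wc (s.2 x)) = true := by
  rw [← cdw_cw]
  exact msk_win h x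

theorem ray_bit (h : OkSt s) (hc : Cov s.2) {k : ℕ} (hk : k < 6) :
    ∃ i : Fin 6, (tbr (H728.wc (s.2 i))).testBit k = true := by
  obtain ⟨i, hi⟩ := hc (k : ZMod 6)
  refine ⟨i, ?_⟩
  rw [tbr_bit _ hk]
  exact tT_cov (h.1 i) ⟨k, hk⟩ hi

theorem fur_bit (h : OkSt s) {i : Fin 6} {k : ℕ}
    (hk : (tbr (H728.wc (s.2 i))).testBit k = true) : ∀ n ≤ 6, 6 - n ≤ i.val →
    (fur (cw s.1) n).testBit k = true := by
  intro n
  induction n with
  | zero => intro _ h1; have := i.isLt; omega
  | succ n ih =>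
    intro hn h1
    show (fur (cw s.1) n ||| fcv (am (cw s.1) (5 - n)) l24).testBit k = true
    rw [Nat.testBit_or]
    rcases Nat.lt_or_ge i.val (6 - n) with h2 | h2
    · have e : 5 - n = i.val := by omega
      rw [e, fcv_bit (am_bit h i) hk l24 (mem_l24 (wc_lt (h.1 i))), Bool.or_true]
    · rw [ih (by omega) h2, Bool.true_or]

theorem stS_sound (h : OkSt s) (hc : Cov s.2) {f : ℕ → Bool} : ∀ n ≤ 6, ∀ acc,
    (∀ i : Fin 6, i.val < 6 - n → ∀ k < 6, (tbr (H728.wc (s.2 i))).testBit k = true →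
      acc.testBit k = true) →
    stS (cw s.1) f n acc (pv s.2 (6 - n)) = true → f (cv s.2) = true := by
  intro n
  induction n with
  | zero =>
    intro _ acc ha h1
    have h2 : ifr (Nat.beq (Nat.land acc 63) 63) (f (pv s.2 6)) true = true := h1
    rw [full63 fun k hk => ?_, ifr_true, pv_six] at h2
    · exact h2
    · obtain ⟨i, hi⟩ := ray_bit h hc hk
      exact ha i (by have := i.isLt; omega) k hk hi
  | succ n ih =>
    intro hn acc ha h1
    rw [stS_succ, full63 fun k hk => ?_, ifr_true] at h1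
    · have h5 : 5 - n < 6 := by omega
      set x : Fin 6 := ⟨5 - n, h5⟩ with hx
      have h2 := allr_mem h1 (mem_l24 (wc_lt (h.1 x)))
      have e1 : bt (am (cw s.1) (Nat.sub 5 n)) (H728.wc (s.2 x)) = true := by
        rw [bt_eq]
        exact am_bit h x
      rw [e1, ifr_true] at h2
      refine ih (by omega) (Nat.lor acc (tbr (H728.wc (s.2 x)))) (fun i hi k hk hb => ?_) ?_
      · show (acc ||| tbr (H728.wc (s.2 x))).testBit k = true
        rw [Nat.testBit_or]
        rcases Nat.lt_or_ge i.val (6 - (n + 1)) with h6 | h6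
        · rw [ha i h6 k hk hb, Bool.true_or]
        · have e : i = x := Fin.ext (by show i.val = 5 - n; omega)
          rw [e] at hb
          rw [hb, Bool.or_true]
      · have e2 : 6 - n = (5 - n) + 1 := by omega
        have e3 : 6 - (n + 1) = 5 - n := by omega
        have e4 : Fin.ofNat 6 (5 - n) = x := Fin.ext (Nat.mod_eq_of_lt h5)
        rw [e2]
        show stS (cw s.1) f n _ (pv s.2 (5 - n) +
          H728.wc (s.2 (Fin.ofNat 6 (5 - n))) * 32 ^ (5 - n)) = true
        rw [e4]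
        rw [e3] at h2
        exact h2
    · obtain ⟨i, hi⟩ := ray_bit h hc hk
      show (acc ||| fur (cw s.1) (n + 1)).testBit k = true
      rw [Nat.testBit_or]
      rcases Nat.lt_or_ge i.val (6 - (n + 1)) with h6 | h6
      · rw [ha i h6 k hk hi, Bool.true_or]
      · rw [fur_bit h hi (n + 1) hn h6, Bool.or_true]

end

/-- windows of a column, the index of the canonical state and the transport to it -/
structure SE where
  V : ℕ
  i : ℕ
  π : ℕ
  π' : ℕ
  k : ℕ

def chkSE (C : ℕ → ℕ × ℕ) (n w : ℕ) (e : SE) : Bool :=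
  ifr (ifr (ifr (ifr (isPr e.π e.π') (Nat.ble e.k 5) false) (Nat.ble (Nat.succ e.i) n) false)
    (Nat.beq (trWr e.π e.k w) (C e.i).1) false) (Nat.beq (trVr e.π' e.k e.V) (C e.i).2) false

/-- the check of a column -/
def statI (C : ℕ → ℕ × ℕ) (n w : ℕ) (t : List SE) : Bool :=
  stS w (fun V => anyr t fun e => ifr (Nat.beq e.V V) (chkSE C n w e) false) 6 0 0

theorem statI_sound {C : ℕ → ℕ × ℕ} {n : ℕ} {t : List SE} {s : St} (h : OkSt s) (hc : Cov s.2)
    (hs : statI C n (cw s.1) t = true) : ∃ i < n, ∃ σ : Equiv.Perm (Fin 6), ∃ k < 6,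
      cw (T σ k s).1 = (C i).1 ∧ cv (T σ k s).2 = (C i).2 := by
  have h1 := stS_sound h hc 6 le_rfl 0 (fun i hi => by omega) hs
  obtain ⟨e, -, h2⟩ := anyr_mem h1
  cases h3 : Nat.beq e.V (cv s.2) with
  | false => rw [h3, ifr_false] at h2; cases h2
  | true =>
    rw [h3, ifr_true] at h2
    unfold chkSE at h2
    simp only [ifr_and, Bool.and_eq_true_iff, isPr_eq, trWr_eq, trVr_eq] at h2
    obtain ⟨⟨⟨⟨c1, c2⟩, c3⟩, c4⟩, c5⟩ := h2
    obtain ⟨σ, s1, s2⟩ := perm_of_isP c1
    have hk : e.k < 6 := Nat.lt_succ_of_le (Nat.le_of_ble_eq_true c2)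
    refine ⟨e.i, Nat.lt_of_succ_le (Nat.le_of_ble_eq_true c3), σ, e.k, hk, ?_, ?_⟩
    · rw [cw_T s1]
      exact Nat.eq_of_beq_eq_true c4
    · rw [cv_T s2 hk s h.1, ← Nat.eq_of_beq_eq_true h3]
      exact Nat.eq_of_beq_eq_true c5

/-- the word (base 8) of a decimal column -/
def w8 (c : ℕ) : ℕ := cd 8 (l12.map (H623.dg c))

theorem okSt_T {σ : Equiv.Perm (Fin 6)} {k : ℕ} {s : St} (h : OkSt s) : OkSt (T σ k s) := by
  refine okSt_prm ?_
  induction k with
  | zero => exact h
  | succ k ih => rw [Function.iterate_succ_apply']; exact okSt_shift ih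

theorem cov_T {σ : Equiv.Perm (Fin 6)} {k : ℕ} {s : St} (h : Cov s.2) : Cov (T σ k s).2 := by
  refine cov_prm ?_
  induction k with
  | zero => exact h
  | succ k ih => rw [Function.iterate_succ_apply']; exact cov_shift ih

/-- **Static completeness** from the check of the 57 columns. -/
theorem statC_of {C : ℕ → ℕ × ℕ} {n : ℕ} (S : List (ℕ × ℕ × List SE))
    (h1 : ∀ c ∈ H623.L57, ∃ e ∈ S, e.1 = c) (h2 : ∀ e ∈ S, e.2.1 = w8 e.1)
    (h3 : ∀ e ∈ S, statI C n e.2.1 e.2.2 = true) : StatC C n := by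
  intro s hs hc
  obtain ⟨σ, r, hr, c, hcL, hI⟩ := H623.cols57 hs hc
  obtain ⟨e, he, rfl⟩ := h1 c hcL
  have ew : cw (T σ r s).1 = e.2.1 := by
    rw [h2 e he]
    show cd 8 (l12.map (ls (T σ r s).1)) = cd 8 (l12.map (H623.dg e.1))
    congr 1
    exact List.map_congr_left fun p hp => hI p (mem_l12 hp)
  have h4 := h3 e he
  rw [← ew] at h4
  obtain ⟨i, hi, τ, k, hk, g1, g2⟩ := statI_sound (okSt_T hs) (cov_T hc) h4
  rw [T_T, ← T_mod] at g1 g2
  exact ⟨i, hi, τ * σ, (k + r) % 6, Nat.mod_lt _ (by norm_num), g1, g2⟩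

end Vale.Agent.P032.H728.G
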