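import Vale.Agent.P032.H728.Two

/-!
# P032: an event after which the column never leaves a set does not occur

`leave_dead` : let `X` be a set of pairs of columns and `S` a set of columns which contains the
column after the event, but not the column before the event turned by 60 degrees.  If after an event
in `X` at the time `u` the column cannot leave `S` at a time `u' < u + 1`, then the event does not
occur.
-/

open Set Filter Topology Metric

noncomputable section

namespace Vale.Agent.P032.H728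

open Vale.Agent.P032.Six Vale.Agent.P032.Sweep Vale.Agent.P032.S5.H767 Vale.Agent.P032.S5.H122
  Vale.Agent.P032.H429 Vale.Agent.P032.H158

section

variable {U : Fin 6 → Set ℂ} {T : ℂ → Set (Fin 6)} {z : ℂ} {L R : Fin 6 → ℝ}

/-- **the first exit**: a generic time `a` with its column in `S` and a time `c > a`: either the
column is in `S` at the generic times of `(a, c)` or there is a first exit -/
theorem first_exit (h : Irr U T) {S : Set Cl} {a c : ℝ} (ha : a ∈ WinData.G T z L R) (hac : a < c)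
    (haS : (WinData.st T z L R a).1 ∈ S) :
    (∀ v ∈ WinData.G T z L R, a < v → v < c → (WinData.st T z L R v).1 ∈ S) ∨
    ∃ b, a < b ∧ b < c ∧ ∃ t ∈ LS T z L R b, ∃ t' ∈ RS T z L R b, t.1 ∈ S ∧ t'.1 ∉ S := by
  set B : Set ℝ := {x | x ∈ Icc a c ∧ ∀ v ∈ WinData.G T z L R, a < v → v < x →
    (WinData.st T z L R v).1 ∈ S} with hB
  have hd := WinData.G_dense h z L R
  have haB : a ∈ B := ⟨⟨le_rfl, hac.le⟩, fun v _ h1 h2 => absurd (h1.trans h2) (lt_irrefl _)⟩
  have hbdd : BddAbove B := ⟨c, fun x hx => hx.1.2⟩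
  set b := sSup B with hb
  have hab : a ≤ b := le_csSup hbdd haB
  have hbc : b ≤ c := csSup_le ⟨a, haB⟩ fun x hx => hx.1.2
  have hlow : ∀ v ∈ WinData.G T z L R, a < v → v < b → (WinData.st T z L R v).1 ∈ S := by
    intro v hv h1 h2
    obtain ⟨x, hx, hvx⟩ := exists_lt_of_lt_csSup ⟨a, haB⟩ h2
    exact hx.2 v hv h1 hvx
  have hab' : a < b := by
    obtain ⟨δ, hδ, hball⟩ := Metric.eventually_nhds_iff.1 (WinData.st_const ha)
    have h1 : min c (a + δ) ∈ B := by
      refine ⟨⟨le_min hac.le (by linarith), min_le_left _ _⟩, fun v hv h2 h3 => ?_⟩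
      rw [hball (y := v)]
      · exact haS
      · rw [Real.dist_eq, abs_of_pos (by linarith)]
        linarith [lt_of_lt_of_le h3 (min_le_right c (a + δ))]
    exact lt_of_lt_of_le (lt_min hac (by linarith)) (le_csSup hbdd h1)
  rcases hbc.eq_or_lt with he | hlt
  · left
    intro v hv h1 h2
    exact hlow v hv h1 (by rw [he]; exact h2)
  · right
    have hleft : ∃ᶠ v in 𝓝[<] b, v ∈ WinData.G T z L R ∧ (WinData.st T z L R v).1 ∈ S := by
      rw [frequently_iff]
      intro W hW
      obtain ⟨d, hd', hsub⟩ := mem_nhdsLT_iff_exists_Ioo_subset.1 hW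
      obtain ⟨x, hx1, hx2⟩ := hd.exists_mem_open isOpen_Ioo
        (nonempty_Ioo.2 (show max a d < b from max_lt hab' hd'))
      have hxa : a < x := lt_of_le_of_lt (le_max_left _ _) hx2.1
      have hxd : d < x := lt_of_le_of_lt (le_max_right _ _) hx2.1
      exact ⟨x, hsub ⟨hxd, hx2.2⟩, hx1, hlow x hx1 hxa hx2.2⟩
    have hright : ∃ᶠ v in 𝓝[>] b, v ∈ WinData.G T z L R ∧ (WinData.st T z L R v).1 ∉ S := by
      by_contra hcon
      have hcon' : ∀ᶠ v in 𝓝[>] b, ¬ (v ∈ WinData.G T z L R ∧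
        (WinData.st T z L R v).1 ∉ S) := not_frequently.1 hcon
      obtain ⟨d, hd', hsub⟩ := mem_nhdsGT_iff_exists_Ioo_subset.1 hcon'
      have hd' : b < d := hd'
      have h1 : min c d ∈ B := by
        refine ⟨⟨le_min hac.le (by linarith), min_le_left _ _⟩, fun v hv h2 h3 => ?_⟩
        rcases lt_trichotomy v b with h4 | h4 | h4
        · exact hlow v hv h2 h4
        · subst h4
          have h5 := hleft.and_eventually (mem_nhdsWithin_of_mem_nhds (WinData.st_const hv))
          obtain ⟨x, ⟨-, h6⟩, h7⟩ := h5.exists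
          rw [← h7]
          exact h6
        · have h5 := hsub ⟨h4, lt_of_lt_of_le h3 (min_le_right _ _)⟩
          by_contra h6
          exact h5 ⟨hv, h6⟩
      have h2 := le_csSup hbdd h1
      have h3 : b < min c d := lt_min hlt hd'
      linarith
    obtain ⟨v, ⟨h1, h2⟩, h3⟩ := (hleft.and_eventually (WinData.ev_LS T z L R b)).exists
    obtain ⟨v', ⟨h1', h2'⟩, h3'⟩ := (hright.and_eventually (WinData.ev_RS T z L R b)).exists
    exact ⟨b, hab', hlt, _, h3 h1, _, h3' h1', h2, h2'⟩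

/-- **the last entry**: a generic time `a` with its column in `S` and a time `c < a`: either the
column is in `S` at the generic times of `(c, a)` or there is a last entry -/
theorem last_entry (h : Irr U T) {S : Set Cl} {a c : ℝ} (ha : a ∈ WinData.G T z L R) (hca : c < a)
    (haS : (WinData.st T z L R a).1 ∈ S) :
    (∀ v ∈ WinData.G T z L R, c < v → v < a → (WinData.st T z L R v).1 ∈ S) ∨
    ∃ b, c < b ∧ b < a ∧ ∃ t ∈ LS T z L R b, ∃ t' ∈ RS T z L R b, t.1 ∉ S ∧ t'.1 ∈ S := by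
  set B : Set ℝ := {x | x ∈ Icc c a ∧ ∀ v ∈ WinData.G T z L R, x < v → v < a →
    (WinData.st T z L R v).1 ∈ S} with hB
  have hd := WinData.G_dense h z L R
  have haB : a ∈ B := ⟨⟨hca.le, le_rfl⟩, fun v _ h1 h2 => absurd (h1.trans h2) (lt_irrefl _)⟩
  have hbdd : BddBelow B := ⟨c, fun x hx => hx.1.1⟩
  set b := sInf B with hb
  have hab : b ≤ a := csInf_le hbdd haB
  have hbc : c ≤ b := le_csInf ⟨a, haB⟩ fun x hx => hx.1.1
  have hlow : ∀ v ∈ WinData.G T z L R, b < v → v < a → (WinData.st T z L R v).1 ∈ S := by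
    intro v hv h1 h2
    obtain ⟨x, hx, hvx⟩ := exists_lt_of_csInf_lt ⟨a, haB⟩ h1
    exact hx.2 v hv hvx h2
  have hab' : b < a := by
    obtain ⟨δ, hδ, hball⟩ := Metric.eventually_nhds_iff.1 (WinData.st_const ha)
    have h1 : max c (a - δ) ∈ B := by
      refine ⟨⟨le_max_left _ _, max_le hca.le (by linarith)⟩, fun v hv h2 h3 => ?_⟩
      rw [hball (y := v)]
      · exact haS
      · rw [Real.dist_eq, abs_of_neg (by linarith)]
        linarith [lt_of_le_of_lt (le_max_right c (a - δ)) h2]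
    exact lt_of_le_of_lt (csInf_le hbdd h1) (max_lt hca (by linarith))
  rcases hbc.eq_or_lt with he | hlt
  · left
    intro v hv h1 h2
    exact hlow v hv (by rw [← he]; exact h1) h2
  · right
    have hright : ∃ᶠ v in 𝓝[>] b, v ∈ WinData.G T z L R ∧ (WinData.st T z L R v).1 ∈ S := by
      rw [frequently_iff]
      intro W hW
      obtain ⟨d, hd', hsub⟩ := mem_nhdsGT_iff_exists_Ioo_subset.1 hW
      obtain ⟨x, hx1, hx2⟩ := hd.exists_mem_open isOpen_Ioo
        (nonempty_Ioo.2 (show b < min a d from lt_min hab' hd'))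
      have hxa : x < a := lt_of_lt_of_le hx2.2 (min_le_left _ _)
      have hxd : x < d := lt_of_lt_of_le hx2.2 (min_le_right _ _)
      exact ⟨x, hsub ⟨hx2.1, hxd⟩, hx1, hlow x hx1 hx2.1 hxa⟩
    have hleft : ∃ᶠ v in 𝓝[<] b, v ∈ WinData.G T z L R ∧ (WinData.st T z L R v).1 ∉ S := by
      by_contra hcon
      have hcon' : ∀ᶠ v in 𝓝[<] b, ¬ (v ∈ WinData.G T z L R ∧
        (WinData.st T z L R v).1 ∉ S) := not_frequently.1 hcon
      obtain ⟨d, hd', hsub⟩ := mem_nhdsLT_iff_exists_Ioo_subset.1 hcon'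
      have hd' : d < b := hd'
      have h1 : max c d ∈ B := by
        refine ⟨⟨le_max_left _ _, max_le hca.le (by linarith)⟩, fun v hv h2 h3 => ?_⟩
        rcases lt_trichotomy v b with h4 | h4 | h4
        · have h5 := hsub ⟨lt_of_le_of_lt (le_max_right _ _) h2, h4⟩
          by_contra h6
          exact h5 ⟨hv, h6⟩
        · subst h4
          have h5 := hright.and_eventually (mem_nhdsWithin_of_mem_nhds (WinData.st_const hv))
          obtain ⟨x, ⟨-, h6⟩, h7⟩ := h5.exists
          rw [← h7]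
          exact h6
        · exact hlow v hv h4 h3
      have h2 := csInf_le hbdd h1
      have h3 : max c d < b := max_lt hlt hd'
      linarith
    obtain ⟨v, ⟨h1, h2⟩, h3⟩ := (hleft.and_eventually (WinData.ev_LS T z L R b)).exists
    obtain ⟨v', ⟨h1', h2'⟩, h3'⟩ := (hright.and_eventually (WinData.ev_RS T z L R b)).exists
    exact ⟨b, hlt, hab', _, h3 h1, _, h3' h1', h2, h2'⟩

/-- **An event after which the column cannot leave a set `S` does not occur** (`S` contains the
column after the event, but not the turned column before it). -/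
theorem leave_dead (h : Irr U T) {X : Cl → Cl → Prop} {S : Set Cl}
    (hK : ∀ u u', u < u' → u' < u + 1 → ∀ s ∈ LS T z L R u, ∀ s' ∈ RS T z L R u,
      ∀ t ∈ LS T z L R u', ∀ t' ∈ RS T z L R u', X s.1 s'.1 → t.1 ∈ S → t'.1 ∉ S → False)
    (hA : ∀ s s' : St, X s.1 s'.1 → s'.1 ∈ S)
    (hB : ∀ s s' : St, X s.1 s'.1 → (H429.shift s).1 ∉ S) :
    ∀ u, ∀ s ∈ LS T z L R u, ∀ s' ∈ RS T z L R u, ¬ X s.1 s'.1 := by
  intro u s hs s' hs' hX
  have hs'' : ∃ᶠ v in 𝓝[>] u, v ∈ WinData.G T z L R ∧ WinData.st T z L R v = s' := hs'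
  have e1 : ∀ᶠ v in 𝓝[>] u, v < u + 1 :=
    mem_nhdsWithin_of_mem_nhds (Iio_mem_nhds (by linarith))
  obtain ⟨a, ⟨⟨haG, ha⟩, ha1⟩, hua⟩ :=
    ((hs''.and_eventually e1).and_eventually self_mem_nhdsWithin).exists
  have hua : u < a := hua
  have ha1 : a < u + 1 := ha1
  have haS : (WinData.st T z L R a).1 ∈ S := by rw [ha]; exact hA s s' hX
  rcases first_exit h haG ha1 haS with hc | ⟨b, hab, hb1, t, ht, t', ht', h1, h2⟩
  · have h3 : ∃ᶠ v in 𝓝[<] (u + 1), v ∈ WinData.G T z L R ∧
        WinData.st T z L R v = H429.shift s := LS_turn hs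
    have e2 : ∀ᶠ v in 𝓝[<] (u + 1), a < v := mem_nhdsWithin_of_mem_nhds (Ioi_mem_nhds ha1)
    obtain ⟨v, ⟨⟨hvG, hv⟩, hav⟩, hvu⟩ :=
      ((h3.and_eventually e2).and_eventually self_mem_nhdsWithin).exists
    have h4 := hc v hvG hav hvu
    rw [hv] at h4
    exact hB s s' hX h4
  · exact hK u b (hua.trans hab) hb1 s hs s' hs' t ht t' ht' hX h1 h2

/-- **An event before which the column cannot enter a set `S` does not occur** (`S` contains the
column before the event; the column after the event is not a turned column of `S`). -/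
theorem enter_dead (h : Irr U T) {X : Cl → Cl → Prop} {S : Set Cl}
    (hK : ∀ u' u, u' < u → u < u' + 1 → ∀ t ∈ LS T z L R u', ∀ t' ∈ RS T z L R u',
      ∀ s ∈ LS T z L R u, ∀ s' ∈ RS T z L R u, X s.1 s'.1 → t.1 ∉ S → t'.1 ∈ S → False)
    (hA : ∀ s s' : St, X s.1 s'.1 → s.1 ∈ S)
    (hB : ∀ s s' x : St, X s.1 s'.1 → x.1 ∈ S → (H429.shift x).1 ≠ s'.1) :
    ∀ u, ∀ s ∈ LS T z L R u, ∀ s' ∈ RS T z L R u, ¬ X s.1 s'.1 := by
  intro u s hs s' hs' hX
  have hs'' : ∃ᶠ v in 𝓝[<] u, v ∈ WinData.G T z L R ∧ WinData.st T z L R v = s := hs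
  have e1 : ∀ᶠ v in 𝓝[<] u, u - 1 < v :=
    mem_nhdsWithin_of_mem_nhds (Ioi_mem_nhds (by linarith))
  obtain ⟨a, ⟨⟨haG, ha⟩, ha1⟩, hua⟩ :=
    ((hs''.and_eventually e1).and_eventually self_mem_nhdsWithin).exists
  have hua : a < u := hua
  have ha1 : u - 1 < a := ha1
  have haS : (WinData.st T z L R a).1 ∈ S := by rw [ha]; exact hA s s' hX
  rcases last_entry h haG ha1 haS with hc | ⟨b, hb1, hba, t, ht, t', ht', h1, h2⟩
  · have h3 : ∃ᶠ v in 𝓝[>] u, v ∈ WinData.G T z L R ∧ WinData.st T z L R v = s' := hs'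
    have e2 : ∀ᶠ v in 𝓝[>] u, v < a + 1 :=
      mem_nhdsWithin_of_mem_nhds (Iio_mem_nhds (by linarith))
    obtain ⟨v, ⟨⟨hvG, hv⟩, hav⟩, hvu⟩ :=
      ((h3.and_eventually e2).and_eventually self_mem_nhdsWithin).exists
    have hvu : u < v := hvu
    obtain ⟨δ, hδ, hball⟩ := Metric.eventually_nhds_iff.1 (WinData.st_const hvG)
    have hne : (Ioo (u - 1) a ∩ Ioo (v - 1 - δ) (v - 1 + δ)).Nonempty :=
      ⟨v - 1, ⟨by linarith, by linarith⟩, by linarith, by linarith⟩
    obtain ⟨x, hxG, hx⟩ := (WinData.G_dense h z L R).exists_mem_open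
      (isOpen_Ioo.inter isOpen_Ioo) hne
    have h4 := hc x hxG hx.1.1 hx.1.2
    have h5 : WinData.st T z L R (x + 1) = WinData.st T z L R v := by
      refine hball ?_
      rw [Real.dist_eq, abs_lt]
      constructor <;> linarith [hx.2.1, hx.2.2]
    rw [WinData.st_turn, hv] at h5
    exact hB s s' _ hX h4 (congrArg Prod.fst h5)
  · exact hK b u (hba.trans hua) (by linarith) t ht t' ht' s hs s' hs' hX h1 h2

end

end Vale.Agent.P032.H728
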