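import Vale.Agent.P032.H728.Mix

/-!
# P032: names of the colours and turns

`prm σ s` : the state `s` with renamed colours.  `StepC` is invariant under the names and under the
turn if `E` is.  `exists_rg` : a sequence of colours can be renamed such that every new colour is
the first colour not used so far.
-/

open Set Filter Topology Metric

noncomputable section

namespace Vale.Agent.P032.H728

open Vale.Agent.P032.Six Vale.Agent.P032.H429 Vale.Agent.P032.H158

/-- the state with renamed colours -/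
def prm (σ : Equiv.Perm (Fin 6)) (s : St) : St :=
  (fun j => (σ (s.1 j).1, σ (s.1 j).2), fun i => s.2 (σ⁻¹ i))

@[simp] theorem prm_win (σ : Equiv.Perm (Fin 6)) (s : St) (i : Fin 6) :
    (prm σ s).2 (σ i) = s.2 i := by
  show s.2 (σ.symm (σ i)) = s.2 i
  rw [Equiv.symm_apply_apply]

theorem prm_one (s : St) : prm 1 s = s := rfl

theorem prm_mul (σ τ : Equiv.Perm (Fin 6)) (s : St) : prm (σ * τ) s = prm σ (prm τ s) := by
  refine Prod.ext rfl ?_
  funext i
  show s.2 ((σ * τ)⁻¹ i) = s.2 (τ⁻¹ (σ⁻¹ i))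
  rw [mul_inv_rev, Equiv.Perm.mul_apply]

theorem shift_prm (σ : Equiv.Perm (Fin 6)) (s : St) :
    H429.shift (prm σ s) = prm σ (H429.shift s) := rfl

theorem okSt_prm {σ : Equiv.Perm (Fin 6)} {s : St} (h : OkSt s) : OkSt (prm σ s) := by
  obtain ⟨h1, h2⟩ := h
  refine ⟨fun i => h1 _, fun j => ?_⟩
  obtain ⟨a1, a2, a3, a4, a5, a6, a7⟩ := h2 j
  refine ⟨fun e => a1 (σ.injective e), ?_, ?_, fun e => a4 (σ.injective e),
    fun e => a5 (σ.injective e), fun e => a6 (σ.injective e), fun e => a7 (σ.injective e)⟩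
  · rw [show (prm σ s).2 ((prm σ s).1 j).1 = s.2 (s.1 j).1 from prm_win σ s _]
    exact a2
  · rw [show (prm σ s).2 ((prm σ s).1 j).2 = s.2 (s.1 j).2 from prm_win σ s _]
    exact a3

theorem cov_prm {σ : Equiv.Perm (Fin 6)} {s : St} (h : Cov s.2) : Cov (prm σ s).2 := by
  intro k
  obtain ⟨i, hi⟩ := h k
  refine ⟨σ i, ?_⟩
  rw [prm_win]
  exact hi

theorem offl_prm {σ : Equiv.Perm (Fin 6)} {p q : Fin 6 × Fin 6} {i : Fin 6} (h : offl p q i) :
    offl (σ p.1, σ p.2) (σ q.1, σ q.2) (σ i) :=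
  ⟨fun e => h.1 (σ.injective e), fun e => h.2.1 (σ.injective e),
    fun e => h.2.2.1 (σ.injective e), fun e => h.2.2.2 (σ.injective e)⟩

/-- every colour is solid -/
abbrev All : Fin 6 → Prop := fun _ => True

theorem xc_prm {σ : Equiv.Perm (Fin 6)} {s s' : St} (h : XCRel All s s') :
    XCRel All (prm σ s) (prm σ s') := by
  intro j
  obtain ⟨⟨⟨i1, a1, b1⟩, ⟨i2, a2, b2⟩, ⟨i3, a3, b3⟩⟩, ⟨i4, a4, b4⟩, ⟨i5, a5, b5⟩, ⟨i6, a6, b6⟩⟩ :=
    h j
  refine ⟨⟨⟨σ i1, offl_prm a1, fun _ => ?_⟩, ⟨σ i2, offl_prm a2, fun _ => ?_⟩,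
    ⟨σ i3, offl_prm a3, fun _ => ?_⟩⟩, ⟨σ i4, offl_prm a4, fun _ => ?_⟩,
    ⟨σ i5, offl_prm a5, fun _ => ?_⟩, ⟨σ i6, offl_prm a6, fun _ => ?_⟩⟩ <;>
    rw [prm_win, prm_win]
  · exact b1 trivial
  · exact b2 trivial
  · exact b3 trivial
  · exact b4 trivial
  · exact b5 trivial
  · exact b6 trivial

/-- `E` does not depend on the names -/
def PrmInv (E : St → St → Prop) : Prop := ∀ σ s s', E s s' → E (prm σ s) (prm σ s')

/-- `E` is invariant under the turn -/
def TurnInv (E : St → St → Prop) : Prop := ∀ s s', E s s' → E (H429.shift s) (H429.shift s')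

theorem okC_prm {E : St → St → Prop} (hE : PrmInv E) {σ : Equiv.Perm (Fin 6)} {s : St}
    (h : OkC All E s) : OkC All E (prm σ s) :=
  ⟨okSt_prm h.ok, cov_prm h.cov, xc_prm h.xc, hE σ s s h.e⟩

theorem stepC_prm {E : St → St → Prop} (hE : PrmInv E) {σ : Equiv.Perm (Fin 6)} {s s' : St}
    (h : StepC All E s s') : StepC All E (prm σ s) (prm σ s') :=
  ⟨okC_prm hE h.ok, okC_prm hE h.ok', fun i => h.win (σ⁻¹ i), xc_prm h.xc, hE σ s s' h.e⟩

/-! ### the turn -/

theorem okSt_shift {s : St} (h : OkSt s) : OkSt (H429.shift s) := by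
  obtain ⟨h1, h2⟩ := h
  refine ⟨fun i => h1 i, fun j => ?_⟩
  obtain ⟨a1, a2, a3, a4, a5, a6, a7⟩ := h2 (j + 1)
  refine ⟨a1, ?_, ?_, a4, a5, a6, a7⟩
  · show inn ((s.2 (s.1 (j + 1)).1).1 - 1, (s.2 (s.1 (j + 1)).1).2) (j.val : ZMod 6)
    rw [WinData.inn_sub_one, ← WinData.fin_add_one]
    exact a2
  · show inn ((s.2 (s.1 (j + 1)).2).1 - 1, (s.2 (s.1 (j + 1)).2).2) ((j.val : ZMod 6) + 3)
    rw [WinData.inn_sub_one]
    have e : (j.val : ZMod 6) + 3 + 1 = ((j + 1 : Fin 6).val : ZMod 6) + 3 := by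
      rw [WinData.fin_add_one]; ring
    rw [e]
    exact a3

theorem cov_shift {w : Wn} (h : Cov w) : Cov (fun i => ((w i).1 - 1, (w i).2)) := by
  intro k
  obtain ⟨i, hi⟩ := h (k + 1)
  refine ⟨i, ?_⟩
  show (k - 1 - ((w i).1 - 1)).val < (w i).2
  have e : k - 1 - ((w i).1 - 1) = k + 1 - 1 - (w i).1 := by ring
  rw [e]
  exact hi

theorem outc_shift (w w' : ZMod 6 × ℕ) (j : ZMod 6) :
    outc (w.1 - 1, w.2) (w'.1 - 1, w'.2) j ↔ outc w w' (j + 1) := by
  unfold outc clen
  have e1 : (w'.1 - 1 = w.1 - 1) = (w'.1 = w.1) := by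
    rw [sub_left_inj]
  have e2 : w.1 - 1 - j = w.1 - (j + 1) := by ring
  simp only [e1, e2]

theorem innc_shift (w w' : ZMod 6 × ℕ) (j : ZMod 6) :
    innc (w.1 - 1, w.2) (w'.1 - 1, w'.2) j ↔ innc w w' (j + 1) := by
  unfold innc
  rw [outc_shift]
  have e : j + 3 + 1 = j + 1 + 3 := by ring
  rw [e]

theorem xc_shift {s s' : St} (h : XCRel All s s') : XCRel All (H429.shift s) (H429.shift s') := by
  have e1 : ∀ j : Fin 6, (j - 1 + 1 : Fin 6) = j + 1 - 1 := by decide
  have ho : ∀ (j i : Fin 6), outc (s.2 i) (s'.2 i) ((j + 1 : Fin 6).val : ZMod 6) →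
      outc ((H429.shift s).2 i) ((H429.shift s').2 i) (j.val : ZMod 6) := by
    intro j i hi
    show outc ((s.2 i).1 - 1, (s.2 i).2) ((s'.2 i).1 - 1, (s'.2 i).2) (j.val : ZMod 6)
    rw [outc_shift, ← WinData.fin_add_one]
    exact hi
  have hi : ∀ (j i : Fin 6), innc (s.2 i) (s'.2 i) ((j + 1 : Fin 6).val : ZMod 6) →
      innc ((H429.shift s).2 i) ((H429.shift s').2 i) (j.val : ZMod 6) := by
    intro j i hi
    show innc ((s.2 i).1 - 1, (s.2 i).2) ((s'.2 i).1 - 1, (s'.2 i).2) (j.val : ZMod 6)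
    rw [innc_shift, ← WinData.fin_add_one]
    exact hi
  intro j
  obtain ⟨⟨⟨i1, a1, b1⟩, ⟨i2, a2, b2⟩, ⟨i3, a3, b3⟩⟩, ⟨i4, a4, b4⟩, ⟨i5, a5, b5⟩, ⟨i6, a6, b6⟩⟩ :=
    h (j + 1)
  rw [← e1 j] at a1 a2 a3 a4 a5 a6
  exact ⟨⟨⟨i1, a1, fun _ => ho j i1 (b1 trivial)⟩, ⟨i2, a2, fun _ => ho j i2 (b2 trivial)⟩,
    ⟨i3, a3, fun _ => ho j i3 (b3 trivial)⟩⟩, ⟨i4, a4, fun _ => hi j i4 (b4 trivial)⟩,
    ⟨i5, a5, fun _ => hi j i5 (b5 trivial)⟩, ⟨i6, a6, fun _ => hi j i6 (b6 trivial)⟩⟩

theorem okC_shift {E : St → St → Prop} (hE : TurnInv E) {s : St} (h : OkC All E s) :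
    OkC All E (H429.shift s) :=
  ⟨okSt_shift h.ok, cov_shift h.cov, xc_shift h.xc, hE s s h.e⟩

theorem wstep_shift {w w' : ZMod 6 × ℕ} (h : WStep w w') :
    WStep (w.1 - 1, w.2) (w'.1 - 1, w'.2) := by
  rcases h with h | h | h | ⟨h1, h⟩
  · left; rw [h]
  · right; left; rw [h]
  · right; right; left; rw [h]
  · right; right; right
    exact ⟨h1, by rw [h]⟩

theorem stepC_shift {E : St → St → Prop} (hE : TurnInv E) {s s' : St} (h : StepC All E s s') :
    StepC All E (H429.shift s) (H429.shift s') :=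
  ⟨okC_shift hE h.ok, okC_shift hE h.ok', fun i => wstep_shift (h.win i), xc_shift h.xc,
    hE s s' h.e⟩

/-- six turns -/
theorem shift_six (s : St) : H429.shift^[6] s = s := by
  have e1 : ∀ j : Fin 6, (j + 1 + 1 + 1 + 1 + 1 + 1 : Fin 6) = j := by decide
  have e2 : ∀ a : ZMod 6, a - 1 - 1 - 1 - 1 - 1 - 1 = a := by decide
  refine Prod.ext ?_ ?_
  · funext j
    show s.1 (j + 1 + 1 + 1 + 1 + 1 + 1) = s.1 j
    rw [e1]
  · funext i
    show ((s.2 i).1 - 1 - 1 - 1 - 1 - 1 - 1, (s.2 i).2) = s.2 i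
    rw [e2]

/-! ### restricted growth -/

/-- the number of names used before the place `p` (the names are `0, 1, ..`) -/
def used (a : ℕ → Fin 6) (p : ℕ) : ℕ := (Finset.range p).sup fun q => (a q).val + 1

theorem used_succ (a : ℕ → Fin 6) (p : ℕ) : used a (p + 1) = max (used a p) ((a p).val + 1) := by
  unfold used
  rw [Finset.range_add_one, Finset.sup_insert, max_comm]

theorem lt_used {a : ℕ → Fin 6} {p q : ℕ} (h : q < p) : (a q).val < used a p := by
  have := Finset.le_sup (f := fun q => (a q).val + 1) (Finset.mem_range.2 h)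
  exact this

/-- **Restricted growth**: the colours can be renamed such that every new colour is the first one
not used so far. -/
theorem exists_rg (a : ℕ → Fin 6) (n : ℕ) : ∃ σ : Equiv.Perm (Fin 6), ∀ p < n,
    (σ (a p)).val ≤ used (fun q => σ (a q)) p := by
  induction n with
  | zero => exact ⟨1, fun p hp => absurd hp (Nat.not_lt_zero _)⟩
  | succ n ih =>
    obtain ⟨σ, hσ⟩ := ih
    by_cases hn : (σ (a n)).val ≤ used (fun q => σ (a q)) n
    · refine ⟨σ, fun p hp => ?_⟩
      rcases Nat.lt_succ_iff_lt_or_eq.1 hp with h | h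
      · exact hσ p h
      · rw [h]; exact hn
    · push Not at hn
      set k := used (fun q => σ (a q)) n with hk
      have hk6 : k < 6 := hn.trans (σ (a n)).isLt
      refine ⟨Equiv.swap ⟨k, hk6⟩ (σ (a n)) * σ, ?_⟩
      have key : ∀ q < n, (Equiv.swap ⟨k, hk6⟩ (σ (a n)) * σ) (a q) = σ (a q) := by
        intro q hq
        have h1 : (σ (a q)).val < k := lt_used (a := fun q => σ (a q)) hq
        rw [Equiv.Perm.mul_apply]
        refine Equiv.swap_apply_of_ne_of_ne ?_ ?_
        · intro e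
          rw [e] at h1
          exact lt_irrefl _ h1
        · intro e
          rw [e] at h1
          exact absurd hn (not_lt.2 h1.le)
      have key2 : ∀ p ≤ n, used (fun q => (Equiv.swap ⟨k, hk6⟩ (σ (a n)) * σ) (a q)) p =
          used (fun q => σ (a q)) p := by
        intro p hp
        unfold used
        refine Finset.sup_congr rfl fun q hq => ?_
        show ((Equiv.swap ⟨k, hk6⟩ (σ (a n)) * σ) (a q)).val + 1 = (σ (a q)).val + 1
        rw [key q (lt_of_lt_of_le (Finset.mem_range.1 hq) hp)]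
      intro p hp
      rcases Nat.lt_succ_iff_lt_or_eq.1 hp with h | h
      · rw [key2 p h.le, key p h]
        exact hσ p h
      · rw [h, key2 n le_rfl, Equiv.Perm.mul_apply, Equiv.swap_apply_right]

/-- the letters of a column as a sequence: inner and outer letter of the slots `0, .., 5` -/
def lseq (g : Cl) (p : ℕ) : Fin 6 :=
  if p % 2 = 0 then (g (Fin.ofNat 6 (p / 2))).1 else (g (Fin.ofNat 6 (p / 2))).2

theorem lseq_prm (σ : Equiv.Perm (Fin 6)) (s : St) (p : ℕ) :
    lseq (prm σ s).1 p = σ (lseq s.1 p) := by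
  unfold lseq
  split_ifs <;> rfl

/-- the column is in restricted growth form -/
def RG (g : Cl) : Prop := ∀ p < 12, (lseq g p).val ≤ used (lseq g) p

theorem exists_RG (s : St) : ∃ σ, RG (prm σ s).1 := by
  obtain ⟨σ, hσ⟩ := exists_rg (lseq s.1) 12
  refine ⟨σ, fun p hp => ?_⟩
  have e : lseq (prm σ s).1 = fun q => σ (lseq s.1 q) := funext fun q => lseq_prm σ s q
  rw [e]
  exact hσ p hp

/-- **Without loss of generality**: a property of the steps which does not depend on the names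
holds if it holds for the steps from a column in restricted growth form. -/
theorem forall_of_RG {E : St → St → Prop} (hE : PrmInv E) {P : St → St → Prop}
    (hP : ∀ σ s s', P (prm σ s) (prm σ s') → P s s')
    (h : ∀ s s', StepC All E s s' → RG s.1 → P s s') :
    ∀ s s', StepC All E s s' → P s s' := by
  intro s s' hs
  obtain ⟨σ, hσ⟩ := exists_RG s
  exact hP σ s s' (h _ _ (stepC_prm hE hs) hσ)

/-- **Without loss of generality**, names and turns: it is enough to look at columns in restricted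
growth form whose code is minimal among all turned and renamed columns in this form. -/
theorem forall_of_min {E : St → St → Prop} (hE : PrmInv E) (hT : TurnInv E) {P : St → St → Prop}
    (hP : ∀ σ s s', P (prm σ s) (prm σ s') → P s s')
    (hP' : ∀ s s', P (H429.shift s) (H429.shift s') → P s s') (code : Cl → ℕ)
    (h : ∀ s s', StepC All E s s' → RG s.1 →
      (∀ k σ, RG (prm σ (H429.shift^[k] s)).1 → code s.1 ≤ code (prm σ (H429.shift^[k] s)).1) →
      P s s') :
    ∀ s s', StepC All E s s' → P s s' := by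
  intro s s' hs
  -- choose the minimal code
  obtain ⟨n, ⟨k, σ, hRG, hn⟩, hmin⟩ : ∃ n, (∃ k σ, RG (prm σ (H429.shift^[k] s)).1 ∧
      code (prm σ (H429.shift^[k] s)).1 = n) ∧
      ∀ m, (∃ k σ, RG (prm σ (H429.shift^[k] s)).1 ∧
        code (prm σ (H429.shift^[k] s)).1 = m) → n ≤ m := by
    classical
    have hex : ∃ n, ∃ k σ, RG (prm σ (H429.shift^[k] s)).1 ∧
        code (prm σ (H429.shift^[k] s)).1 = n := by
      obtain ⟨σ, hσ⟩ := exists_RG s
      exact ⟨_, 0, σ, hσ, rfl⟩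
    exact ⟨Nat.find hex, Nat.find_spec hex, fun m hm => Nat.find_min' hex hm⟩
  have hst : ∀ k, StepC All E (H429.shift^[k] s) (H429.shift^[k] s') := by
    intro k
    induction k with
    | zero => exact hs
    | succ k ih =>
      rw [Function.iterate_succ_apply', Function.iterate_succ_apply']
      exact stepC_shift hT ih
  have hsh : ∀ (k : ℕ) (σ : Equiv.Perm (Fin 6)) (s : St),
      H429.shift^[k] (prm σ s) = prm σ (H429.shift^[k] s) := by
    intro k σ s
    induction k with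
    | zero => rfl
    | succ k ih => rw [Function.iterate_succ_apply', Function.iterate_succ_apply', ih, shift_prm]
  have h1 := h _ _ (stepC_prm hE (σ := σ) (hst k)) hRG (by
    intro k' σ' hR
    rw [hsh, ← prm_mul, ← Function.iterate_add_apply] at hR ⊢
    rw [hn]
    exact hmin _ ⟨_, _, hR, rfl⟩)
  have h2 := hP _ _ _ h1
  have h3 : ∀ k, P (H429.shift^[k] s) (H429.shift^[k] s') → P s s' := by
    intro k
    induction k with
    | zero => exact id
    | succ k ih =>
      intro h4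
      rw [Function.iterate_succ_apply', Function.iterate_succ_apply'] at h4
      exact ih (hP' _ _ h4)
  exact h3 k h2

end Vale.Agent.P032.H728
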