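import Vale.Agent.P032.H728.Mix

/-!
# P032: an event whose next change of the column is impossible does not occur

`next_dead` : let `X` be a set of pairs of columns.  If after an event in `X` at the time `u` the
first change of the column at a time `u' < u + 1` is impossible, then the column stays until
`u + 1`, where it is the column before the event turned by 60 degrees.  `prev_dead` : the same with
the change before the event.
-/

open Set Filter Topology Metric

noncomputable section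

namespace Vale.Agent.P032.H728

open Vale.Agent.P032.Six Vale.Agent.P032.Sweep Vale.Agent.P032.S5.H767 Vale.Agent.P032.S5.H122
  Vale.Agent.P032.H429 Vale.Agent.P032.H158

section

variable {U : Fin 6 → Set ℂ} {T : ℂ → Set (Fin 6)} {z : ℂ} {L R : Fin 6 → ℝ}

/-- a column which is frequent from the left gives a limit state -/
theorem LS_of_freq {u : ℝ} {g : Cl}
    (hg : ∃ᶠ v in 𝓝[<] u, v ∈ WinData.G T z L R ∧ (WinData.st T z L R v).1 = g) :
    (g, wn L R u) ∈ LS T z L R u := by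
  show ∃ᶠ v in 𝓝[<] u, v ∈ WinData.G T z L R ∧ WinData.st T z L R v = (g, wn L R u)
  refine (hg.and_eventually (wn_left L R u)).mono ?_
  rintro v ⟨⟨h1, h2⟩, h3⟩
  exact ⟨h1, Prod.ext h2 h3⟩

/-- a column which is frequent from the right gives a limit state -/
theorem RS_of_freq {u : ℝ} {g : Cl}
    (hg : ∃ᶠ v in 𝓝[>] u, v ∈ WinData.G T z L R ∧ (WinData.st T z L R v).1 = g) :
    (g, wr L R u) ∈ RS T z L R u := by
  show ∃ᶠ v in 𝓝[>] u, v ∈ WinData.G T z L R ∧ WinData.st T z L R v = (g, wr L R u)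
  refine (hg.and_eventually (wn_right L R u)).mono ?_
  rintro v ⟨⟨h1, h2⟩, h3⟩
  exact ⟨h1, Prod.ext h2 h3⟩

/-- a change which is frequent from the left gives a limit state with another column -/
theorem exists_LS_ne {u : ℝ} {g : Cl}
    (hg : ∃ᶠ v in 𝓝[<] u, v ∈ WinData.G T z L R ∧ (WinData.st T z L R v).1 ≠ g) :
    ∃ s ∈ LS T z L R u, s.1 ≠ g := by
  obtain ⟨v, ⟨h1, h2⟩, h3⟩ := (hg.and_eventually (WinData.ev_LS T z L R u)).exists
  exact ⟨_, h3 h1, h2⟩

/-- a change which is frequent from the right gives a limit state with another column -/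
theorem exists_RS_ne {u : ℝ} {g : Cl}
    (hg : ∃ᶠ v in 𝓝[>] u, v ∈ WinData.G T z L R ∧ (WinData.st T z L R v).1 ≠ g) :
    ∃ s ∈ RS T z L R u, s.1 ≠ g := by
  obtain ⟨v, ⟨h1, h2⟩, h3⟩ := (hg.and_eventually (WinData.ev_RS T z L R u)).exists
  exact ⟨_, h3 h1, h2⟩

theorem LS_turn {u : ℝ} {s : St} (hs : s ∈ LS T z L R u) :
    H429.shift s ∈ LS T z L R (u + 1) := by
  have hs' : ∃ᶠ v in 𝓝[<] u, v ∈ WinData.G T z L R ∧ WinData.st T z L R v = s := hs
  show ∃ᶠ v in 𝓝[<] (u + 1), v ∈ WinData.G T z L R ∧ WinData.st T z L R v = H429.shift s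
  have h1 : Tendsto (fun v : ℝ => v + 1) (𝓝[<] u) (𝓝[<] (u + 1)) := by
    refine tendsto_nhdsWithin_iff.2 ⟨?_, ?_⟩
    · have hc : Continuous fun v : ℝ => v + 1 := by fun_prop
      exact (hc.tendsto u).mono_left nhdsWithin_le_nhds
    · filter_upwards [self_mem_nhdsWithin] with v hv
      have hv' : v < u := hv
      show v + 1 < u + 1
      linarith
  refine h1.frequently (hs'.mono ?_)
  rintro v ⟨h2, rfl⟩
  exact ⟨WinData.G_turn h2, WinData.st_turn T z L R v⟩

theorem RS_turn {u : ℝ} {s : St} (hs : s ∈ RS T z L R u) :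
    H429.shift s ∈ RS T z L R (u + 1) := by
  have hs' : ∃ᶠ v in 𝓝[>] u, v ∈ WinData.G T z L R ∧ WinData.st T z L R v = s := hs
  show ∃ᶠ v in 𝓝[>] (u + 1), v ∈ WinData.G T z L R ∧ WinData.st T z L R v = H429.shift s
  have h1 : Tendsto (fun v : ℝ => v + 1) (𝓝[>] u) (𝓝[>] (u + 1)) := by
    refine tendsto_nhdsWithin_iff.2 ⟨?_, ?_⟩
    · have hc : Continuous fun v : ℝ => v + 1 := by fun_prop
      exact (hc.tendsto u).mono_left nhdsWithin_le_nhds
    · filter_upwards [self_mem_nhdsWithin] with v hv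
      have hv' : u < v := hv
      show u + 1 < v + 1
      linarith
  refine h1.frequently (hs'.mono ?_)
  rintro v ⟨h2, rfl⟩
  exact ⟨WinData.G_turn h2, WinData.st_turn T z L R v⟩

/-- **the next change of the column**: a generic time `a` and a time `c > a`: either the column is
constant at the generic times of `(a, c)` or there is a first change -/
theorem next_change (h : Irr U T) {a c : ℝ} (ha : a ∈ WinData.G T z L R) (hac : a < c) :
    (∀ v ∈ WinData.G T z L R, a < v → v < c →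
      (WinData.st T z L R v).1 = (WinData.st T z L R a).1) ∨
    ∃ b, a < b ∧ b < c ∧ ∃ t ∈ LS T z L R b, ∃ t' ∈ RS T z L R b,
      t.1 = (WinData.st T z L R a).1 ∧ t'.1 ≠ t.1 := by
  set g := (WinData.st T z L R a).1 with hg
  set B : Set ℝ := {x | x ∈ Icc a c ∧ ∀ v ∈ WinData.G T z L R, a < v → v < x →
    (WinData.st T z L R v).1 = g} with hB
  have hd := WinData.G_dense h z L R
  have haB : a ∈ B := ⟨⟨le_rfl, hac.le⟩, fun v _ h1 h2 => absurd (h1.trans h2) (lt_irrefl _)⟩
  have hbdd : BddAbove B := ⟨c, fun x hx => hx.1.2⟩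
  set b := sSup B with hb
  have hab : a ≤ b := le_csSup hbdd haB
  have hbc : b ≤ c := csSup_le ⟨a, haB⟩ fun x hx => hx.1.2
  have hlow : ∀ v ∈ WinData.G T z L R, a < v → v < b → (WinData.st T z L R v).1 = g := by
    intro v hv h1 h2
    obtain ⟨x, hx, hvx⟩ := exists_lt_of_lt_csSup ⟨a, haB⟩ h2
    exact hx.2 v hv h1 hvx
  -- `a < b`
  have hab' : a < b := by
    obtain ⟨δ, hδ, hball⟩ := Metric.eventually_nhds_iff.1 (WinData.st_const ha)
    have h1 : min c (a + δ) ∈ B := by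
      refine ⟨⟨le_min hac.le (by linarith), min_le_left _ _⟩, fun v hv h2 h3 => ?_⟩
      rw [hball (y := v)]
      rw [Real.dist_eq, abs_of_pos (by linarith)]
      linarith [lt_of_lt_of_le h3 (min_le_right c (a + δ))]
    exact lt_of_lt_of_le (lt_min hac (by linarith)) (le_csSup hbdd h1)
  rcases hbc.eq_or_lt with he | hlt
  · left
    intro v hv h1 h2
    exact hlow v hv h1 (by rw [he]; exact h2)
  · right
    -- the column `g` is frequent from the left at `b`
    have hleft : ∃ᶠ v in 𝓝[<] b, v ∈ WinData.G T z L R ∧ (WinData.st T z L R v).1 = g := by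
      rw [frequently_iff]
      intro W hW
      obtain ⟨d, hd', hsub⟩ := mem_nhdsLT_iff_exists_Ioo_subset.1 hW
      obtain ⟨x, hx1, hx2⟩ := hd.exists_mem_open isOpen_Ioo
        (nonempty_Ioo.2 (show max a d < b from max_lt hab' hd'))
      have hxa : a < x := lt_of_le_of_lt (le_max_left _ _) hx2.1
      have hxd : d < x := lt_of_le_of_lt (le_max_right _ _) hx2.1
      exact ⟨x, hsub ⟨hxd, hx2.2⟩, hx1, hlow x hx1 hxa hx2.2⟩
    -- another column is frequent from the right at `b`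
    have hright : ∃ᶠ v in 𝓝[>] b, v ∈ WinData.G T z L R ∧ (WinData.st T z L R v).1 ≠ g := by
      by_contra hcon
      have hcon' : ∀ᶠ v in 𝓝[>] b, ¬ (v ∈ WinData.G T z L R ∧
        (WinData.st T z L R v).1 ≠ g) := not_frequently.1 hcon
      obtain ⟨d, hd', hsub⟩ := mem_nhdsGT_iff_exists_Ioo_subset.1 hcon'
      have hd' : b < d := hd'
      have h1 : min c d ∈ B := by
        refine ⟨⟨le_min hac.le (by linarith), min_le_left _ _⟩, fun v hv h2 h3 => ?_⟩
        rcases lt_trichotomy v b with h4 | h4 | h4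
        · exact hlow v hv h2 h4
        · subst h4
          have h5 := hleft.and_eventually (mem_nhdsWithin_of_mem_nhds (WinData.st_const hv))
          obtain ⟨x, ⟨-, h6⟩, h7⟩ := h5.exists
          rw [← h7]
          exact h6
        · have h5 := hsub ⟨h4, lt_of_lt_of_le h3 (min_le_right _ _)⟩
          by_contra h6
          exact h5 ⟨hv, h6⟩
      have h2 := le_csSup hbdd h1
      have h3 : b < min c d := lt_min hlt hd'
      linarith
    obtain ⟨t', ht', hne⟩ := exists_RS_ne hright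
    exact ⟨b, hab', hlt, _, LS_of_freq hleft, t', ht', rfl, hne⟩

/-- **the previous change of the column** -/
theorem prev_change (h : Irr U T) {a c : ℝ} (ha : a ∈ WinData.G T z L R) (hca : c < a) :
    (∀ v ∈ WinData.G T z L R, c < v → v < a →
      (WinData.st T z L R v).1 = (WinData.st T z L R a).1) ∨
    ∃ b, c < b ∧ b < a ∧ ∃ t ∈ LS T z L R b, ∃ t' ∈ RS T z L R b,
      t'.1 = (WinData.st T z L R a).1 ∧ t.1 ≠ t'.1 := by
  set g := (WinData.st T z L R a).1 with hg
  set B : Set ℝ := {x | x ∈ Icc c a ∧ ∀ v ∈ WinData.G T z L R, x < v → v < a →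
    (WinData.st T z L R v).1 = g} with hB
  have hd := WinData.G_dense h z L R
  have haB : a ∈ B := ⟨⟨hca.le, le_rfl⟩, fun v _ h1 h2 => absurd (h1.trans h2) (lt_irrefl _)⟩
  have hbdd : BddBelow B := ⟨c, fun x hx => hx.1.1⟩
  set b := sInf B with hb
  have hab : b ≤ a := csInf_le hbdd haB
  have hbc : c ≤ b := le_csInf ⟨a, haB⟩ fun x hx => hx.1.1
  have hlow : ∀ v ∈ WinData.G T z L R, b < v → v < a → (WinData.st T z L R v).1 = g := by
    intro v hv h1 h2
    obtain ⟨x, hx, hvx⟩ := exists_lt_of_csInf_lt ⟨a, haB⟩ h1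
    exact hx.2 v hv hvx h2
  have hab' : b < a := by
    obtain ⟨δ, hδ, hball⟩ := Metric.eventually_nhds_iff.1 (WinData.st_const ha)
    have h1 : max c (a - δ) ∈ B := by
      refine ⟨⟨le_max_left _ _, max_le hca.le (by linarith)⟩, fun v hv h2 h3 => ?_⟩
      rw [hball (y := v)]
      rw [Real.dist_eq, abs_of_neg (by linarith)]
      linarith [lt_of_le_of_lt (le_max_right c (a - δ)) h2]
    exact lt_of_le_of_lt (csInf_le hbdd h1) (max_lt hca (by linarith))
  rcases hbc.eq_or_lt with he | hlt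
  · left
    intro v hv h1 h2
    exact hlow v hv (by rw [← he]; exact h1) h2
  · right
    have hright : ∃ᶠ v in 𝓝[>] b, v ∈ WinData.G T z L R ∧ (WinData.st T z L R v).1 = g := by
      rw [frequently_iff]
      intro W hW
      obtain ⟨d, hd', hsub⟩ := mem_nhdsGT_iff_exists_Ioo_subset.1 hW
      obtain ⟨x, hx1, hx2⟩ := hd.exists_mem_open isOpen_Ioo
        (nonempty_Ioo.2 (show b < min a d from lt_min hab' hd'))
      have hxa : x < a := lt_of_lt_of_le hx2.2 (min_le_left _ _)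
      have hxd : x < d := lt_of_lt_of_le hx2.2 (min_le_right _ _)
      exact ⟨x, hsub ⟨hx2.1, hxd⟩, hx1, hlow x hx1 hx2.1 hxa⟩
    have hleft : ∃ᶠ v in 𝓝[<] b, v ∈ WinData.G T z L R ∧ (WinData.st T z L R v).1 ≠ g := by
      by_contra hcon
      have hcon' : ∀ᶠ v in 𝓝[<] b, ¬ (v ∈ WinData.G T z L R ∧
        (WinData.st T z L R v).1 ≠ g) := not_frequently.1 hcon
      obtain ⟨d, hd', hsub⟩ := mem_nhdsLT_iff_exists_Ioo_subset.1 hcon'
      have hd' : d < b := hd'
      have h1 : max c d ∈ B := by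
        refine ⟨⟨le_max_left _ _, max_le hca.le (by linarith)⟩, fun v hv h2 h3 => ?_⟩
        rcases lt_trichotomy v b with h4 | h4 | h4
        · have h5 := hsub ⟨lt_of_le_of_lt (le_max_right _ _) h2, h4⟩
          by_contra h6
          exact h5 ⟨hv, h6⟩
        · subst h4
          have h5 := hright.and_eventually (mem_nhdsWithin_of_mem_nhds (WinData.st_const hv))
          obtain ⟨x, ⟨-, h6⟩, h7⟩ := h5.exists
          rw [← h7]
          exact h6
        · exact hlow v hv h4 h3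
      have h2 := csInf_le hbdd h1
      have h3 : max c d < b := max_lt hlt hd'
      linarith
    obtain ⟨t, ht, hne⟩ := exists_LS_ne hleft
    exact ⟨b, hlt, hab', t, ht, _, RS_of_freq hright, rfl, hne⟩

/-- **An event whose next change is impossible does not occur.** -/
theorem next_dead (h : Irr U T) {X : Cl → Cl → Prop}
    (hK : ∀ u u', u < u' → u' < u + 1 → ∀ s ∈ LS T z L R u, ∀ s' ∈ RS T z L R u,
      ∀ t ∈ LS T z L R u', ∀ t' ∈ RS T z L R u', X s.1 s'.1 → t.1 = s'.1 → t'.1 ≠ t.1 → False)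
    {u : ℝ} {s s' : St} (hs : s ∈ LS T z L R u) (hs' : s' ∈ RS T z L R u) (hX : X s.1 s'.1) :
    s'.1 = (H429.shift s).1 := by
  have hs'' : ∃ᶠ v in 𝓝[>] u, v ∈ WinData.G T z L R ∧ WinData.st T z L R v = s' := hs'
  have e1 : ∀ᶠ v in 𝓝[>] u, v < u + 1 :=
    mem_nhdsWithin_of_mem_nhds (Iio_mem_nhds (by linarith))
  obtain ⟨a, ⟨⟨haG, ha⟩, ha1⟩, hua⟩ :=
    ((hs''.and_eventually e1).and_eventually self_mem_nhdsWithin).exists
  have hua : u < a := hua
  have ha1 : a < u + 1 := ha1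
  rcases next_change h haG ha1 with hc | ⟨b, hab, hb1, t, ht, t', ht', h1, h2⟩
  · have h3 : ∃ᶠ v in 𝓝[<] (u + 1), v ∈ WinData.G T z L R ∧
        WinData.st T z L R v = H429.shift s := LS_turn hs
    have e2 : ∀ᶠ v in 𝓝[<] (u + 1), a < v := mem_nhdsWithin_of_mem_nhds (Ioi_mem_nhds ha1)
    obtain ⟨v, ⟨⟨hvG, hv⟩, hav⟩, hvu⟩ :=
      ((h3.and_eventually e2).and_eventually self_mem_nhdsWithin).exists
    have h4 := hc v hvG hav hvu
    rw [hv, ha] at h4
    exact h4.symm
  · rw [ha] at h1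
    exact (hK u b (hua.trans hab) hb1 s hs s' hs' t ht t' ht' hX h1 h2).elim

/-- **An event whose previous change is impossible does not occur.** -/
theorem prev_dead (h : Irr U T) {X : Cl → Cl → Prop}
    (hK : ∀ u' u, u' < u → u < u' + 1 → ∀ t ∈ LS T z L R u', ∀ t' ∈ RS T z L R u',
      ∀ s ∈ LS T z L R u, ∀ s' ∈ RS T z L R u, X s.1 s'.1 → t'.1 = s.1 → t.1 ≠ t'.1 → False)
    {u : ℝ} {s s' : St} (hs : s ∈ LS T z L R u) (hs' : s' ∈ RS T z L R u) (hX : X s.1 s'.1) :
    s'.1 = (H429.shift s).1 := by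
  have hs1 : H429.shift s ∈ LS T z L R (u + 1) := LS_turn hs
  have hs1' : H429.shift s' ∈ RS T z L R (u + 1) := RS_turn hs'
  have hs'' : ∃ᶠ v in 𝓝[<] u, v ∈ WinData.G T z L R ∧ WinData.st T z L R v = s := hs
  -- work on the interval `(u - 1, u)`: a generic time before `u`
  have e1 : ∀ᶠ v in 𝓝[<] u, u - 1 < v :=
    mem_nhdsWithin_of_mem_nhds (Ioi_mem_nhds (by linarith))
  obtain ⟨a, ⟨⟨haG, ha⟩, ha1⟩, hua⟩ :=
    ((hs''.and_eventually e1).and_eventually self_mem_nhdsWithin).exists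
  have hua : a < u := hua
  have ha1 : u - 1 < a := ha1
  rcases prev_change h haG ha1 with hc | ⟨b, hb1, hba, t, ht, t', ht', h1, h2⟩
  · -- the column is constant on `(u - 1, a)`; turn a time near `u` from the right back
    have h3 : ∃ᶠ v in 𝓝[>] u, v ∈ WinData.G T z L R ∧ WinData.st T z L R v = s' := hs'
    have e2 : ∀ᶠ v in 𝓝[>] u, v < a + 1 :=
      mem_nhdsWithin_of_mem_nhds (Iio_mem_nhds (by linarith))
    obtain ⟨v, ⟨⟨hvG, hv⟩, hav⟩, hvu⟩ :=
      ((h3.and_eventually e2).and_eventually self_mem_nhdsWithin).exists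
    have hvu : u < v := hvu
    -- a generic time `x` near `v - 1` with `x + 1` near `v`
    obtain ⟨δ, hδ, hball⟩ := Metric.eventually_nhds_iff.1 (WinData.st_const hvG)
    have hne : (Ioo (u - 1) a ∩ Ioo (v - 1 - δ) (v - 1 + δ)).Nonempty :=
      ⟨v - 1, ⟨by linarith, by linarith⟩, by linarith, by linarith⟩
    obtain ⟨x, hxG, hx⟩ := (WinData.G_dense h z L R).exists_mem_open
      (isOpen_Ioo.inter isOpen_Ioo) hne
    have h4 := hc x hxG hx.1.1 hx.1.2
    have h5 : WinData.st T z L R (x + 1) = WinData.st T z L R v := by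
      refine hball ?_
      rw [Real.dist_eq, abs_lt]
      constructor <;> linarith [hx.2.1, hx.2.2]
    rw [WinData.st_turn, hv] at h5
    rw [← h5]
    show (fun j => (WinData.st T z L R x).1 (j + 1)) = fun j => s.1 (j + 1)
    rw [h4, ha]
  · rw [ha] at h1
    exact (hK b u (hba.trans hua) (by linarith) t ht t' ht' s hs s' hs' hX h1 h2).elim

/-- **Chain form**: every next change after an event in `X` is in `Y`, and `Y` is dead. -/
theorem next_dead_of (h : Irr U T) {X Y : Cl → Cl → Prop}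
    (hK : ∀ u u', u < u' → u' < u + 1 → ∀ s ∈ LS T z L R u, ∀ s' ∈ RS T z L R u,
      ∀ t ∈ LS T z L R u', ∀ t' ∈ RS T z L R u', X s.1 s'.1 → t.1 = s'.1 → t'.1 ≠ t.1 →
        Y t.1 t'.1)
    (hY : ∀ u, ∀ t ∈ LS T z L R u, ∀ t' ∈ RS T z L R u, ¬ Y t.1 t'.1)
    (hX : ∀ s s' : St, X s.1 s'.1 → s'.1 ≠ (H429.shift s).1) :
    ∀ u, ∀ s ∈ LS T z L R u, ∀ s' ∈ RS T z L R u, ¬ X s.1 s'.1 := by
  intro u s hs s' hs' h1
  refine hX s s' h1 (next_dead h (X := X) ?_ hs hs' h1)
  intro u u' g1 g2 s hs s' hs' t ht t' ht' g3 g4 g5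
  exact hY u' t ht t' ht' (hK u u' g1 g2 s hs s' hs' t ht t' ht' g3 g4 g5)

/-- **Chain form**, backwards. -/
theorem prev_dead_of (h : Irr U T) {X Y : Cl → Cl → Prop}
    (hK : ∀ u' u, u' < u → u < u' + 1 → ∀ t ∈ LS T z L R u', ∀ t' ∈ RS T z L R u',
      ∀ s ∈ LS T z L R u, ∀ s' ∈ RS T z L R u, X s.1 s'.1 → t'.1 = s.1 → t.1 ≠ t'.1 →
        Y t.1 t'.1)
    (hY : ∀ u, ∀ t ∈ LS T z L R u, ∀ t' ∈ RS T z L R u, ¬ Y t.1 t'.1)
    (hX : ∀ s s' : St, X s.1 s'.1 → s'.1 ≠ (H429.shift s).1) :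
    ∀ u, ∀ s ∈ LS T z L R u, ∀ s' ∈ RS T z L R u, ¬ X s.1 s'.1 := by
  intro u s hs s' hs' h1
  refine hX s s' h1 (prev_dead h (X := X) ?_ hs hs' h1)
  intro u' u g1 g2 t ht t' ht' s hs s' hs' g3 g4 g5
  exact hY u' t ht t' ht' (hK u' u g1 g2 t ht t' ht' s hs s' hs' g3 g4 g5)

end

end Vale.Agent.P032.H728
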